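import Vale.Agent.P100.Defs

/-!
# P100 Arith: bookkeeping of the error terms (pure real inequalities, `X = R/d ≥ 1`)

* `arith_tau`: `(M X^(2n+1) b)^p = M^p X^((2n+1)p) b^p`, `R^A R^n = R^(2+A) R^(n-2)`, `X^(1 + (2n+1)p) ≤ X^N` for a natural `N ≥ 1 + (2n+1)p`.
* `arith_lip`: `R (d^(n+1))⁻¹ R^n = X^(n+1)`, `R (d/d^n) R^(n-2) = X^(n-1) ≤ X^(n+1)`.
* `arith_bad`: `X · 2 (2/(η/X))^n · (C₁ R^n b/(M X^(2n+1) b)) = 2 (2/η)^n C₁ R^n/(M X^n) = 2 (2/η)^n C₁ d^n / M`.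
-/

open MeasureTheory Set Metric Filter Topology

noncomputable section

namespace Vale.Agent.P100

variable {n : ℕ}

theorem arith_tau (n : ℕ) {p M C₁ c₀ : ℝ} (A : ℝ) (hp : 0 < p) (hM : 0 < M) (hC₁ : 0 < C₁) (hc₀ : 0 < c₀) :
    ∃ (C : ℝ) (N : ℕ), 0 ≤ C ∧ ∀ R d a b I : ℝ, 0 < d → d ≤ R → 0 < a → 0 < b →
      c₀ * R ^ (2 + A) * b ^ p ≤ a → I ≤ C₁ * R ^ n * b →
      (R / d) * ((M * (R / d) ^ (2 * n + 1) * b) ^ p * R ^ A * I) ≤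
        C * (R ^ ((n : ℝ) - 2) * a * b) * (R / d) ^ N := by
  refine ⟨M ^ p * C₁ / c₀, (2 * n + 1) * ⌈p⌉₊ + 1, by positivity, ?_⟩
  intro R d a b I hd hR ha hb h1 hI
  have hR0 : 0 < R := hd.trans_le hR
  have hX : 1 ≤ R / d := (one_le_div hd).2 hR
  set X := R / d with hXdef
  have hX0 : 0 < X := one_pos.trans_le hX
  have e1 : (M * X ^ (2 * n + 1) * b) ^ p = M ^ p * (X ^ (2 * n + 1)) ^ p * b ^ p := by
    rw [Real.mul_rpow (by positivity) hb.le, Real.mul_rpow hM.le (by positivity)]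
  have e2 : (X ^ (2 * n + 1)) ^ p ≤ X ^ ((2 * n + 1) * ⌈p⌉₊) := by
    rw [pow_mul, ← Real.rpow_natCast (X ^ (2 * n + 1)) ⌈p⌉₊]
    exact Real.rpow_le_rpow_of_exponent_le (one_le_pow₀ hX) (Nat.le_ceil p)
  have e3 : R ^ A * R ^ n = R ^ (2 + A) * R ^ ((n : ℝ) - 2) := by
    rw [← Real.rpow_natCast R n, ← Real.rpow_add hR0, ← Real.rpow_add hR0]
    congr 1
    ring
  have e4 : R ^ (2 + A) * b ^ p ≤ a / c₀ := by
    rw [le_div_iff₀ hc₀]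
    linarith
  set Y := X ^ ((2 * n + 1) * ⌈p⌉₊) with hY
  set Z := (X ^ (2 * n + 1)) ^ p with hZ
  have hZ0 : 0 ≤ Z := by positivity
  calc X * ((M * X ^ (2 * n + 1) * b) ^ p * R ^ A * I)
      ≤ X * ((M * X ^ (2 * n + 1) * b) ^ p * R ^ A * (C₁ * R ^ n * b)) := by gcongr
    _ = X * M ^ p * C₁ * b * Z * (R ^ A * R ^ n) * b ^ p := by rw [e1]; ring
    _ = X * M ^ p * C₁ * b * R ^ ((n : ℝ) - 2) * Z * (R ^ (2 + A) * b ^ p) := by rw [e3]; ring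
    _ ≤ X * M ^ p * C₁ * b * R ^ ((n : ℝ) - 2) * Y * (a / c₀) := by gcongr
    _ = M ^ p * C₁ / c₀ * (R ^ ((n : ℝ) - 2) * a * b) * X ^ ((2 * n + 1) * ⌈p⌉₊ + 1) := by
      rw [pow_succ, ← hY]; ring

theorem arith_lip (hn : 3 ≤ n) {C₁ R d a b Iv Ig If : ℝ} (hC₁ : 0 < C₁) (hd : 0 < d) (hR : d ≤ R)
    (ha : 0 < a) (hb : 0 < b) (hf0 : 0 ≤ If) (hv : Iv ≤ C₁ * R ^ n * b)
    (hg : Ig ≤ C₁ * R ^ ((n : ℝ) - 2) * b) (hf : If ≤ C₁ * R ^ ((n : ℝ) - 2) * a) :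
    R * (((d ^ (n + 1))⁻¹ * Iv + d / d ^ n * Ig) * If) ≤
      2 * C₁ ^ 2 * (R ^ ((n : ℝ) - 2) * a * b) * (R / d) ^ (n + 1) := by
  have hR0 : 0 < R := hd.trans_le hR
  have hX : 1 ≤ R / d := (one_le_div hd).2 hR
  obtain ⟨k, rfl⟩ : ∃ k, n = k + 2 := ⟨n - 2, by omega⟩
  have e1 : R ^ (((k + 2 : ℕ) : ℝ) - 2) = R ^ k := by
    rw [← Real.rpow_natCast R k]
    congr 1
    push_cast
    ring
  rw [e1] at hg hf ⊢
  have h1 : R * ((d ^ (k + 2 + 1))⁻¹ * (C₁ * R ^ (k + 2) * b)) = C₁ * b * (R / d) ^ (k + 2 + 1) := by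
    rw [div_pow]
    field_simp
    ring
  have h2 : R * (d / d ^ (k + 2) * (C₁ * R ^ k * b)) = C₁ * b * (R / d) ^ (k + 1) := by
    rw [div_pow]
    field_simp
    ring
  have h3 : (R / d) ^ (k + 1) ≤ (R / d) ^ (k + 2 + 1) := pow_le_pow_right₀ hX (by omega)
  calc R * (((d ^ (k + 2 + 1))⁻¹ * Iv + d / d ^ (k + 2) * Ig) * If)
      ≤ R * (((d ^ (k + 2 + 1))⁻¹ * (C₁ * R ^ (k + 2) * b) + d / d ^ (k + 2) * (C₁ * R ^ k * b)) * If) := by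
        gcongr
    _ = (C₁ * b * (R / d) ^ (k + 2 + 1) + C₁ * b * (R / d) ^ (k + 1)) * If := by
        rw [← h1, ← h2]; ring
    _ ≤ (C₁ * b * (R / d) ^ (k + 2 + 1) + C₁ * b * (R / d) ^ (k + 2 + 1)) * (C₁ * R ^ k * a) := by
        gcongr
    _ = 2 * C₁ ^ 2 * (R ^ k * a * b) * (R / d) ^ (k + 2 + 1) := by ring

theorem arith_bad (n : ℕ) {η M C₁ R d b I V J : ℝ} (hη : 0 < η) (hM : 0 < M) (hC₁ : 0 < C₁) (hd : 0 < d)
    (hR : d ≤ R) (hb : 0 < b) (hJ : 0 ≤ J) (hI : I ≤ C₁ * R ^ n * b)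
    (hV : V ≤ I / (M * (R / d) ^ (2 * n + 1) * b)) :
    (R / d) * (2 * (2 / (η * d / R)) ^ n * V * J) ≤ 2 * (2 / η) ^ n * C₁ / M * d ^ n * J := by
  have hR0 : 0 < R := hd.trans_le hR
  have h1 : V ≤ C₁ * R ^ n * b / (M * (R / d) ^ (2 * n + 1) * b) := hV.trans (by gcongr)
  calc (R / d) * (2 * (2 / (η * d / R)) ^ n * V * J)
      ≤ (R / d) * (2 * (2 / (η * d / R)) ^ n * (C₁ * R ^ n * b / (M * (R / d) ^ (2 * n + 1) * b)) * J) := by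
        gcongr
    _ = 2 * (2 / η) ^ n * C₁ / M * d ^ n * J := by
        have e : 2 / (η * d / R) = 2 / η * (R / d) := by field_simp
        rw [e, mul_pow, pow_succ, two_mul n, pow_add, div_pow R d n]
        field_simp

end Vale.Agent.P100
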