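import Vale.Agent.P100.Basic

/-!
# P100 Avg: averaging over the centre

`measure_fl_mem`: `fl c t x = exp t • x + (1 - exp t) • c`, so `{c | fl c t x ∈ D}` is the preimage of `D` under a translation and the dilation
by `1 - exp t ≠ 0` (`Measure.addHaar_preimage_smul`, `measure_preimage_add`): its volume is `|1 - exp t|^(-n) vol D`; `|1 - exp (± e)| ≥ e/2` for `0 < e ≤ 1`.
`integral_Bad`: Tonelli/Fubini for `(c, x) ↦ F x 1_D (fl c t x)` on `volume.prod (volume.restrict ball)` (`integrable_prod_iff'`, `integral_integral_swap`;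
measurability from `continuous_fl`).
`vol_Dset`: Markov (`mul_meas_ge_le_integral_of_nonneg` for the restricted measure, or `setIntegral_ge_of_const_le`).
`avg_odd`: add the inequalities at `c` and `-c`, integrate over the ball; `∫ c in ball 0 ρ, W (-c) = ∫ c in ball 0 ρ, W c`
(`integral_neg_eq_self` with indicators, or `MeasurePreserving.setIntegral_preimage_emb`); the ball has positive finite volume.
-/

open MeasureTheory Set Metric Filter Topology

noncomputable section

namespace Vale.Agent.P100

variable {n : ℕ}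

theorem measure_fl_mem {e : ℝ} (he : 0 < e) (he1 : e ≤ 1) {t : ℝ} (ht : t = e ∨ t = -e) (x : E n)
    {D : Set (E n)} (hD : MeasurableSet D) :
    volume {c : E n | fl c t x ∈ D} ≤ ENNReal.ofReal ((2 / e) ^ n) * volume D := by
  have h1 : e / 2 ≤ |1 - Real.exp t| := by
    rcases ht with rfl | rfl
    · have := Real.add_one_le_exp t
      rw [abs_sub_comm]
      exact le_trans (by linarith) (le_abs_self _)
    · have h2 := Real.add_one_le_exp e
      have h3 : Real.exp (-e) * Real.exp e = 1 := by rw [← Real.exp_add]; simp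
      have h4 := Real.exp_pos (-e)
      refine le_trans ?_ (le_abs_self _)
      by_contra h5
      have h6 : 1 - e / 2 < Real.exp (-e) := by linarith
      nlinarith
  have h0 : 0 < |1 - Real.exp t| := by linarith
  have e1 : {c : E n | fl c t x ∈ D} =
      (fun c => (1 - Real.exp t) • c) ⁻¹' ((fun y => Real.exp t • x + y) ⁻¹' D) := by
    ext c
    have : fl c t x = Real.exp t • x + (1 - Real.exp t) • c := by
      unfold fl
      module
    simp only [mem_ofPred_eq, mem_preimage, this]
  rw [e1, Measure.addHaar_preimage_smul _ (abs_pos.1 h0), measure_preimage_add, finrank_euclideanSpace_fin]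
  gcongr
  rw [abs_inv, abs_pow, ← inv_pow]
  refine pow_le_pow_left₀ (by positivity) ?_ n
  rw [← inv_div e 2]
  exact inv_anti₀ (by positivity) h1

theorem avg_one {e : ℝ} (he : 0 < e) (he1 : e ≤ 1) {t : ℝ} (ht : t = e ∨ t = -e) {D : Set (E n)}
    (hD : MeasurableSet D) (hDf : volume D ≠ ⊤) {F : E n → ℝ} (hF : Measurable F) (hF0 : ∀ x, 0 ≤ F x)
    {ρ : ℝ} (hFi : IntegrableOn F (ball 0 ρ)) :
    Integrable (fun w : E n × E n => F w.2 * D.indicator 1 (fl w.1 t w.2))
      (volume.prod (volume.restrict (ball 0 ρ))) ∧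
    ∫ w : E n × E n, F w.2 * D.indicator 1 (fl w.1 t w.2) ∂(volume.prod (volume.restrict (ball 0 ρ))) ≤
      (2 / e) ^ n * (volume D).toReal * ∫ x in ball 0 ρ, F x := by
  have hfl : Measurable fun w : E n × E n => fl w.1 t w.2 :=
    (continuous_fl.comp (continuous_fst.prodMk (continuous_const.prodMk continuous_snd))).measurable
  have hm : Measurable fun w : E n × E n => F w.2 * D.indicator 1 (fl w.1 t w.2) :=
    (hF.comp measurable_snd).mul ((measurable_one.indicator hD).comp hfl)
  have hS : ∀ x : E n, MeasurableSet {c : E n | fl c t x ∈ D} := fun x =>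
    (hfl.comp measurable_prodMk_right) hD
  have hlt : ∀ x : E n, volume {c : E n | fl c t x ∈ D} < ⊤ := fun x =>
    (measure_fl_mem he he1 ht x hD).trans_lt (ENNReal.mul_lt_top ENNReal.ofReal_lt_top hDf.lt_top)
  have e1 : ∀ x : E n, (fun c : E n => F x * D.indicator 1 (fl c t x)) =
      {c : E n | fl c t x ∈ D}.indicator fun _ => F x := by
    intro x
    funext c
    by_cases h : fl c t x ∈ D
    · rw [indicator_of_mem h, indicator_of_mem (by exact h), Pi.one_apply, mul_one]
    · rw [indicator_of_notMem h, indicator_of_notMem (by exact h), mul_zero]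
  have hle : ∀ x : E n, ∫ c : E n, F x * D.indicator 1 (fl c t x) ≤
      (2 / e) ^ n * (volume D).toReal * F x := by
    intro x
    rw [e1, integral_indicator_const _ (hS x), smul_eq_mul]
    refine mul_le_mul_of_nonneg_right ?_ (hF0 x)
    have h1 := ENNReal.toReal_mono (ENNReal.mul_ne_top ENNReal.ofReal_ne_top hDf)
      (measure_fl_mem he he1 ht x hD)
    rwa [ENNReal.toReal_mul, ENNReal.toReal_ofReal (by positivity)] at h1
  have hn : ∀ c x : E n, 0 ≤ F x * D.indicator 1 (fl c t x) := fun c x =>
    mul_nonneg (hF0 x) (indicator_nonneg (fun _ _ => zero_le_one) _)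
  have hi : Integrable (fun w : E n × E n => F w.2 * D.indicator 1 (fl w.1 t w.2))
      (volume.prod (volume.restrict (ball 0 ρ))) := by
    refine (integrable_prod_iff' hm.aestronglyMeasurable).2 ⟨Eventually.of_forall fun x => ?_, ?_⟩
    · dsimp only
      rw [e1]
      exact (integrable_indicator_iff (hS x)).2 (integrableOn_const (hlt x).ne)
    · refine Integrable.mono' (hFi.const_mul ((2 / e) ^ n * (volume D).toReal))
        hm.norm.stronglyMeasurable.integral_prod_left'.aestronglyMeasurable
        (Eventually.of_forall fun x => ?_)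
      rw [Real.norm_of_nonneg (integral_nonneg fun c => norm_nonneg _)]
      simpa only [Real.norm_of_nonneg (hn _ _)] using hle x
  refine ⟨hi, ?_⟩
  rw [integral_prod_symm _ hi, ← integral_const_mul]
  exact integral_mono hi.integral_prod_right (hFi.const_mul _) hle

theorem integral_Bad {e : ℝ} (he : 0 < e) (he1 : e ≤ 1) {D : Set (E n)} (hD : MeasurableSet D)
    (hDf : volume D ≠ ⊤) {F : E n → ℝ} (hF : Measurable F) (hF0 : ∀ x, 0 ≤ F x) {ρ : ℝ}
    (hFi : IntegrableOn F (ball 0 ρ)) :
    (∀ c, 0 ≤ Bad c e D F ρ) ∧ Integrable (fun c => Bad c e D F ρ) ∧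
    ∫ c, Bad c e D F ρ ≤ 2 * (2 / e) ^ n * (volume D).toReal * ∫ x in ball 0 ρ, F x := by
  obtain ⟨h1, h2⟩ := avg_one he he1 (Or.inl rfl) hD hDf hF hF0 hFi
  obtain ⟨h3, h4⟩ := avg_one he he1 (Or.inr rfl) hD hDf hF hF0 hFi
  have h5 : Integrable (fun w : E n × E n => F w.2 * (D.indicator 1 (fl w.1 e w.2) +
      D.indicator 1 (fl w.1 (-e) w.2))) (volume.prod (volume.restrict (ball 0 ρ))) := by
    simp only [mul_add]
    exact h1.add h3
  refine ⟨fun c => integral_nonneg fun x => mul_nonneg (hF0 x) (add_nonneg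
    (indicator_nonneg (fun _ _ => zero_le_one) _) (indicator_nonneg (fun _ _ => zero_le_one) _)),
    h5.integral_prod_left, ?_⟩
  have h6 := integral_prod _ h5
  unfold Bad
  rw [← h6]
  simp only [mul_add]
  rw [integral_add h1 h3]
  linarith

theorem vol_Dset {v : E n → ℝ} (hv : Nice v) {s : ℝ} (hs : 0 < s) (ρ : ℝ) :
    volume (Dset v s ρ) ≠ ⊤ ∧ (volume (Dset v s ρ)).toReal ≤ (∫ x in ball 0 ρ, v x) / s := by
  have hsub : Dset v s ρ ⊆ ball 0 ρ := fun x hx => mem_ball_zero_iff.2 hx.1
  have hfin : volume (Dset v s ρ) ≠ ⊤ := ((measure_mono hsub).trans_lt measure_ball_lt_top).ne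
  have hi : IntegrableOn v (ball 0 ρ) :=
    (hv.cont.continuousOn.integrableOn_compact (isCompact_closedBall 0 ρ)).mono_set ball_subset_closedBall
  refine ⟨hfin, ?_⟩
  rw [le_div_iff₀ hs]
  have h1 := setIntegral_ge_of_const_le_real (c := s) (measurableSet_Dset hv.cont s ρ) hfin
    (fun x hx => hx.2.le) (hi.mono_set hsub)
  have h2 := setIntegral_mono_set hi (Eventually.of_forall fun x => (hv.pos x).le) hsub.eventuallyLE
  rw [mul_comm]
  exact h1.trans h2

theorem avg_odd {ρ X Y Z : ℝ} (hρ : 0 < ρ) {W T : E n → ℝ} (hW : Integrable W) (hW0 : ∀ c, 0 ≤ W c)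
    (hT : ∀ c, T (-c) = -T c) (h : ∀ c : E n, ‖c‖ < ρ → X - T c ≤ Y + W c)
    (hZ : ∫ c, W c ≤ Z * (ρ ^ n * (volume (ball (0 : E n) 1)).toReal)) : X ≤ Y + Z := by
  have hV : (volume : Measure (E n)).real (ball 0 ρ) = ρ ^ n * (volume (ball (0 : E n) 1)).toReal := by
    rw [Measure.real, Measure.addHaar_ball_of_pos _ _ hρ, finrank_euclideanSpace_fin, ENNReal.toReal_mul,
      ENNReal.toReal_ofReal (by positivity)]
  rw [← hV] at hZ
  have hp : 0 < (volume : Measure (E n)).real (ball 0 ρ) :=
    ENNReal.toReal_pos (measure_ball_pos _ _ hρ).ne' measure_ball_lt_top.ne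
  have hi : Integrable fun c => W c + W (-c) := hW.add hW.comp_neg
  have h1 := setIntegral_ge_of_const_le_real (c := 2 * (X - Y)) (μ := (volume : Measure (E n)))
    (s := ball 0 ρ) (f := fun c => W c + W (-c)) measurableSet_ball
    measure_ball_lt_top.ne (fun c hc => by
      have h2 := h c (mem_ball_zero_iff.1 hc)
      have h3 := h (-c) (by rw [norm_neg]; exact mem_ball_zero_iff.1 hc)
      rw [hT] at h3
      linarith) hi.integrableOn
  have h2 := setIntegral_le_integral (s := ball 0 ρ) hi
    (Eventually.of_forall fun c => add_nonneg (hW0 _) (hW0 _))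
  rw [integral_add hW hW.comp_neg, integral_neg_eq_self] at h2
  have h3 : (X - Y) * (volume : Measure (E n)).real (ball 0 ρ) ≤
      Z * (volume : Measure (E n)).real (ball 0 ρ) := by linarith
  have h4 := le_of_mul_le_mul_right h3 hp
  linarith

end Vale.Agent.P100
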