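import Vale.Agent.P100.Defs

/-!
# P100 Basic: elementary facts about `fl`, `Kr`, `Qk`, `dv`, `fw`, `Fw`, `mn`, `Lay.phi`

All short.  Measurability: `fun_prop` / `measurability` with `Measurable.pow_const`, `Real.measurable_rpow...`;
`measurable_dv`: `measurable_fderiv` composed with the continuous evaluation map
(`(isBoundedBilinearMap_apply).continuous.measurable.comp (.prodMk ..)`), or `measurable_deriv_with_param`.
Integrability on balls: `integrableOn_ball_of_norm_le_rpow` (Mathlib, `Analysis/SpecialFunctions/Pow/Integral`), `v` is bounded on closed balls.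
-/

open MeasureTheory Set Metric Filter Topology

noncomputable section

namespace Vale.Agent.P100

variable {n : ℕ}

@[simp] theorem fl_sub (c : E n) (t : ℝ) (x : E n) : fl c t x - c = Real.exp t • (x - c) := by
  simp [fl]

@[simp] theorem fl_zero (c x : E n) : fl c 0 x = x := by
  simp [fl]

theorem fl_fl (c : E n) (s t : ℝ) (x : E n) : fl c s (fl c t x) = fl c (s + t) x := by
  rw [fl, fl_sub, smul_smul, ← Real.exp_add, fl]

theorem norm_fl_sub (c : E n) (t : ℝ) (x : E n) : ‖fl c t x - c‖ = Real.exp t * ‖x - c‖ := by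
  rw [fl_sub, norm_smul, Real.norm_of_nonneg (Real.exp_pos t).le]

theorem continuous_fl : Continuous (fun w : E n × ℝ × E n => fl w.1 w.2.1 w.2.2) := by
  unfold fl
  fun_prop

theorem continuous_fl_time (c x : E n) : Continuous (fun t => fl c t x) := by
  unfold fl
  fun_prop

theorem continuous_fl_space (c : E n) (t : ℝ) : Continuous (fl c t) := by
  unfold fl
  fun_prop

theorem hasDerivAt_fl (c x : E n) (t : ℝ) : HasDerivAt (fun s => fl c s x) (fl c t x - c) t := by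
  rw [fl_sub]
  exact ((Real.hasDerivAt_exp t).smul_const (x - c)).const_add c

theorem hasDerivAt_comp_fl {v : E n → ℝ} {c x : E n} {t : ℝ} (hv : DifferentiableAt ℝ v (fl c t x)) :
    HasDerivAt (fun s => v (fl c s x)) (dv c v (fl c t x)) t := by
  exact hv.hasFDerivAt.comp_hasDerivAt t (hasDerivAt_fl c x t)

theorem hasDerivAt_cut_fl {Ψ : ℝ → ℝ} (hΨ : Differentiable ℝ Ψ) (c x : E n) (t : ℝ) :
    HasDerivAt (fun s => Ψ ‖fl c s x - c‖) (dΨ c Ψ (fl c t x)) t := by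
  simp only [dΨ, norm_fl_sub]
  exact (hΨ _).hasDerivAt.comp t ((Real.hasDerivAt_exp t).mul_const ‖x - c‖)

theorem Nice.differentiableAt {v : E n → ℝ} (hv : Nice v) {x : E n} (hx : x ≠ 0) :
    DifferentiableAt ℝ v x := by
  exact (hv.diff.contDiffAt (isOpen_compl_singleton.mem_nhds hx)).differentiableAt (by norm_num)

theorem Nice.continuousOn_dv {v : E n → ℝ} (hv : Nice v) (c : E n) : ContinuousOn (dv c v) {0}ᶜ := by
  have h := hv.diff.continuousOn_fderiv_of_isOpen isOpen_compl_singleton (by norm_num)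
  exact h.clm_apply (continuous_id.sub continuous_const).continuousOn

theorem measurable_dv (c : E n) (v : E n → ℝ) : Measurable (dv c v) := by
  exact ContinuousLinearMap.measurable_apply₂.comp
    ((measurable_fderiv ℝ v).prodMk (measurable_id.sub_const c))

theorem measurable_dΨ (c : E n) (Ψ : ℝ → ℝ) : Measurable (dΨ c Ψ) := by
  have h : Measurable fun x : E n => ‖x - c‖ := by fun_prop
  exact ((measurable_deriv Ψ).comp h).mul h

theorem measurable_Kr (κ : ℝ) : Measurable (fun ζ : E n => Kr κ ζ) := by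
  exact (measurable_norm.pow_const _).const_mul κ

theorem measurable_Qk (κ : ℝ) (c : E n) : Measurable (fun w : E n × E n => Qk κ c w.1 w.2) := by
  have h : Measurable fun w : E n × E n => Kr κ (w.1 - w.2) :=
    (measurable_Kr κ).comp (measurable_fst.sub measurable_snd)
  unfold Qk
  fun_prop

theorem Kr_nonneg {κ : ℝ} (hκ : 0 ≤ κ) (ζ : E n) : 0 ≤ Kr κ ζ := by
  exact mul_nonneg hκ (Real.rpow_nonneg (norm_nonneg _) _)

theorem Kr_sub_comm (κ : ℝ) (y z : E n) : Kr κ (y - z) = Kr κ (z - y) := by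
  rw [Kr, Kr, norm_sub_rev]

theorem Qk_swap (κ : ℝ) (c y z : E n) : Qk κ c z y = -Qk κ c y z := by
  rw [Qk, Qk, Kr_sub_comm κ z y, norm_sub_rev z y]
  ring

theorem Qk_nonneg (hn : 2 ≤ n) {κ : ℝ} (hκ : 0 ≤ κ) {c y z : E n} (h : ‖z - c‖ ≤ ‖y - c‖) :
    0 ≤ Qk κ c y z := by
  have h1 : (0 : ℝ) ≤ (n : ℝ) - 2 := sub_nonneg.2 (by exact_mod_cast hn)
  exact div_nonneg (mul_nonneg (mul_nonneg h1 (Kr_nonneg hκ _))
    (sub_nonneg.2 (pow_le_pow_left₀ (norm_nonneg _) h 2))) (by positivity)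

theorem Qk_nonpos (hn : 2 ≤ n) {κ : ℝ} (hκ : 0 ≤ κ) {c y z : E n} (h : ‖y - c‖ ≤ ‖z - c‖) :
    Qk κ c y z ≤ 0 := by
  have h1 := Qk_nonneg hn hκ h
  rw [Qk_swap] at h1
  linarith

/-- `|‖y-c‖² - ‖z-c‖²| ≤ (‖y-c‖ + ‖z-c‖) ‖y - z‖`; at `y = z` both sides vanish or the right side is nonnegative -/
theorem abs_Qk_le (hn : 2 ≤ n) {κ : ℝ} (hκ : 0 ≤ κ) (c y z : E n) :
    |Qk κ c y z| ≤ n * κ * (‖y - c‖ + ‖z - c‖) * ‖y - z‖ ^ (1 - (n : ℝ)) := by
  have h1 : (0 : ℝ) ≤ (n : ℝ) - 2 := sub_nonneg.2 (by exact_mod_cast hn)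
  have hr0 : 0 ≤ ‖y - z‖ ^ (1 - (n : ℝ)) := Real.rpow_nonneg (norm_nonneg _) _
  rcases (norm_nonneg (y - z)).eq_or_lt with h | h
  · have h2 : 2 * ‖y - z‖ ^ 2 = 0 := by rw [← h]; simp
    rw [Qk, h2, div_zero, abs_zero]
    positivity
  · have h2 : |‖y - c‖ - ‖z - c‖| ≤ ‖y - z‖ := by
      have := abs_norm_sub_norm_le (y - c) (z - c)
      rwa [sub_sub_sub_cancel_right] at this
    have h3 : |‖y - c‖ ^ 2 - ‖z - c‖ ^ 2| ≤ (‖y - c‖ + ‖z - c‖) * ‖y - z‖ := by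
      rw [sq_sub_sq, abs_mul, abs_of_nonneg (by positivity)]
      gcongr
    have h4 : ‖y - z‖ ^ (2 - (n : ℝ)) = ‖y - z‖ ^ (1 - (n : ℝ)) * ‖y - z‖ := by
      rw [← Real.rpow_add_one h.ne']
      congr 1
      ring
    rw [Qk, Kr, h4, abs_div, abs_mul, abs_of_nonneg (by positivity : 0 ≤ ((n : ℝ) - 2) *
      (κ * (‖y - z‖ ^ (1 - (n : ℝ)) * ‖y - z‖))), abs_of_pos (by positivity : 0 < 2 * ‖y - z‖ ^ 2),
      div_le_iff₀ (by positivity)]
    refine (mul_le_mul_of_nonneg_left h3 (by positivity)).trans ?_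
    have h5 : 0 ≤ κ * (‖y - c‖ + ‖z - c‖) * ‖y - z‖ ^ (1 - (n : ℝ)) * ‖y - z‖ ^ 2 := by positivity
    nlinarith

theorem Kr_eq_mul (hn : 3 ≤ n) (κ : ℝ) (ζ : E n) : Kr κ ζ = κ * ‖ζ‖ * ‖ζ‖ ^ (1 - (n : ℝ)) := by
  have h1 : (3 : ℝ) ≤ n := by exact_mod_cast hn
  rcases (norm_nonneg ζ).eq_or_lt with h | h
  · rw [Kr, ← h, Real.zero_rpow (by linarith)]
    simp
  · rw [Kr, mul_assoc, mul_comm ‖ζ‖, ← Real.rpow_add_one h.ne']
    congr 2
    ring

theorem measurable_mid {c : E n} {α β : E n → ℝ} (hα : Measurable α) (hβ : Measurable β) :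
    Measurable (mid c α β) := by
  unfold mid
  fun_prop

theorem mid_fl {c : E n} {S : Set (E n)} {α β : E n → ℝ} (h : Seg (fl c) S α β) {x : E n}
    (hx : x ∈ S) {t : ℝ} (ht : t ∈ Ioo (-α x) (β x)) : mid c α β (fl c t x) = mid c α β x := by
  rw [mid, mid, h.eα x hx t ht, h.eβ x hx t ht, norm_fl_sub, ← mul_assoc, ← Real.exp_add]
  congr 2
  ring

theorem Lay1.smul {c : E n} {S : Set (E n)} {α β σ : E n → ℝ} (h : Lay1 c S α β σ) {τ : ℝ}
    (hτ : 0 ≤ τ) : Lay1 c S α β (fun x => τ * σ x) := by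
  refine ⟨h.seg, h.mσ.const_mul τ, fun x => mul_nonneg hτ (h.nσ x), fun x hx => ?_,
    fun x hx t ht => ?_⟩
  · rw [h.zσ x hx, mul_zero]
  · rw [h.eσ x hx t ht, mul_assoc]

theorem Lay.measurable_phi {c : E n} {F : E n → ℝ} (L : Lay c F) (hF : Measurable F) {Ψ : ℝ → ℝ}
    (hΨ : Measurable Ψ) : Measurable (L.phi Ψ) := by
  have h : Measurable fun x : E n => Ψ ‖x - c‖ := hΨ.comp (by fun_prop)
  exact (hF.mul h).add (Finset.measurable_sum _ fun j _ => (L.one j).mσ.mul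
    ((hΨ.comp (measurable_mid (L.one j).seg.mα (L.one j).seg.mβ)).sub h))

/-- `phi = (F - ∑ σ) Ψ + ∑ σ Ψ(mid)` -/
theorem Lay.phi_bounds {c : E n} {F : E n → ℝ} (L : Lay c F) {Ψ : ℝ → ℝ} (h0 : ∀ s, 0 ≤ Ψ s)
    (h1 : ∀ s, Ψ s ≤ 1) (x : E n) : 0 ≤ L.phi Ψ x ∧ L.phi Ψ x ≤ F x := by
  have h2 : L.phi Ψ x = (F x - ∑ j, L.σ j x) * Ψ ‖x - c‖ +
      ∑ j, L.σ j x * Ψ (mid c (L.α j) (L.β j) x) := by
    simp only [Lay.phi, mul_sub, Finset.sum_sub_distrib, sub_mul, Finset.sum_mul]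
    ring
  have h3 := sub_nonneg.2 (L.le x)
  have h4 : ∑ j, L.σ j x * Ψ (mid c (L.α j) (L.β j) x) ≤ ∑ j, L.σ j x :=
    Finset.sum_le_sum fun j _ => mul_le_of_le_one_right ((L.one j).nσ x) (h1 _)
  have h5 := mul_le_of_le_one_right h3 (h1 ‖x - c‖)
  rw [h2]
  exact ⟨add_nonneg (mul_nonneg h3 (h0 _))
    (Finset.sum_nonneg fun j _ => mul_nonneg ((L.one j).nσ x) (h0 _)), by linarith⟩

theorem measurable_fw (A p : ℝ) {v : E n → ℝ} (hv : Continuous v) : Measurable (fw A p v) := by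
  exact (measurable_norm.pow_const A).mul (hv.measurable.pow_const p)

theorem measurable_Fw (A p : ℝ) {v : E n → ℝ} (hv : Continuous v) : Measurable (Fw A p v) := by
  exact (measurable_norm.pow_const A).mul ((hv.measurable.pow_const (p + 1)).div_const _)

theorem fw_nonneg (A p : ℝ) {v : E n → ℝ} (hv : ∀ x, 0 < v x) (x : E n) : 0 ≤ fw A p v x := by
  exact mul_nonneg (Real.rpow_nonneg (norm_nonneg _) _) (Real.rpow_nonneg (hv x).le _)

theorem Fw_nonneg (A : ℝ) {p : ℝ} (hp : 0 < p) {v : E n → ℝ} (hv : ∀ x, 0 < v x) (x : E n) :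
    0 ≤ Fw A p v x := by
  exact mul_nonneg (Real.rpow_nonneg (norm_nonneg _) _)
    (div_nonneg (Real.rpow_nonneg (hv x).le _) (by linarith))

theorem fw_mul_self (A : ℝ) {p : ℝ} (hp : 0 < p) {v : E n → ℝ} (hv : ∀ x, 0 < v x) (x : E n) :
    fw A p v x * v x = (p + 1) * Fw A p v x := by
  have h : p + 1 ≠ 0 := by linarith
  rw [fw, Fw, Vp, Real.rpow_add_one (hv x).ne']
  field_simp

theorem basic_int (hn : 3 ≤ n) {B : ℝ} (hB : -3 < B) {f g : E n → ℝ} (hf : Measurable f)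
    (hg : Continuous g) (h : ∀ x, |f x| ≤ ‖x‖ ^ B * g x) (ρ : ℝ) : IntegrableOn f (ball 0 ρ) := by
  obtain ⟨C, hC⟩ := (isCompact_closedBall (0 : E n) ρ).exists_bound_of_continuousOn hg.continuousOn
  have h1 : (3 : ℝ) ≤ n := by exact_mod_cast hn
  refine integrableOn_ball_of_norm_le_rpow (C := C) (α := -B) (by simp; omega)
    (by simp; linarith) ?_ hf.aestronglyMeasurable
  refine (ae_restrict_iff' measurableSet_ball).2 (Eventually.of_forall fun x hx => ?_)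
  rw [neg_neg, mul_comm]
  exact (h x).trans (mul_le_mul_of_nonneg_left
    ((le_abs_self _).trans (hC x (ball_subset_closedBall hx))) (Real.rpow_nonneg (norm_nonneg _) _))

theorem basic_cont_Vp (p : ℝ) {v : E n → ℝ} (hv : Nice v) : Continuous fun x => Vp p (v x) :=
  (hv.cont.rpow_const fun x => Or.inl (hv.pos x).ne').div_const _

theorem integrableOn_fw (hn : 3 ≤ n) {A : ℝ} (hA : -2 < A) (p : ℝ) {v : E n → ℝ} (hv : Nice v) (ρ : ℝ) :
    IntegrableOn (fw A p v) (ball 0 ρ) := by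
  exact basic_int hn (by linarith) (measurable_fw A p hv.cont)
    (hv.cont.rpow_const fun x => Or.inl (hv.pos x).ne')
    (fun x => (abs_of_nonneg (fw_nonneg A p hv.pos x)).le) ρ

theorem integrableOn_Fw (hn : 3 ≤ n) {A : ℝ} (hA : -2 < A) {p : ℝ} (hp : 0 < p) {v : E n → ℝ}
    (hv : Nice v) (ρ : ℝ) : IntegrableOn (Fw A p v) (ball 0 ρ) := by
  exact basic_int hn (by linarith) (measurable_Fw A p hv.cont) (basic_cont_Vp p hv)
    (fun x => (abs_of_nonneg (Fw_nonneg A hp hv.pos x)).le) ρ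

/-- `|⟪c,x⟫|/‖x‖² ≤ ‖c‖ ‖x‖⁻¹` and `A - 1 > -3 ≥ -n` -/
theorem integrableOn_Fw_lin (hn : 3 ≤ n) {A : ℝ} (hA : -2 < A) {p : ℝ} (hp : 0 < p) {v : E n → ℝ}
    (hv : Nice v) (ρ : ℝ) (c : E n) :
    IntegrableOn (fun x => Fw A p v x * (inner ℝ c x / ‖x‖ ^ 2)) (ball 0 ρ) := by
  refine basic_int hn (B := A - 1) (by linarith) ((measurable_Fw A p hv.cont).mul (by fun_prop))
    ((basic_cont_Vp p hv).mul (continuous_const (y := ‖c‖))) (fun x => ?_) ρ
  simp only [Pi.mul_apply]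
  have h1 : 0 ≤ Vp p (v x) := div_nonneg (Real.rpow_nonneg (hv.pos x).le _) (by linarith)
  rcases (norm_nonneg x).eq_or_lt with h | h
  · have h2 : 0 ≤ ‖x‖ ^ (A - 1) := Real.rpow_nonneg (norm_nonneg _) _
    have h3 : x = 0 := norm_eq_zero.1 h.symm
    have h4 : inner ℝ c x = 0 := by rw [h3, inner_zero_right]
    rw [h4, zero_div, mul_zero, abs_zero]
    exact mul_nonneg h2 (mul_nonneg h1 (norm_nonneg c))
  · have h2 : |inner ℝ c x / ‖x‖ ^ 2| ≤ ‖c‖ / ‖x‖ := by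
      rw [abs_div, abs_of_pos (by positivity : 0 < ‖x‖ ^ 2), div_le_div_iff₀ (by positivity) h]
      have := mul_le_mul_of_nonneg_right (abs_real_inner_le_norm c x) h.le
      nlinarith
    rw [abs_mul, abs_of_nonneg (Fw_nonneg A hp hv.pos x)]
    refine (mul_le_mul_of_nonneg_left h2 (Fw_nonneg A hp hv.pos x)).trans (le_of_eq ?_)
    rw [Fw, Real.rpow_sub_one h.ne']
    ring

theorem Lin_neg (A p : ℝ) (v : E n → ℝ) (r : ℝ) (c : E n) : Lin A p v r (-c) = -Lin A p v r c := by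
  simp only [Lin, inner_neg_left, neg_div, mul_neg, integral_neg]

theorem En_nonneg (A : ℝ) {p : ℝ} (hp : 0 < p) {v : E n → ℝ} (hv : Nice v) (r : ℝ) : 0 ≤ En A p v r := by
  exact integral_nonneg fun x => Fw_nonneg A hp hv.pos x

theorem En_mono (hn : 3 ≤ n) {A : ℝ} (hA : -2 < A) {p : ℝ} (hp : 0 < p) {v : E n → ℝ} (hv : Nice v) :
    Monotone (En A p v) := by
  intro r s hrs
  exact setIntegral_mono_set (integrableOn_Fw hn hA hp hv s)
    (Eventually.of_forall fun x => Fw_nonneg A hp hv.pos x) (ball_subset_ball hrs).eventuallyLE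

theorem En_pos (hn : 3 ≤ n) {A : ℝ} (hA : -2 < A) {p : ℝ} (hp : 0 < p) {v : E n → ℝ} (hv : Nice v) :
    0 < En A p v 1 := by
  rw [En, setIntegral_pos_iff_support_of_nonneg_ae
    (Eventually.of_forall fun x => Fw_nonneg A hp hv.pos x) (integrableOn_Fw hn hA hp hv 1)]
  have h1 : (ball (0 : E n) 1 \ {0}).Nonempty := by
    have h2 : ‖(EuclideanSpace.single (⟨0, by omega⟩ : Fin n) (1 / 2 : ℝ) : E n)‖ = 1 / 2 := by simp
    refine ⟨EuclideanSpace.single ⟨0, by omega⟩ (1 / 2), ?_, fun h => ?_⟩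
    · rw [mem_ball_zero_iff, h2]; norm_num
    · rw [mem_singleton_iff.1 h, norm_zero] at h2; norm_num at h2
  refine ((isOpen_ball.sdiff isClosed_singleton).measure_pos volume h1).trans_le
    (measure_mono fun x hx => ⟨?_, hx.1⟩)
  exact (mul_pos (Real.rpow_pos_of_pos (norm_pos_iff.2 hx.2) _)
    (div_pos (Real.rpow_pos_of_pos (hv.pos x) _) (by linarith))).ne'

theorem exists_mn {u : E n → ℝ} (hu : Continuous u) {R : ℝ} (hR : 0 ≤ R) :
    ∃ x : E n, ‖x‖ ≤ R ∧ mn u R = u x ∧ ∀ y : E n, ‖y‖ ≤ R → u x ≤ u y := by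
  obtain ⟨x, hx, h⟩ := (isCompact_closedBall (0 : E n) R).exists_isMinOn
    (nonempty_closedBall.2 hR) hu.continuousOn
  refine ⟨x, mem_closedBall_zero_iff.1 hx, IsLeast.csInf_eq ⟨mem_image_of_mem u hx, ?_⟩,
    fun y hy => h (mem_closedBall_zero_iff.2 hy)⟩
  rintro _ ⟨y, hy, rfl⟩
  exact h hy

theorem measurableSet_Dset {v : E n → ℝ} (hv : Continuous v) (s ρ : ℝ) : MeasurableSet (Dset v s ρ) := by
  exact ((isOpen_lt continuous_norm continuous_const).inter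
    (isOpen_lt continuous_const hv)).measurableSet

end Vale.Agent.P100
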