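import Vale.Agent.P100.Lap

/-!
# P100 Bump: the functions `ph`, `rh`, `Pk`, `Rk`, `Lk`

Plan.  For `x < 0`, `Real.rpow_def_of_neg`: `x^y = exp (log x * y) * cos (y π)`, and `cos (5π/2) = cos (3π/2) = cos (π/2) = 0`;
at `x = 0` use `Real.zero_rpow`.  Smoothness: `Real.contDiff_rpow_const_of_le`; derivatives:
`Real.hasDerivAt_rpow_const (Or.inr (1 ≤ p))` (valid at every point): `ph' = -rh/2`, `rh' s = -(15/2) (1-s)^(1/2)`.
`lap_Pk`: `Pk t (y - x) = φ (‖y - x‖^2)` with `φ s = t/t^n * ph (s/t^2)`, then `lap_radial`.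
Lipschitz bounds: `z ↦ ph (‖z‖²)` is `C¹` with compact support (`ContDiff.lipschitzWith_of_hasCompactSupport`), same for `rh`;
then `‖ζ‖²/t² = ‖t⁻¹ • ζ‖²`.  `integral_Rk`: `Measure.integral_comp_inv_smul_of_nonneg` / `integral_comp_smul`.
-/

open MeasureTheory Set Metric Filter Topology

noncomputable section

namespace Vale.Agent.P100

variable {n : ℕ}

private lemma bump_zero {x y : ℝ} (hx : x ≤ 0) (hy : y ≠ 0) (hc : Real.cos (y * Real.pi) = 0) :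
    x ^ y = 0 := by
  rcases hx.eq_or_lt with h | h
  · rw [h, Real.zero_rpow hy]
  · rw [Real.rpow_def_of_neg h, hc, mul_zero]

private lemma bump_cos (k : ℤ) : Real.cos ((2 * k + 1) / 2 * Real.pi) = 0 :=
  Real.cos_eq_zero_iff.2 ⟨k, by ring⟩

private lemma bump_z1 {x : ℝ} (hx : x ≤ 0) : x ^ (1 / 2 : ℝ) = 0 :=
  bump_zero hx (by norm_num) (by simpa using bump_cos 0)

private lemma bump_z3 {x : ℝ} (hx : x ≤ 0) : x ^ (3 / 2 : ℝ) = 0 := by
  refine bump_zero hx (by norm_num) ?_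
  have := bump_cos 1
  norm_num at this ⊢
  exact this

private lemma bump_z5 {x : ℝ} (hx : x ≤ 0) : x ^ (5 / 2 : ℝ) = 0 := by
  refine bump_zero hx (by norm_num) ?_
  have := bump_cos 2
  norm_num at this ⊢
  exact this

private lemma contDiff_ph : ContDiff ℝ 2 ph := by
  have h : ContDiff ℝ (2 : ℕ) fun x : ℝ => x ^ (5 / 2 : ℝ) :=
    Real.contDiff_rpow_const_of_le (by norm_num)
  exact h.comp (contDiff_const.sub contDiff_id)

private lemma contDiff_rh : ContDiff ℝ 1 rh := by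
  have h : ContDiff ℝ (1 : ℕ) fun x : ℝ => x ^ (3 / 2 : ℝ) :=
    Real.contDiff_rpow_const_of_le (by norm_num)
  exact contDiff_const.mul (h.comp (contDiff_const.sub contDiff_id))

private lemma hasDerivAt_ph (s : ℝ) : HasDerivAt ph (-(rh s) / 2) s := by
  have h1 : HasDerivAt (fun s : ℝ => 1 - s) (-1) s := by
    simpa using (hasDerivAt_id s).const_sub 1
  have h2 := h1.rpow_const (p := 5 / 2) (Or.inr (by norm_num))
  refine h2.congr_deriv ?_
  rw [show (5 / 2 - 1 : ℝ) = 3 / 2 by norm_num, rh]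
  ring

private lemma hasDerivAt_rh (s : ℝ) :
    HasDerivAt rh (-(15 / 2) * (1 - s) ^ (1 / 2 : ℝ)) s := by
  have h1 : HasDerivAt (fun s : ℝ => 1 - s) (-1) s := by
    simpa using (hasDerivAt_id s).const_sub 1
  have h2 := (h1.rpow_const (p := 3 / 2) (Or.inr (by norm_num))).const_mul 5
  refine h2.congr_deriv ?_
  rw [show (3 / 2 - 1 : ℝ) = 1 / 2 by norm_num]
  ring

private lemma one_le_sq_div {t : ℝ} (ht : 0 < t) {ζ : E n} (h : t ≤ ‖ζ‖) :
    1 ≤ ‖ζ‖ ^ 2 / t ^ 2 := by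
  rw [one_le_div (by positivity)]
  exact pow_le_pow_left₀ ht.le h 2

theorem ph_nonneg (s : ℝ) : 0 ≤ ph s := by
  rcases le_total s 1 with h | h
  · exact Real.rpow_nonneg (by linarith) _
  · exact (bump_z5 (by linarith)).ge

theorem rh_nonneg (s : ℝ) : 0 ≤ rh s := by
  unfold rh
  rcases le_total s 1 with h | h
  · exact mul_nonneg (by norm_num) (Real.rpow_nonneg (by linarith) _)
  · rw [bump_z3 (by linarith), mul_zero]

theorem ph_eq_zero {s : ℝ} (hs : 1 ≤ s) : ph s = 0 := by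
  exact bump_z5 (by linarith)

theorem rh_eq_zero {s : ℝ} (hs : 1 ≤ s) : rh s = 0 := by
  rw [rh, bump_z3 (by linarith), mul_zero]

theorem ph_le_one {s : ℝ} (hs : 0 ≤ s) : ph s ≤ 1 := by
  rcases le_total s 1 with h | h
  · exact Real.rpow_le_one (by linarith) (by linarith) (by norm_num)
  · rw [ph_eq_zero h]; norm_num

theorem ph_ge {s : ℝ} (hs : s ≤ 1 / 2) : 1 / 8 ≤ ph s := by
  have h1 : (1 / 2 : ℝ) ^ (5 / 2 : ℝ) ≤ ph s :=
    Real.rpow_le_rpow (by norm_num) (by linarith) (by norm_num)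
  have h2 : (1 / 2 : ℝ) ^ ((3 : ℕ) : ℝ) ≤ (1 / 2 : ℝ) ^ (5 / 2 : ℝ) :=
    Real.rpow_le_rpow_of_exponent_ge (by norm_num) (by norm_num) (by norm_num)
  rw [Real.rpow_natCast] at h2
  norm_num at h1 h2 ⊢
  linarith

theorem rh_ge {s : ℝ} (hs : s ≤ 1 / 2) : 1 ≤ rh s := by
  have h1 : (1 / 2 : ℝ) ^ (3 / 2 : ℝ) ≤ (1 - s) ^ (3 / 2 : ℝ) :=
    Real.rpow_le_rpow (by norm_num) (by linarith) (by norm_num)
  have h2 : (1 / 2 : ℝ) ^ ((2 : ℕ) : ℝ) ≤ (1 / 2 : ℝ) ^ (3 / 2 : ℝ) :=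
    Real.rpow_le_rpow_of_exponent_ge (by norm_num) (by norm_num) (by norm_num)
  rw [Real.rpow_natCast] at h2
  unfold rh
  norm_num at h1 h2 ⊢
  linarith

theorem continuous_ph : Continuous ph := by
  exact contDiff_ph.continuous

theorem continuous_rh : Continuous rh := by
  exact contDiff_rh.continuous

theorem Pk_nonneg {t : ℝ} (ht : 0 < t) (ζ : E n) : 0 ≤ Pk t ζ := by
  exact mul_nonneg (by positivity) (ph_nonneg _)

theorem Rk_nonneg {t : ℝ} (ht : 0 < t) (ζ : E n) : 0 ≤ Rk t ζ := by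
  exact mul_nonneg (by positivity) (rh_nonneg _)

theorem Pk_eq_zero {t : ℝ} (ht : 0 < t) {ζ : E n} (h : t ≤ ‖ζ‖) : Pk t ζ = 0 := by
  rw [Pk, ph_eq_zero (one_le_sq_div ht h), mul_zero]

theorem Rk_eq_zero {t : ℝ} (ht : 0 < t) {ζ : E n} (h : t ≤ ‖ζ‖) : Rk t ζ = 0 := by
  rw [Rk, rh_eq_zero (one_le_sq_div ht h), mul_zero]

theorem Lk_eq_zero {t : ℝ} (ht : 0 < t) {ζ : E n} (h : t ≤ ‖ζ‖) : Lk t ζ = 0 := by
  have := one_le_sq_div ht h
  rw [Lk, rh_eq_zero this, bump_z1 (by linarith)]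
  simp

theorem measurable_Pk : Measurable (fun w : ℝ × E n => Pk w.1 w.2) := by
  unfold Pk
  exact (measurable_fst.div (measurable_fst.pow_const n)).mul
    (continuous_ph.measurable.comp
      ((measurable_snd.norm.pow_const 2).div (measurable_fst.pow_const 2)))

private lemma continuousOn_q :
    ContinuousOn (fun w : ℝ × E n => ‖w.2‖ ^ 2 / w.1 ^ 2) (Ioi 0 ×ˢ univ) :=
  ContinuousOn.div (by fun_prop) (by fun_prop) fun w hw => pow_ne_zero _ (ne_of_gt hw.1)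

theorem continuousOn_Pk : ContinuousOn (fun w : ℝ × E n => Pk w.1 w.2) (Ioi 0 ×ˢ univ) := by
  unfold Pk
  refine ContinuousOn.mul (ContinuousOn.div (by fun_prop) (by fun_prop) fun w hw =>
    pow_ne_zero _ (ne_of_gt hw.1)) (continuous_ph.comp_continuousOn continuousOn_q)

theorem continuousOn_Lk : ContinuousOn (fun w : ℝ × E n => Lk w.1 w.2) (Ioi 0 ×ˢ univ) := by
  unfold Lk
  have h1 : Continuous fun x : ℝ => x ^ (1 / 2 : ℝ) := Real.continuous_rpow_const (by norm_num)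
  refine ContinuousOn.mul (ContinuousOn.inv₀ (by fun_prop) fun w hw =>
    pow_ne_zero _ (ne_of_gt hw.1)) (ContinuousOn.add ?_ ?_)
  · exact continuousOn_const.mul (continuous_rh.comp_continuousOn continuousOn_q)
  · exact (continuousOn_const.mul continuousOn_q).mul
      (h1.comp_continuousOn (continuousOn_const.sub continuousOn_q))

theorem continuous_Rk (t : ℝ) : Continuous (fun ζ : E n => Rk t ζ) := by
  unfold Rk
  exact continuous_const.mul (continuous_rh.comp (by fun_prop))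

private lemma contDiff_phi (a b : ℝ) : ContDiff ℝ 2 fun s : ℝ => a * ph (s / b) :=
  contDiff_const.mul (contDiff_ph.comp (contDiff_id.div_const b))

theorem contDiff_Pk (t : ℝ) (x : E n) : ContDiff ℝ 2 (fun y : E n => Pk t (y - x)) := by
  exact contDiff_radial (contDiff_phi (t / t ^ n) (t ^ 2)) x

theorem hasCompactSupport_Pk {t : ℝ} (ht : 0 < t) (x : E n) :
    HasCompactSupport (fun y : E n => Pk t (y - x)) := by
  refine HasCompactSupport.intro (isCompact_closedBall x t) fun y hy => Pk_eq_zero ht ?_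
  rw [mem_closedBall, dist_eq_norm, not_le] at hy
  exact hy.le

theorem lap_Pk {t : ℝ} (ht : 0 < t) (x y : E n) :
    lap (fun y : E n => Pk t (y - x)) y = Lk t (y - x) := by
  have h := lap_radial (contDiff_phi (t / t ^ n) (t ^ 2)) x y
  have hd : ∀ s : ℝ, HasDerivAt (fun s : ℝ => s / t ^ 2) (1 / t ^ 2) s :=
    fun s => (hasDerivAt_id s).div_const _
  have d1 : deriv (fun s : ℝ => t / t ^ n * ph (s / t ^ 2))
      = fun s => t / t ^ n * (-(rh (s / t ^ 2)) / 2 * (1 / t ^ 2)) := by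
    funext s
    exact (((hasDerivAt_ph (s / t ^ 2)).comp s (hd s)).const_mul _).deriv
  have d2 : ∀ s, deriv (fun s : ℝ => t / t ^ n * (-(rh (s / t ^ 2)) / 2 * (1 / t ^ 2))) s
      = t / t ^ n * (-(-(15 / 2) * (1 - s / t ^ 2) ^ (1 / 2 : ℝ) * (1 / t ^ 2)) / 2
        * (1 / t ^ 2)) := fun s =>
    (((((hasDerivAt_rh (s / t ^ 2)).comp s (hd s)).neg.div_const 2).mul_const _).const_mul _).deriv
  rw [d1, d2] at h
  refine h.trans ?_
  unfold Lk
  field_simp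
  ring

theorem hasDerivAt_Rk {t : ℝ} (ht : 0 < t) (ζ : E n) :
    HasDerivAt (fun s => Rk s ζ) (Lk t ζ) t := by
  have h1 : HasDerivAt (fun s : ℝ => (s ^ n)⁻¹) (-(n * t ^ (n - 1)) / (t ^ n) ^ 2) t :=
    (hasDerivAt_pow n t).inv (pow_ne_zero _ ht.ne')
  have h2 : HasDerivAt (fun s : ℝ => ‖ζ‖ ^ 2 / s ^ 2)
      ((0 * t ^ 2 - ‖ζ‖ ^ 2 * ((2 : ℕ) * t ^ (2 - 1))) / (t ^ 2) ^ 2) t :=
    (hasDerivAt_const t (‖ζ‖ ^ 2)).div (hasDerivAt_pow 2 t) (pow_ne_zero _ ht.ne')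
  have h3 := h1.mul ((hasDerivAt_rh (‖ζ‖ ^ 2 / t ^ 2)).comp t h2)
  refine h3.congr_deriv ?_
  have e : (n : ℝ) * t ^ (n - 1) = n * t ^ n / t := by
    rcases n with _ | k
    · simp
    · rw [Nat.add_sub_cancel, pow_succ]; field_simp
  rw [e]
  unfold Lk
  simp only [Function.comp]
  generalize (1 - ‖ζ‖ ^ 2 / t ^ 2) ^ (1 / 2 : ℝ) = w
  generalize rh (‖ζ‖ ^ 2 / t ^ 2) = r
  push_cast
  field_simp
  ring

private lemma supp_of {g : ℝ → ℝ} (hg : ∀ s, 1 ≤ s → g s = 0) :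
    HasCompactSupport fun z : E n => g (‖z‖ ^ 2) := by
  refine HasCompactSupport.intro (isCompact_closedBall 0 1) fun y hy => hg _ ?_
  rw [mem_closedBall, dist_zero_right, not_le] at hy
  nlinarith

theorem integrable_rh : Integrable (fun z : E n => rh (‖z‖ ^ 2)) := by
  exact Continuous.integrable_of_hasCompactSupport (continuous_rh.comp (by fun_prop))
    (supp_of fun s hs => rh_eq_zero hs)

theorem mass_pos (n : ℕ) : 0 < mass n := by
  unfold mass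
  refine Continuous.integral_pos_of_hasCompactSupport_nonneg_nonzero (x := 0)
    (continuous_rh.comp (by fun_prop)) (supp_of fun s hs => rh_eq_zero hs)
    (fun z => rh_nonneg _) ?_
  have := rh_ge (s := ‖(0 : E n)‖ ^ 2) (by simp)
  linarith

private lemma lip_of {g : ℝ → ℝ} (hg : ContDiff ℝ 1 g) (h0 : ∀ s, 1 ≤ s → g s = 0) (n : ℕ) :
    ∃ L : ℝ, 0 ≤ L ∧ ∀ t : ℝ, 0 < t → ∀ ζ ζ' : E n,
      |g (‖ζ‖ ^ 2 / t ^ 2) - g (‖ζ'‖ ^ 2 / t ^ 2)| ≤ L * t⁻¹ * ‖ζ - ζ'‖ := by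
  have hc : ContDiff ℝ 1 fun z : E n => g (‖z‖ ^ 2) := hg.comp (contDiff_norm_sq ℝ)
  obtain ⟨C, hC⟩ := hc.lipschitzWith_of_hasCompactSupport (supp_of h0) (by norm_num)
  refine ⟨C, C.2, fun t ht ζ ζ' => ?_⟩
  have h := hC.dist_le_mul (t⁻¹ • ζ) (t⁻¹ • ζ')
  have e : ∀ z : E n, ‖t⁻¹ • z‖ = t⁻¹ * ‖z‖ := fun z => by
    rw [norm_smul, Real.norm_eq_abs, abs_of_pos (inv_pos.2 ht)]
  have e2 : ∀ z : E n, ‖t⁻¹ • z‖ ^ 2 = ‖z‖ ^ 2 / t ^ 2 := fun z => by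
    rw [e]; field_simp
  rw [Real.dist_eq, dist_eq_norm, ← smul_sub, e2, e2, e, ← mul_assoc] at h
  exact h

theorem lip_Pk (n : ℕ) : ∃ L : ℝ, 0 ≤ L ∧ ∀ t : ℝ, 0 < t → ∀ ζ ζ' : E n,
    |Pk t ζ - Pk t ζ'| ≤ L * (t ^ n)⁻¹ * ‖ζ - ζ'‖ := by
  obtain ⟨L, hL, h⟩ := lip_of (contDiff_ph.of_le (by norm_num)) (fun s hs => ph_eq_zero hs) n
  refine ⟨L, hL, fun t ht ζ ζ' => ?_⟩
  unfold Pk
  rw [← mul_sub, abs_mul, abs_of_pos (by positivity : 0 < t / t ^ n)]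
  calc _ ≤ t / t ^ n * (L * t⁻¹ * ‖ζ - ζ'‖) :=
        mul_le_mul_of_nonneg_left (h t ht ζ ζ') (by positivity)
    _ = _ := by field_simp

theorem lip_Rk (n : ℕ) : ∃ L : ℝ, 0 ≤ L ∧ ∀ t : ℝ, 0 < t → ∀ ζ ζ' : E n,
    |Rk t ζ - Rk t ζ'| ≤ L * (t ^ (n + 1))⁻¹ * ‖ζ - ζ'‖ := by
  obtain ⟨L, hL, h⟩ := lip_of contDiff_rh (fun s hs => rh_eq_zero hs) n
  refine ⟨L, hL, fun t ht ζ ζ' => ?_⟩
  unfold Rk
  rw [← mul_sub, abs_mul, abs_of_pos (by positivity : 0 < (t ^ n)⁻¹)]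
  calc _ ≤ (t ^ n)⁻¹ * (L * t⁻¹ * ‖ζ - ζ'‖) :=
        mul_le_mul_of_nonneg_left (h t ht ζ ζ') (by positivity)
    _ = _ := by rw [pow_succ]; field_simp

end Vale.Agent.P100
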