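import Vale.Agent.P100.Basic

/-!
# P100 IntQ: integrability of the double integrals

`lintegral_ball_rpow`: for `s < n`, `ζ ↦ ‖ζ‖^(-s)` is integrable on `ball 0 (2ρ)` (`integrableOn_ball_of_norm_le_rpow`); for `y ∈ ball 0 ρ`,
`ball 0 ρ ⊆ ball y (2ρ)` and translation invariance (`lintegral_sub_left_eq_self`).
`integrable_pair`.  For `y, z ≠ 0`, `y ≠ z`, `‖y‖ ≤ ‖z‖` (so `‖y - z‖ ≤ 2‖z‖`):
`‖z‖^(-γ) = ‖z‖^(-γ/2) ‖z‖^(-γ/2) ≤ ‖y‖^(-γ/2) · 2 ‖y - z‖^(-γ/2)`.  Hence a.e.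
`‖y‖^(-γ) ‖z‖^(-γ) ‖y-z‖^(1-n) ≤ 2 (‖y‖^(-3γ/2) + ‖z‖^(-3γ/2)) ‖y-z‖^(-(n-1+γ/2))` with `3γ/2 < 3 ≤ n`, `n - 1 + γ/2 < n`;
Tonelli (`lintegral_prod`, `lintegral_prod_symm`).  The exceptional set `y = 0 ∨ z = 0` is null; at `y = z` the integrand is `0`.
`integrable_fw_pair`: `γ = max 0 (max (-A) (-B)) < 2`; on `ball 0 ρ`, `x ≠ 0`: `‖x‖^A ≤ ρ^(A+γ) ‖x‖^(-γ)`, `v^p` is bounded
(continuous on the compact closed ball, `v > 0`); then `abs_Qk_le`, `Kr_eq_mul`.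
-/

open MeasureTheory Set Metric Filter Topology

noncomputable section

namespace Vale.Agent.P100

variable {n : ℕ}

theorem intQ_ball (hn : 1 ≤ n) {s : ℝ} (hs : s < n) (ρ : ℝ) :
    IntegrableOn (fun ζ : E n => ‖ζ‖ ^ (-s)) (ball 0 ρ) := by
  refine integrableOn_ball_of_norm_le_rpow (C := 1) (α := s) (by simpa using hn)
    (by simpa using hs) (Eventually.of_forall fun x => ?_)
    (measurable_norm.pow_const _).aestronglyMeasurable
  rw [Real.norm_of_nonneg (by positivity), one_mul]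

theorem lintegral_ball_rpow (hn : 1 ≤ n) {s : ℝ} (hs : s < n) (ρ : ℝ) : ∃ M : ENNReal, M < ⊤ ∧
    ∀ y : E n, ‖y‖ < ρ → ∫⁻ z in ball (0 : E n) ρ, ENNReal.ofReal (‖y - z‖ ^ (-s)) ≤ M := by
  refine ⟨∫⁻ ζ in ball (0 : E n) (2 * ρ), ENNReal.ofReal (‖ζ‖ ^ (-s)),
    (intQ_ball hn hs (2 * ρ)).lintegral_lt_top, fun y hy => ?_⟩
  rw [← lintegral_indicator measurableSet_ball, ← lintegral_indicator measurableSet_ball,
    ← lintegral_sub_left_eq_self
      ((ball (0 : E n) (2 * ρ)).indicator fun ζ => ENNReal.ofReal (‖ζ‖ ^ (-s))) y]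
  refine lintegral_mono fun z => ?_
  by_cases hz : z ∈ ball (0 : E n) ρ
  · have : y - z ∈ ball (0 : E n) (2 * ρ) := by
      rw [mem_ball_zero_iff] at hz ⊢
      linarith [norm_sub_le y z]
    rw [indicator_of_mem hz, indicator_of_mem this]
  · rw [indicator_of_notMem hz]
    exact zero_le

theorem intQ_pt {a b t γ m : ℝ} (hγ0 : 0 ≤ γ) (hγ : γ < 2) (ha : 0 < a) (hab : a ≤ b) (ht : 0 < t)
    (htb : t ≤ 2 * b) :
    a ^ (-γ) * b ^ (-γ) * t ^ (1 - m) ≤ 2 * (a ^ (-(3 * γ / 2)) * t ^ (-(m - 1 + γ / 2))) := by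
  have hb : 0 < b := lt_of_lt_of_le ha hab
  have e1 : b ^ (-γ) = b ^ (-(γ / 2)) * b ^ (-(γ / 2)) := by
    rw [← Real.rpow_add hb]; congr 1; ring
  have e2 : a ^ (-(3 * γ / 2)) = a ^ (-γ) * a ^ (-(γ / 2)) := by
    rw [← Real.rpow_add ha]; congr 1; ring
  have e3 : t ^ (-(m - 1 + γ / 2)) = t ^ (-(γ / 2)) * t ^ (1 - m) := by
    rw [← Real.rpow_add ht]; congr 1; ring
  have h1 : b ^ (-(γ / 2)) ≤ a ^ (-(γ / 2)) :=
    Real.rpow_le_rpow_of_nonpos ha hab (by linarith)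
  have h2 : b ^ (-(γ / 2)) ≤ 2 * t ^ (-(γ / 2)) := by
    have h3 : (2 * b) ^ (-(γ / 2)) ≤ t ^ (-(γ / 2)) :=
      Real.rpow_le_rpow_of_nonpos ht htb (by linarith)
    rw [Real.mul_rpow (by norm_num) hb.le] at h3
    have h4 : (2 : ℝ) ^ (-1 : ℝ) ≤ 2 ^ (-(γ / 2)) :=
      Real.rpow_le_rpow_of_exponent_le (by norm_num) (by linarith)
    rw [Real.rpow_neg_one] at h4
    have h5 : 0 < b ^ (-(γ / 2)) := Real.rpow_pos_of_pos hb _
    nlinarith [mul_le_mul_of_nonneg_right h4 h5.le]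
  have h6 : b ^ (-γ) ≤ a ^ (-(γ / 2)) * (2 * t ^ (-(γ / 2))) := by
    rw [e1]
    exact mul_le_mul h1 h2 (by positivity) (by positivity)
  rw [e2, e3]
  calc a ^ (-γ) * b ^ (-γ) * t ^ (1 - m)
      ≤ a ^ (-γ) * (a ^ (-(γ / 2)) * (2 * t ^ (-(γ / 2)))) * t ^ (1 - m) := by gcongr
    _ = _ := by ring

theorem integrable_pair (hn : 3 ≤ n) {γ C ρ : ℝ} (hγ0 : 0 ≤ γ) (hγ : γ < 2) {F G : E n → ℝ}
    (hF : Measurable F) (hG : Measurable G) (hF0 : ∀ x, 0 ≤ F x) (hG0 : ∀ x, 0 ≤ G x)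
    (hFs : ∀ x, ρ ≤ ‖x‖ → F x = 0) (hGs : ∀ x, ρ ≤ ‖x‖ → G x = 0)
    (hFb : ∀ x, x ≠ 0 → F x ≤ C * ‖x‖ ^ (-γ)) (hGb : ∀ x, x ≠ 0 → G x ≤ C * ‖x‖ ^ (-γ)) :
    Integrable (fun w : E n × E n => F w.1 * G w.2 * ‖w.1 - w.2‖ ^ (1 - (n : ℝ)))
      (volume.prod volume) := by
  have hn3 : (3 : ℝ) ≤ n := by exact_mod_cast hn
  set a : E n → ℝ := (ball 0 ρ).indicator fun ζ => ‖ζ‖ ^ (-(3 * γ / 2)) with ha
  set k : E n → ℝ := (ball 0 (2 * ρ)).indicator fun ζ => ‖ζ‖ ^ (-((n : ℝ) - 1 + γ / 2)) with hk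
  have ia : Integrable a :=
    (intQ_ball (by omega) (by linarith) ρ).integrable_indicator measurableSet_ball
  have ik : Integrable k :=
    (intQ_ball (by omega) (by linarith) (2 * ρ)).integrable_indicator measurableSet_ball
  have i1 : Integrable (fun w : E n × E n => a w.2 * k (w.1 - w.2)) (volume.prod volume) :=
    ia.convolution_integrand (ContinuousLinearMap.mul ℝ ℝ) ik
  have i2 : Integrable (fun w : E n × E n => a w.1 * k (w.2 - w.1)) (volume.prod volume) :=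
    i1.swap
  have a0 : ∀ x, 0 ≤ a x := fun x => indicator_nonneg (fun y _ => by positivity) x
  have k0 : ∀ x, 0 ≤ k x := fun x => indicator_nonneg (fun y _ => by positivity) x
  refine ((i1.add i2).const_mul (C ^ 2 * 2)).mono' ?_ ?_
  · exact (((hF.comp measurable_fst).mul (hG.comp measurable_snd)).mul
      ((measurable_fst.sub measurable_snd).norm.pow_const _)).aestronglyMeasurable
  have : Nontrivial (E n) := by
    apply Module.nontrivial_of_finrank_pos (R := ℝ)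
    simp only [finrank_euclideanSpace, Fintype.card_fin]
    omega
  have z0 : ∀ᵐ x : E n, x ≠ 0 := by
    rw [ae_iff]
    simp
  filter_upwards [Measure.quasiMeasurePreserving_fst.ae z0,
    Measure.quasiMeasurePreserving_snd.ae z0] with w h1 h2
  obtain ⟨y, z⟩ := w
  simp only [Pi.add_apply] at h1 h2 ⊢
  have r0 : 0 ≤ C ^ 2 * 2 * (a z * k (y - z) + a y * k (z - y)) := by
    have := a0 y; have := a0 z; have := k0 (y - z); have := k0 (z - y)
    positivity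
  rw [Real.norm_of_nonneg (mul_nonneg (mul_nonneg (hF0 y) (hG0 z)) (by positivity))]
  by_cases hy : ρ ≤ ‖y‖
  · rw [hFs y hy, zero_mul, zero_mul]; exact r0
  by_cases hz : ρ ≤ ‖z‖
  · rw [hGs z hz, mul_zero, zero_mul]; exact r0
  by_cases hyz : y = z
  · rw [hyz, sub_self, norm_zero, Real.zero_rpow (by linarith), mul_zero]
    rw [hyz, sub_self] at r0
    exact r0
  push Not at hy hz
  have ny : 0 < ‖y‖ := norm_pos_iff.mpr h1
  have nz : 0 < ‖z‖ := norm_pos_iff.mpr h2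
  have nt : 0 < ‖y - z‖ := norm_pos_iff.mpr (sub_ne_zero.mpr hyz)
  have nle := norm_sub_le y z
  have ey : a y = ‖y‖ ^ (-(3 * γ / 2)) := indicator_of_mem (mem_ball_zero_iff.mpr hy) _
  have ez : a z = ‖z‖ ^ (-(3 * γ / 2)) := indicator_of_mem (mem_ball_zero_iff.mpr hz) _
  have e1 : k (y - z) = ‖y - z‖ ^ (-((n : ℝ) - 1 + γ / 2)) :=
    indicator_of_mem (mem_ball_zero_iff.mpr (by linarith)) _
  have e2 : k (z - y) = ‖y - z‖ ^ (-((n : ℝ) - 1 + γ / 2)) := by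
    rw [← norm_sub_rev z y]
    exact indicator_of_mem (mem_ball_zero_iff.mpr (by rw [norm_sub_rev]; linarith)) _
  have b1 : F y * G z ≤ C ^ 2 * (‖y‖ ^ (-γ) * ‖z‖ ^ (-γ)) := by
    calc F y * G z ≤ (C * ‖y‖ ^ (-γ)) * (C * ‖z‖ ^ (-γ)) :=
          mul_le_mul (hFb y h1) (hGb z h2) (hG0 z) ((hF0 y).trans (hFb y h1))
      _ = _ := by ring
  have b2 : ‖y‖ ^ (-γ) * ‖z‖ ^ (-γ) * ‖y - z‖ ^ (1 - (n : ℝ)) ≤
      2 * (a z * k (y - z) + a y * k (z - y)) := by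
    rw [ey, ez, e1, e2]
    rcases le_total ‖y‖ ‖z‖ with h | h
    · have := intQ_pt (m := n) hγ0 hγ ny h nt (by linarith)
      have p : 0 ≤ ‖z‖ ^ (-(3 * γ / 2)) * ‖y - z‖ ^ (-((n : ℝ) - 1 + γ / 2)) := by positivity
      linarith
    · have := intQ_pt (m := n) hγ0 hγ nz h nt (by linarith)
      have p : 0 ≤ ‖y‖ ^ (-(3 * γ / 2)) * ‖y - z‖ ^ (-((n : ℝ) - 1 + γ / 2)) := by positivity
      rw [mul_comm (‖y‖ ^ (-γ))]
      linarith
  calc F y * G z * ‖y - z‖ ^ (1 - (n : ℝ))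
      ≤ C ^ 2 * (‖y‖ ^ (-γ) * ‖z‖ ^ (-γ)) * ‖y - z‖ ^ (1 - (n : ℝ)) :=
        mul_le_mul_of_nonneg_right b1 (by positivity)
    _ = C ^ 2 * (‖y‖ ^ (-γ) * ‖z‖ ^ (-γ) * ‖y - z‖ ^ (1 - (n : ℝ))) := by ring
    _ ≤ C ^ 2 * (2 * (a z * k (y - z) + a y * k (z - y))) :=
        mul_le_mul_of_nonneg_left b2 (by positivity)
    _ = _ := by ring

theorem intQ_bound {A γ : ℝ} (p : ℝ) (hA : 0 ≤ A + γ) {v : E n → ℝ} (hv : Nice v) (ρ : ℝ) :
    ∃ C : ℝ, 0 ≤ C ∧ ∀ x, x ≠ 0 → (ball 0 ρ).indicator (fw A p v) x ≤ C * ‖x‖ ^ (-γ) := by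
  have hc : Continuous fun x => v x ^ p := hv.cont.rpow_const fun x => Or.inl (hv.pos x).ne'
  obtain ⟨M, hM⟩ := (isCompact_closedBall (0 : E n) ρ).exists_bound_of_continuousOn
    hc.continuousOn
  refine ⟨|ρ| ^ (A + γ) * |M|, by positivity, fun x hx => ?_⟩
  by_cases h : x ∈ ball (0 : E n) ρ
  · rw [indicator_of_mem h]
    have nx : 0 < ‖x‖ := norm_pos_iff.mpr hx
    have h1 : v x ^ p ≤ |M| :=
      ((le_abs_self _).trans (hM x (ball_subset_closedBall h))).trans (le_abs_self _)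
    have h2 : ‖x‖ ^ A = ‖x‖ ^ (A + γ) * ‖x‖ ^ (-γ) := by
      rw [← Real.rpow_add nx]; congr 1; ring
    have h3 : ‖x‖ ^ (A + γ) ≤ |ρ| ^ (A + γ) :=
      Real.rpow_le_rpow nx.le ((mem_ball_zero_iff.mp h).le.trans (le_abs_self _)) hA
    have h4 : 0 ≤ v x ^ p := (Real.rpow_pos_of_pos (hv.pos x) p).le
    unfold fw
    rw [h2]
    calc ‖x‖ ^ (A + γ) * ‖x‖ ^ (-γ) * v x ^ p ≤ |ρ| ^ (A + γ) * ‖x‖ ^ (-γ) * |M| := by gcongr
      _ = _ := by ring
  · rw [indicator_of_notMem h]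
    positivity

theorem integrable_fw_pair (hn : 3 ≤ n) {A B p q κ : ℝ} (hA : -2 < A) (hB : -2 < B) (hκ : 0 ≤ κ)
    {u v : E n → ℝ} (hu : Nice u) (hv : Nice v) (ρ : ℝ) (c : E n) :
    Integrable (fun w : E n × E n => (ball 0 ρ).indicator (fw A p v) w.1 *
      (ball 0 ρ).indicator (fw B q u) w.2 * Qk κ c w.1 w.2) (volume.prod volume) ∧
    Integrable (fun w : E n × E n => (ball 0 ρ).indicator (fw A p v) w.1 *
      (ball 0 ρ).indicator (fw B q u) w.2 * Kr κ (w.1 - w.2)) (volume.prod volume) := by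
  set γ : ℝ := max 0 (max (-A) (-B)) with hγ
  have g0 : 0 ≤ γ := le_max_left _ _
  have g1 : -A ≤ γ := (le_max_left _ _).trans (le_max_right _ _)
  have g2 : -B ≤ γ := (le_max_right _ _).trans (le_max_right _ _)
  have g3 : γ < 2 := max_lt (by norm_num) (max_lt (by linarith) (by linarith))
  obtain ⟨C₁, c1, h1⟩ := intQ_bound (A := A) (γ := γ) p (by linarith) hv ρ
  obtain ⟨C₂, c2, h2⟩ := intQ_bound (A := B) (γ := γ) q (by linarith) hu ρ
  set F : E n → ℝ := (ball 0 ρ).indicator (fw A p v) with hF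
  set G : E n → ℝ := (ball 0 ρ).indicator (fw B q u) with hG
  have mF : Measurable F := (measurable_fw A p hv.cont).indicator measurableSet_ball
  have mG : Measurable G := (measurable_fw B q hu.cont).indicator measurableSet_ball
  have F0 : ∀ x, 0 ≤ F x := fun x => indicator_nonneg (fun y _ => fw_nonneg A p hv.pos y) x
  have G0 : ∀ x, 0 ≤ G x := fun x => indicator_nonneg (fun y _ => fw_nonneg B q hu.pos y) x
  have Fs : ∀ x, ρ ≤ ‖x‖ → F x = 0 := fun x hx =>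
    indicator_of_notMem (by rw [mem_ball_zero_iff]; exact not_lt.mpr hx) _
  have Gs : ∀ x, ρ ≤ ‖x‖ → G x = 0 := fun x hx =>
    indicator_of_notMem (by rw [mem_ball_zero_iff]; exact not_lt.mpr hx) _
  have I := integrable_pair (C := C₁ + C₂) hn g0 g3 mF mG F0 G0 Fs Gs
    (fun x hx => (h1 x hx).trans (mul_le_mul_of_nonneg_right (by linarith) (by positivity)))
    (fun x hx => (h2 x hx).trans (mul_le_mul_of_nonneg_right (by linarith) (by positivity)))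
  have key : ∀ (K : E n × E n → ℝ) (D : ℝ), Measurable K → 0 ≤ D →
      (∀ y z : E n, ‖y‖ < ρ → ‖z‖ < ρ → |K (y, z)| ≤ D * ‖y - z‖ ^ (1 - (n : ℝ))) →
      Integrable (fun w : E n × E n => F w.1 * G w.2 * K w) (volume.prod volume) := by
    intro K D mK hD hK
    refine (I.const_mul D).mono' (((mF.comp measurable_fst).mul
      (mG.comp measurable_snd)).mul mK).aestronglyMeasurable (Eventually.of_forall ?_)
    rintro ⟨y, z⟩
    have p0 : 0 ≤ F y * G z := mul_nonneg (F0 y) (G0 z)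
    simp only
    by_cases hy : ρ ≤ ‖y‖
    · simp [Fs y hy]
    by_cases hz : ρ ≤ ‖z‖
    · simp [Gs z hz]
    rw [norm_mul, Real.norm_of_nonneg p0, Real.norm_eq_abs]
    calc F y * G z * |K (y, z)| ≤ F y * G z * (D * ‖y - z‖ ^ (1 - (n : ℝ))) :=
          mul_le_mul_of_nonneg_left (hK y z (not_le.mp hy) (not_le.mp hz)) p0
      _ = _ := by ring
  constructor
  · refine key (fun w => Qk κ c w.1 w.2) (n * κ * (2 * |ρ| + 2 * ‖c‖)) (measurable_Qk κ c)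
      (by positivity) fun y z hy hz => (abs_Qk_le (by omega) hκ c y z).trans ?_
    have := norm_sub_le y c
    have := norm_sub_le z c
    have := le_abs_self ρ
    have : ‖y - c‖ + ‖z - c‖ ≤ 2 * |ρ| + 2 * ‖c‖ := by linarith
    gcongr
  · refine key (fun w => Kr κ (w.1 - w.2)) (κ * (2 * |ρ|))
      ((measurable_Kr κ).comp (measurable_fst.sub measurable_snd)) (by positivity)
      fun y z hy hz => ?_
    rw [abs_of_nonneg (Kr_nonneg hκ _), Kr_eq_mul hn]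
    have := norm_sub_le y z
    have := le_abs_self ρ
    have : ‖y - z‖ ≤ 2 * |ρ| := by linarith
    gcongr

end Vale.Agent.P100
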