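import Vale.Agent.P100.Basic

/-!
# P100 Ray: the kernel along two rays

Write `ỹ = y - c`, `z̃ = z - c`, `ν = (n-2)/2`.  `fl c t y - fl c t' z = e^t ỹ - e^t' z̃`, and
`‖e^t ỹ - e^t' z̃‖² = e^(t+t') (2 ‖ỹ‖‖z̃‖ cosh (t - t' + δ) - 2⟪ỹ,z̃⟫)` with `δ = log ‖ỹ‖ - log ‖z̃‖`.  So
`e^(ν t) e^(ν t') Kr κ (fl c t y - fl c t' z) = k (t - t' + δ)`, `k s = κ (2 ‖ỹ‖‖z̃‖ cosh s - 2⟪ỹ,z̃⟫)^(-ν)`; under `NC` the base is positive,
`k` is continuous, even, and `|s| ≤ |s'| → k s' ≤ k s` (`Real.cosh_le_cosh`, `Real.rpow_le_rpow_of_nonpos`).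
* `hasDerivAt_Kr`: `Kr κ ζ = κ (‖ζ‖²)^(-ν)`; `2⟪Y - c, Y - z⟫ = ‖Y - z‖² + ‖Y - c‖² - ‖z - c‖²`.
* consequently `d/dt [e^(ν t) Kr κ (fl c t y - z)] = - e^(ν t) Qk κ c (fl c t y) z`, and the fundamental theorem of calculus gives
  `∫ t in Ioo a b, e^(ν t) Qk (fl c t y) (fl c t' z) = e^(-ν t') (k (a - t' + δ) - k (b - t' + δ))`.
* `ray_single`: compare `|a + δ|` and `|b + δ|`.
* `ray_double`: `H t' = k (a + δ - t') - k (b + δ - t')` is continuous, odd about `c₀ = (a+b)/2 + δ`, `≤ 0` right of `c₀`;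
  if `c₀ ≤ (a'+b')/2`, then either `c₀ ≤ a'`, or split `[a', b'] = [a', 2c₀ - a'] ∪ [2c₀ - a', b']`
  (`intervalIntegral.integral_comp_sub_left`).  One-dimensional lemma first, for a general continuous even `k`.
-/

open MeasureTheory Set Metric Filter Topology

noncomputable section

namespace Vale.Agent.P100

variable {n : ℕ}

theorem NC.symm {c y z : E n} (h : NC c y z) : NC c z y := by
  unfold NC at *
  rwa [real_inner_comm, mul_comm]

private theorem fl_sub_fl (c y z : E n) (t t' : ℝ) :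
    fl c t y - fl c t' z = Real.exp t • (y - c) - Real.exp t' • (z - c) := by
  simp only [fl]
  abel

private theorem nsq (c y z : E n) (t t' : ℝ) : ‖fl c t y - fl c t' z‖ ^ 2 =
    (Real.exp t * ‖y - c‖) ^ 2 - 2 * (Real.exp t * Real.exp t' * inner ℝ (y - c) (z - c)) +
      (Real.exp t' * ‖z - c‖) ^ 2 := by
  rw [fl_sub_fl, norm_sub_sq_real, norm_smul, norm_smul, real_inner_smul_left,
    real_inner_smul_right, Real.norm_of_nonneg (Real.exp_pos t).le,
    Real.norm_of_nonneg (Real.exp_pos t').le]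
  ring

private theorem NC.pos {c y z : E n} (h : NC c y z) : 0 < ‖y - c‖ := by
  refine norm_pos_iff.2 fun e => ?_
  unfold NC at h
  simp [e] at h

theorem NC.fl_ne {c y z : E n} (h : NC c y z) (t t' : ℝ) : fl c t y ≠ fl c t' z := by
  intro e
  have h1 := nsq c y z t t'
  rw [e, sub_self, norm_zero] at h1
  have h2 := mul_lt_mul_of_pos_left h (mul_pos (Real.exp_pos t) (Real.exp_pos t'))
  nlinarith [sq_nonneg (Real.exp t * ‖y - c‖ - Real.exp t' * ‖z - c‖)]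

private theorem Kr_sq (κ : ℝ) (ζ : E n) : Kr κ ζ = κ * (‖ζ‖ ^ 2) ^ (-(((n : ℝ) - 2) / 2)) := by
  rw [Kr, ← Real.rpow_natCast, ← Real.rpow_mul (norm_nonneg _)]
  congr 2
  push_cast
  ring

private theorem two_inner (c y z : E n) :
    2 * inner ℝ (y - z) (y - c) = ‖y - z‖ ^ 2 + ‖y - c‖ ^ 2 - ‖z - c‖ ^ 2 := by
  have h : z - c = (y - c) - (y - z) := by abel
  rw [h, norm_sub_sq_real (y - c), real_inner_comm]
  ring

theorem hasDerivAt_Kr (κ : ℝ) {c y z : E n} {t : ℝ} (h : fl c t y ≠ z) :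
    HasDerivAt (fun s => Kr κ (fl c s y - z))
      (-(((n : ℝ) - 2) / 2 * Kr κ (fl c t y - z) + Qk κ c (fl c t y) z)) t := by
  have h0 : ‖fl c t y - z‖ ^ 2 ≠ 0 := pow_ne_zero 2 (norm_ne_zero_iff.2 (sub_ne_zero.2 h))
  have h1 := (((hasDerivAt_fl c y t).sub_const z).norm_sq.rpow_const
    (p := -(((n : ℝ) - 2) / 2)) (Or.inl h0)).const_mul κ
  simp only [Kr_sq]
  refine h1.congr_deriv ?_
  rw [two_inner, Real.rpow_sub_one h0, Qk, Kr_sq]
  generalize ‖fl c t y - z‖ ^ 2 = D at h0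
  field_simp
  ring

/-- `(n-2)/2 K + Q = (n-2) K ⟪y - c, y - z⟫ / ‖y - z‖²` -/
theorem abs_M_le (hn : 3 ≤ n) {κ : ℝ} (hκ : 0 ≤ κ) (c y z : E n) :
    |((n : ℝ) - 2) / 2 * Kr κ (y - z) + Qk κ c y z| ≤ n * κ * ‖y - c‖ * ‖y - z‖ ^ (1 - (n : ℝ)) := by
  have hn' : (3 : ℝ) ≤ n := by exact_mod_cast hn
  have hr : 0 ≤ ‖y - z‖ ^ (1 - (n : ℝ)) := Real.rpow_nonneg (norm_nonneg _) _
  by_cases h : y - z = 0
  · rw [Qk, Kr_eq_mul hn, h]
    simp only [norm_zero, mul_zero, zero_mul, zero_div, add_zero, abs_zero]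
    rw [h, norm_zero] at hr
    positivity
  · have h0 : 0 < ‖y - z‖ := norm_pos_iff.2 h
    have h1 : ((n : ℝ) - 2) / 2 * Kr κ (y - z) + Qk κ c y z =
        ((n : ℝ) - 2) * κ * ‖y - z‖ ^ (1 - (n : ℝ)) * (inner ℝ (y - z) (y - c) / ‖y - z‖) := by
      have h2 := two_inner c y z
      have h3 : ‖y - c‖ ^ 2 - ‖z - c‖ ^ 2 = 2 * inner ℝ (y - z) (y - c) - ‖y - z‖ ^ 2 := by linarith
      rw [Qk, Kr_eq_mul hn, h3]
      field_simp
      ring
    have h4 : |inner ℝ (y - z) (y - c) / ‖y - z‖| ≤ ‖y - c‖ := by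
      rw [abs_div, abs_norm, div_le_iff₀ h0, mul_comm]
      exact abs_real_inner_le_norm _ _
    have h5 : 0 ≤ ((n : ℝ) - 2) * κ * ‖y - z‖ ^ (1 - (n : ℝ)) :=
      mul_nonneg (mul_nonneg (by linarith) hκ) hr
    rw [h1, abs_mul, abs_of_nonneg h5]
    refine (mul_le_mul_of_nonneg_left h4 h5).trans ?_
    have h6 : 0 ≤ κ * ‖y - c‖ * ‖y - z‖ ^ (1 - (n : ℝ)) := by positivity
    nlinarith

private theorem ftc (κ : ℝ) {c y z : E n} (h : ∀ t, fl c t y ≠ z) {a b : ℝ} (hab : a ≤ b) :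
    ∫ t in Ioo a b, Real.exp (((n : ℝ) - 2) / 2 * t) * Qk κ c (fl c t y) z =
      Real.exp (((n : ℝ) - 2) / 2 * a) * Kr κ (fl c a y - z) -
        Real.exp (((n : ℝ) - 2) / 2 * b) * Kr κ (fl c b y - z) := by
  have h1 : ∀ t, HasDerivAt (fun t => -(Real.exp (((n : ℝ) - 2) / 2 * t) * Kr κ (fl c t y - z)))
      (Real.exp (((n : ℝ) - 2) / 2 * t) * Qk κ c (fl c t y) z) t := fun t => by
    have h2 := ((((hasDerivAt_id t).const_mul (((n : ℝ) - 2) / 2)).exp).mul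
      (hasDerivAt_Kr κ (h t))).neg
    refine h2.congr_deriv ?_
    simp only [id]
    ring
  have h2 : Continuous fun t => Kr κ (fl c t y - z) :=
    continuous_iff_continuousAt.2 fun t => (hasDerivAt_Kr κ (h t)).continuousAt
  have h3 := continuous_fl_time c y
  have h4 : Continuous fun t => Real.exp (((n : ℝ) - 2) / 2 * t) * Qk κ c (fl c t y) z := by
    unfold Qk
    refine Continuous.mul (by fun_prop) (Continuous.div (by fun_prop) (by fun_prop) fun t => ?_)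
    exact mul_ne_zero two_ne_zero (pow_ne_zero 2 (norm_ne_zero_iff.2 (sub_ne_zero.2 (h t))))
  rw [← integral_Ioc_eq_integral_Ioo, ← intervalIntegral.integral_of_le hab,
    intervalIntegral.integral_eq_sub_of_hasDerivAt (fun t _ => h1 t) (h4.intervalIntegrable a b)]
  ring

private theorem exists_k (hn : 2 ≤ n) {κ : ℝ} (hκ : 0 ≤ κ) {c y z : E n} (h : NC c y z) :
    ∃ k : ℝ → ℝ, Continuous k ∧ (∀ s s', |s| ≤ |s'| → k s' ≤ k s) ∧ ∀ t t',
      Real.exp (((n : ℝ) - 2) / 2 * t') * (Real.exp (((n : ℝ) - 2) / 2 * t) *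
        Kr κ (fl c t y - fl c t' z)) = k (t + (Real.log ‖y - c‖ - Real.log ‖z - c‖) - t') := by
  have hn' : (2 : ℝ) ≤ n := by exact_mod_cast hn
  have hA := h.pos
  have hB := h.symm.pos
  have hpos : ∀ s, 0 < 2 * (‖y - c‖ * ‖z - c‖) * Real.cosh s - 2 * inner ℝ (y - c) (z - c) := by
    intro s
    have h1 := mul_le_mul_of_nonneg_left (Real.one_le_cosh s) (mul_pos hA hB).le
    unfold NC at h
    linarith
  refine ⟨fun s => κ * (2 * (‖y - c‖ * ‖z - c‖) * Real.cosh s - 2 * inner ℝ (y - c) (z - c)) ^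
    (-(((n : ℝ) - 2) / 2)), ?_, fun s s' hs => ?_, fun t t' => ?_⟩
  · exact continuous_const.mul (Continuous.rpow_const (by fun_prop) fun s => Or.inl (hpos s).ne')
  · refine mul_le_mul_of_nonneg_left (Real.rpow_le_rpow_of_nonpos (hpos s) ?_ (by linarith)) hκ
    have h1 := mul_le_mul_of_nonneg_left (Real.cosh_le_cosh.2 hs) (mul_pos hA hB).le
    linarith
  · have h1 : ‖fl c t y - fl c t' z‖ ^ 2 = Real.exp (t + t') * (2 * (‖y - c‖ * ‖z - c‖) *
        Real.cosh (t + (Real.log ‖y - c‖ - Real.log ‖z - c‖) - t') -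
          2 * inner ℝ (y - c) (z - c)) := by
      rw [nsq, Real.cosh_eq, Real.exp_neg, Real.exp_sub, Real.exp_add t (_ - _), Real.exp_sub,
        Real.exp_log hA, Real.exp_log hB, Real.exp_add]
      field_simp
      ring
    rw [Kr_sq, h1, Real.mul_rpow (Real.exp_pos _).le (hpos _).le, ← Real.exp_mul]
    have h2 : Real.exp (((n : ℝ) - 2) / 2 * t') * Real.exp (((n : ℝ) - 2) / 2 * t) *
        Real.exp ((t + t') * -(((n : ℝ) - 2) / 2)) = 1 := by
      rw [← Real.exp_add, ← Real.exp_add, ← Real.exp_zero]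
      congr 1
      ring
    beta_reduce
    linear_combination (κ * (2 * (‖y - c‖ * ‖z - c‖) *
      Real.cosh (t + (Real.log ‖y - c‖ - Real.log ‖z - c‖) - t') -
        2 * inner ℝ (y - c) (z - c)) ^ (-(((n : ℝ) - 2) / 2))) * h2

private theorem le_iff_log {A B u v : ℝ} (hA : 0 < A) (hB : 0 < B)
    (h : Real.exp u * A ≤ Real.exp v * B) : u + Real.log A ≤ v + Real.log B := by
  have h1 := Real.log_le_log (by positivity) h
  rwa [Real.log_mul (Real.exp_pos u).ne' hA.ne', Real.log_mul (Real.exp_pos v).ne' hB.ne',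
    Real.log_exp, Real.log_exp] at h1

private theorem odd_int {H : ℝ → ℝ} (hc : Continuous H) {c a b : ℝ}
    (ho : ∀ t, H (2 * c - t) = -H t) (hn : ∀ t, c ≤ t → H t ≤ 0) (hab : a ≤ b)
    (h : c ≤ (a + b) / 2) : ∫ t in a..b, H t ≤ 0 := by
  have key : ∀ u, c ≤ u → u ≤ b → ∫ t in u..b, H t ≤ 0 := fun u h1 h2 => by
    rw [intervalIntegral.integral_of_le h2]
    exact setIntegral_nonpos measurableSet_Ioc fun t ht => hn t (h1.trans ht.1.le)
  by_cases h1 : c ≤ a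
  · exact key a h1 hab
  · have h2 := intervalIntegral.integral_comp_sub_left (a := a) (b := 2 * c - a) H (2 * c)
    simp only [ho, intervalIntegral.integral_neg, sub_sub_cancel] at h2
    rw [← intervalIntegral.integral_add_adjacent_intervals (hc.intervalIntegrable a (2 * c - a))
      (hc.intervalIntegrable (2 * c - a) b)]
    have h3 := key (2 * c - a) (by linarith) (by linarith)
    linarith

private theorem one_dim {k : ℝ → ℝ} (hc : Continuous k) (hk : ∀ s s', |s| ≤ |s'| → k s' ≤ k s)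
    {a b a' b' : ℝ} (hab : a ≤ b) (hab' : a' ≤ b') :
    ((a + b) / 2 ≤ (a' + b') / 2 → ∫ t in a'..b', (k (a - t) - k (b - t)) ≤ 0) ∧
    ((a' + b') / 2 ≤ (a + b) / 2 → 0 ≤ ∫ t in a'..b', (k (a - t) - k (b - t))) := by
  have he : ∀ s s', s = -s' → k s = k s' := fun s s' e =>
    le_antisymm (hk _ _ (by rw [e, abs_neg])) (hk _ _ (by rw [e, abs_neg]))
  refine ⟨fun h => ?_, fun h => ?_⟩
  · refine odd_int (c := (a + b) / 2) (by fun_prop) (fun t => ?_) (fun t ht => ?_) hab' h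
    · rw [he (a - (2 * ((a + b) / 2) - t)) (b - t) (by ring),
        he (b - (2 * ((a + b) / 2) - t)) (a - t) (by ring)]
      ring
    · refine sub_nonpos.2 (hk _ _ ?_)
      rw [abs_of_nonpos (show a - t ≤ 0 by linarith), abs_le]
      constructor <;> linarith
  · have h1 := odd_int (H := fun t => k (b + t) - k (a + t)) (c := -((a + b) / 2)) (a := -b')
      (b := -a') (by fun_prop) (fun t => ?_) (fun t ht => ?_) (by linarith) (by linarith)
    · rw [← intervalIntegral.integral_comp_neg] at h1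
      rw [← neg_nonpos, ← intervalIntegral.integral_neg]
      simpa only [sub_eq_add_neg, neg_add_rev, neg_neg] using h1
    · rw [he (a + (2 * -((a + b) / 2) - t)) (b + t) (by ring),
        he (b + (2 * -((a + b) / 2) - t)) (a + t) (by ring)]
      ring
    · refine sub_nonpos.2 (hk _ _ ?_)
      rw [abs_of_nonneg (show 0 ≤ b + t by linarith), abs_le]
      constructor <;> linarith

theorem ray_single (hn : 2 ≤ n) {κ : ℝ} (hκ : 0 ≤ κ) {c y z : E n} (h : NC c y z) {a b : ℝ}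
    (hab : a ≤ b) :
    (Real.exp ((a + b) / 2) * ‖y - c‖ ≤ ‖z - c‖ →
      ∫ t in Ioo a b, Real.exp (((n : ℝ) - 2) / 2 * t) * Qk κ c (fl c t y) z ≤ 0) ∧
    (‖z - c‖ ≤ Real.exp ((a + b) / 2) * ‖y - c‖ →
      0 ≤ ∫ t in Ioo a b, Real.exp (((n : ℝ) - 2) / 2 * t) * Qk κ c (fl c t y) z) := by
  obtain ⟨k, -, hk, he⟩ := exists_k hn hκ h
  have h1 : ∀ t, Real.exp (((n : ℝ) - 2) / 2 * t) * Kr κ (fl c t y - z) =
      k (t + (Real.log ‖y - c‖ - Real.log ‖z - c‖)) := fun t => by simpa using he t 0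
  rw [ftc κ (fun t => by simpa using h.fl_ne t 0) hab, h1, h1]
  refine ⟨fun h2 => sub_nonpos.2 (hk _ _ ?_), fun h2 => sub_nonneg.2 (hk _ _ ?_)⟩
  · have h3 := le_iff_log (v := 0) h.pos h.symm.pos (by simpa using h2)
    rw [abs_of_nonpos (show a + _ ≤ 0 by linarith), abs_le]
    constructor <;> linarith
  · have h3 := le_iff_log (u := 0) h.symm.pos h.pos (by simpa using h2)
    rw [abs_of_nonneg (show 0 ≤ b + _ by linarith), abs_le]
    constructor <;> linarith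

theorem ray_double (hn : 2 ≤ n) {κ : ℝ} (hκ : 0 ≤ κ) {c y z : E n} (h : NC c y z) {a b a' b' : ℝ}
    (hab : a ≤ b) (hab' : a' ≤ b') :
    (Real.exp ((a + b) / 2) * ‖y - c‖ ≤ Real.exp ((a' + b') / 2) * ‖z - c‖ →
      ∫ t' in Ioo a' b', Real.exp (((n : ℝ) - 2) / 2 * t') *
        ∫ t in Ioo a b, Real.exp (((n : ℝ) - 2) / 2 * t) * Qk κ c (fl c t y) (fl c t' z) ≤ 0) ∧
    (Real.exp ((a' + b') / 2) * ‖z - c‖ ≤ Real.exp ((a + b) / 2) * ‖y - c‖ →
      0 ≤ ∫ t' in Ioo a' b', Real.exp (((n : ℝ) - 2) / 2 * t') *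
        ∫ t in Ioo a b, Real.exp (((n : ℝ) - 2) / 2 * t) * Qk κ c (fl c t y) (fl c t' z)) := by
  obtain ⟨k, hc, hk, he⟩ := exists_k hn hκ h
  have h1 : ∀ t', Real.exp (((n : ℝ) - 2) / 2 * t') *
      ∫ t in Ioo a b, Real.exp (((n : ℝ) - 2) / 2 * t) * Qk κ c (fl c t y) (fl c t' z) =
      k (a + (Real.log ‖y - c‖ - Real.log ‖z - c‖) - t') -
        k (b + (Real.log ‖y - c‖ - Real.log ‖z - c‖) - t') := fun t' => by
    rw [ftc κ (fun t => h.fl_ne t t') hab, mul_sub, he, he]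
  simp only [h1]
  rw [← integral_Ioc_eq_integral_Ioo, ← intervalIntegral.integral_of_le hab']
  have h2 := one_dim hc hk (add_le_add_left hab (Real.log ‖y - c‖ - Real.log ‖z - c‖)) hab'
  refine ⟨fun h3 => h2.1 ?_, fun h3 => h2.2 ?_⟩
  · linarith [le_iff_log h.pos h.symm.pos h3]
  · linarith [le_iff_log h.symm.pos h.pos h3]

end Vale.Agent.P100
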