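import Vale.Agent.P100.Flow2
import Vale.Agent.P100.Ray
import Vale.Agent.P100.IntQ

/-!
# P100 Grad: the derivative of the potential along the flow

Write `M y z = (n-2)/2 Kr κ (y-z) + Qk κ c y z`, `B' = ball 0 ρ'`, `N y = ∫ z, Kr κ (y-z) G z`, `D y = ∫ z, G z * M y z`
(measurable: `StronglyMeasurable.integral_prod_right`), `W (y,z) = 1_{B'}(y) G z M y z`.
1. `∫⁻∫⁻ ‖W‖ₑ < ∞`: `abs_M_le`, `lintegral_ball_rpow` with `s = n - 1` and radius `max ρ ρ'` (integrate in `y` first), `G` integrable.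
   In particular for a.e. `y ∈ B'`, `z ↦ G z M y z` is integrable.
2. `Flow.ae_lintegral_lt_top` for `y ↦ ∫⁻ z, ‖W (y,z)‖ₑ`: for a.e. `y`, `(t,z) ↦ W (fl c t y, z)` is integrable on `Ioo 0 1 ×ˢ univ`.
   Fix such `y`, also with `y ≠ c` and `fl c t y ≠ 0` (`ae_ray`).  Then `w t = ∫ z, W (fl c t y, z)` is integrable on `Ioo 0 1`, and
   `IntervalIntegrable.ae_hasDerivAt_integral` gives `HasDerivAt (s ↦ ∫ t in 0..s, w t) (w t₀) t₀` for a.e. `t₀ ∈ Ioo 0 1`.
3. If `fl c t₀ y ∈ B'`, then for `s` near `t₀` the orbit between `t₀` and `s` stays in `B'`, and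
   `N (fl s y) - N (fl t₀ y) = ∫ z, G z (Kr (fl s y - z) - Kr (fl t₀ y - z)) = -∫ z, ∫ t in t₀..s, W (fl t y, z) = -∫ t in t₀..s, w t`
   (`hasDerivAt_Kr` for a.e. `z` by `ae_NC_right`, `NC.fl_ne` with `t' = 0`; Fubini `intervalIntegral_integral_swap` or `integral_integral_swap`).
   So `s ↦ (v - N) (fl s y)` has derivative `dv + D` at `t₀`, and `hlip` with `‖fl s y - fl t₀ y‖ = |e^s - e^t₀| ‖y - c‖` bounds it by
   `Λ ‖fl t₀ y - c‖` (bound the slope, `hasDerivAt_iff_tendsto_slope`, `le_of_tendsto_of_tendsto`).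
4. `Flow.null_of_ae` for the measurable set `Z = {y ∈ B' | Λ ‖y - c‖ < |dv c v y + D y|}`.
-/

open MeasureTheory Set Metric Filter Topology

noncomputable section

namespace Vale.Agent.P100

variable {n : ℕ}

private def gM (κ : ℝ) (c y z : E n) : ℝ := ((n : ℝ) - 2) / 2 * Kr κ (y - z) + Qk κ c y z

private def gW (κ ρ' : ℝ) (c : E n) (G : E n → ℝ) (y z : E n) : ℝ :=
  (ball (0 : E n) ρ').indicator (fun _ => (1 : ℝ)) y * (G z * gM κ c y z)

private theorem meas_gM (κ : ℝ) (c : E n) : Measurable (fun w : E n × E n => gM κ c w.1 w.2) :=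
  (((measurable_Kr κ).comp (measurable_fst.sub measurable_snd)).const_mul _).add (measurable_Qk κ c)

private theorem meas_gW (κ ρ' : ℝ) (c : E n) {G : E n → ℝ} (hG : Measurable G) :
    Measurable (fun w : E n × E n => gW κ ρ' c G w.1 w.2) :=
  ((measurable_const.indicator measurableSet_ball).comp measurable_fst).mul
    ((hG.comp measurable_snd).mul (meas_gM κ c))

private theorem gW_of_mem {κ ρ' : ℝ} {c : E n} {G : E n → ℝ} {y : E n} (hy : y ∈ ball (0 : E n) ρ')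
    (z : E n) : gW κ ρ' c G y z = G z * gM κ c y z := by
  simp only [gW, indicator_of_mem hy, one_mul]

private theorem lint_gW (hn : 3 ≤ n) {κ : ℝ} (hκ : 0 ≤ κ) {G : E n → ℝ} (hG : Measurable G)
    (hGi : Integrable G) {ρ : ℝ} (ρ' : ℝ) (hGs : ∀ x, ρ ≤ ‖x‖ → G x = 0)
    (c : E n) : ∫⁻ y, ∫⁻ z, ‖gW κ ρ' c G y z‖ₑ < ⊤ := by
  have hn1 : 1 ≤ n := by omega
  obtain ⟨M, hM, hMb⟩ := lintegral_ball_rpow (n := n) hn1 (s := (n : ℝ) - 1) (by linarith) (max ρ ρ')
  rw [lintegral_lintegral_swap (meas_gW κ ρ' c hG).enorm.aemeasurable]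
  set a : ℝ := n * κ * (|ρ'| + ‖c‖) with ha
  have ha0 : 0 ≤ a := by positivity
  have key : ∀ z, ∫⁻ y, ‖gW κ ρ' c G y z‖ₑ ≤ ‖G z‖ₑ * (ENNReal.ofReal a * M) := by
    intro z
    by_cases hz : ρ ≤ ‖z‖
    · simp [gW, hGs z hz]
    push Not at hz
    have h1 : ∀ y, ‖gW κ ρ' c G y z‖ₑ ≤ (ball (0 : E n) (max ρ ρ')).indicator
        (fun y => ‖G z‖ₑ * (ENNReal.ofReal a * ENNReal.ofReal (‖z - y‖ ^ (-((n : ℝ) - 1))))) y := by
      intro y
      by_cases hy : y ∈ ball (0 : E n) ρ'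
      · have hy2 : y ∈ ball (0 : E n) (max ρ ρ') := ball_subset_ball (le_max_right _ _) hy
        rw [indicator_of_mem hy2, gW_of_mem hy, enorm_mul]
        gcongr
        rw [← ENNReal.ofReal_mul ha0, Real.enorm_eq_ofReal_abs]
        apply ENNReal.ofReal_le_ofReal
        have h2 := abs_M_le hn hκ c y z
        have h3 : ‖y - c‖ ≤ |ρ'| + ‖c‖ := by
          have := norm_sub_le y c
          have h4 := mem_ball_zero_iff.1 hy
          have := le_abs_self ρ'
          linarith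
        have h5 : ‖z - y‖ ^ (-((n : ℝ) - 1)) = ‖y - z‖ ^ (1 - (n : ℝ)) := by
          rw [norm_sub_rev, neg_sub]
        rw [h5]
        refine h2.trans ?_
        have h6 : 0 ≤ ‖y - z‖ ^ (1 - (n : ℝ)) := Real.rpow_nonneg (norm_nonneg _) _
        rw [ha]
        gcongr
      · simp [gW, indicator_of_notMem hy]
    refine (lintegral_mono h1).trans ?_
    rw [lintegral_indicator measurableSet_ball, lintegral_const_mul' _ _ enorm_ne_top,
      lintegral_const_mul' _ _ ENNReal.ofReal_ne_top]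
    gcongr
    exact hMb z (hz.trans_le (le_max_left _ _))
  refine (lintegral_mono key).trans_lt ?_
  rw [lintegral_mul_const _ hG.enorm]
  exact ENNReal.mul_lt_top hGi.2 (ENNReal.mul_lt_top ENNReal.ofReal_lt_top hM)

/-- the increment of the potential along a piece of orbit inside the ball -/
private theorem incr (hn : 3 ≤ n) {κ ρ' : ℝ} {G : E n → ℝ} {c y : E n} (hyc : y ≠ c)
    (hK : ∀ x, Integrable (fun z => Kr κ (x - z) * G z)) {a b : ℝ}
    (hab : ∀ t ∈ uIcc a b, fl c t y ∈ ball (0 : E n) ρ')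
    (hint : Integrable (Function.uncurry fun (t : ℝ) (z : E n) => gW κ ρ' c G (fl c t y) z)
      ((volume.restrict (uIoc a b)).prod volume)) :
    (∫ z, Kr κ (fl c b y - z) * G z) =
      (∫ z, Kr κ (fl c a y - z) * G z) - ∫ t in a..b, ∫ z, gW κ ρ' c G (fl c t y) z := by
  rw [intervalIntegral_integral_swap hint]
  have h1 : ∀ᵐ z : E n, ∫ t in a..b, gW κ ρ' c G (fl c t y) z =
      Kr κ (fl c a y - z) * G z - Kr κ (fl c b y - z) * G z := by
    filter_upwards [ae_NC_right (by omega : 2 ≤ n) hyc, hint.prod_left_ae] with z hz hi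
    have hd : ∀ t ∈ uIcc a b, HasDerivAt (fun s => -(Kr κ (fl c s y - z) * G z))
        (gW κ ρ' c G (fl c t y) z) t := by
      intro t ht
      have hne : fl c t y ≠ z := by
        have := hz.fl_ne t 0
        rwa [fl_zero] at this
      have := ((hasDerivAt_Kr κ hne).mul_const (G z)).neg
      rw [gW_of_mem (hab t ht)]
      have e : G z * gM κ c (fl c t y) z =
          -(-(((n : ℝ) - 2) / 2 * Kr κ (fl c t y - z) + Qk κ c (fl c t y) z) * G z) := by
        simp only [gM]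
        ring
      rw [e]
      exact this
    have hii : IntervalIntegrable (fun t => gW κ ρ' c G (fl c t y) z) volume a b :=
      intervalIntegrable_iff.2 hi
    rw [intervalIntegral.integral_eq_sub_of_hasDerivAt hd hii]
    ring
  rw [integral_congr_ae h1, integral_sub (hK _) (hK _)]
  ring

private theorem grad_ray (hn : 3 ≤ n) {κ : ℝ} {v G : E n → ℝ} (hv : Nice v) {ρ' Λ : ℝ}
    (hK : ∀ x, Integrable (fun z => Kr κ (x - z) * G z))
    (hlip : ∀ y ∈ ball (0 : E n) ρ', ∀ y' ∈ ball (0 : E n) ρ',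
      |(v y - ∫ z, Kr κ (y - z) * G z) - (v y' - ∫ z, Kr κ (y' - z) * G z)| ≤ Λ * ‖y - y'‖)
    {c y : E n} (hyc : y ≠ c) (hy0 : ∀ t, fl c t y ≠ 0)
    (hint : Integrable (Function.uncurry fun (t : ℝ) (z : E n) => gW κ ρ' c G (fl c t y) z)
      ((volume.restrict (Ioo 0 1)).prod volume)) :
    ∀ᵐ t : ℝ, t ∈ Ioo (0 : ℝ) 1 → fl c t y ∈ ball (0 : E n) ρ' →
      |dv c v (fl c t y) + ∫ z, G z * gM κ c (fl c t y) z| ≤ Λ * ‖fl c t y - c‖ := by
  set w : ℝ → ℝ := fun t => ∫ z, gW κ ρ' c G (fl c t y) z with hw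
  have hwi : IntervalIntegrable w volume 0 1 :=
    (intervalIntegrable_iff_integrableOn_Ioo_of_le zero_le_one).2 hint.integral_prod_left
  filter_upwards [hwi.ae_hasDerivAt_integral] with t₀ ht₀ hI hB
  have hI' : t₀ ∈ uIcc (0 : ℝ) 1 := by
    rw [uIcc_of_le zero_le_one]
    exact Ioo_subset_Icc_self hI
  have hd := ht₀ hI' t₀ hI'
  have hO : IsOpen {t : ℝ | t ∈ Ioo (0 : ℝ) 1 ∧ fl c t y ∈ ball (0 : E n) ρ'} :=
    isOpen_Ioo.inter (isOpen_ball.preimage (continuous_fl_time c y))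
  obtain ⟨ε, hε, hsub⟩ := Metric.isOpen_iff.1 hO t₀ ⟨hI, hB⟩
  have hconv : ∀ s ∈ ball t₀ ε, uIcc t₀ s ⊆ ball t₀ ε := fun s hs =>
    (convex_ball t₀ ε).ordConnected.uIcc_subset (mem_ball_self hε) hs
  set N : E n → ℝ := fun x => ∫ z, Kr κ (x - z) * G z with hN
  have hev : (fun s => N (fl c s y)) =ᶠ[𝓝 t₀] fun s => N (fl c t₀ y) - ∫ t in t₀..s, w t := by
    filter_upwards [ball_mem_nhds t₀ hε] with s hs
    refine incr hn hyc hK (fun t ht => (hsub (hconv s hs ht)).2) ?_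
    refine hint.mono_measure (Measure.prod_mono ?_ le_rfl)
    exact Measure.restrict_mono (fun t ht => (hsub (hconv s hs (uIoc_subset_uIcc ht))).1) le_rfl
  have hN' : HasDerivAt (fun s => N (fl c s y)) (-w t₀) t₀ := by
    have := (hd.const_sub (N (fl c t₀ y)))
    exact this.congr_of_eventuallyEq hev
  have hh : HasDerivAt (fun s => v (fl c s y) - N (fl c s y)) (dv c v (fl c t₀ y) + w t₀) t₀ := by
    have := (hasDerivAt_comp_fl (hv.differentiableAt (hy0 t₀))).sub hN'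
    rw [sub_neg_eq_add] at this
    exact this
  have hw0 : w t₀ = ∫ z, G z * gM κ c (fl c t₀ y) z := by
    simp only [hw, gW_of_mem hB]
  rw [← hw0]
  have l1 := (hasDerivAt_iff_tendsto_slope.1 hh).abs
  have l2 := (hasDerivAt_iff_tendsto_slope.1 (hasDerivAt_fl c y t₀)).norm.const_mul Λ
  refine le_of_tendsto_of_tendsto l1 l2 ?_
  filter_upwards [mem_nhdsWithin_of_mem_nhds (ball_mem_nhds t₀ hε)] with s hs
  have h1 := hlip _ (hsub hs).2 _ hB
  simp only [slope, vsub_eq_sub, smul_eq_mul, abs_mul, norm_smul, Real.norm_eq_abs]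
  calc |(s - t₀)⁻¹| * |v (fl c s y) - N (fl c s y) - (v (fl c t₀ y) - N (fl c t₀ y))|
      ≤ |(s - t₀)⁻¹| * (Λ * ‖fl c s y - fl c t₀ y‖) := by gcongr
    _ = _ := by ring

theorem ae_grad (hn : 3 ≤ n) {κ : ℝ} (hκ : 0 ≤ κ) {v G : E n → ℝ} (hv : Nice v) (hG : Measurable G)
    (hG0 : ∀ x, 0 ≤ G x) (hGi : Integrable G) {ρ ρ' Λ : ℝ} (hGs : ∀ x, ρ ≤ ‖x‖ → G x = 0)
    (hK : ∀ x, Integrable (fun z => Kr κ (x - z) * G z))
    (hlip : ∀ y ∈ ball (0 : E n) ρ', ∀ y' ∈ ball (0 : E n) ρ',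
      |(v y - ∫ z, Kr κ (y - z) * G z) - (v y' - ∫ z, Kr κ (y' - z) * G z)| ≤ Λ * ‖y - y'‖)
    (c : E n) :
    ∀ᵐ y : E n, y ∈ ball (0 : E n) ρ' →
      |dv c v y + ∫ z, G z * (((n : ℝ) - 2) / 2 * Kr κ (y - z) + Qk κ c y z)| ≤ Λ * ‖y - c‖ := by
  have hmW : Measurable (fun y : E n => ∫⁻ z, ‖gW κ ρ' c G y z‖ₑ) :=
    (meas_gW κ ρ' c hG).enorm.lintegral_prod_right'
  have hfin := (flow_fl c).ae_lintegral_lt_top hmW (lint_gW hn hκ hG hGi ρ' hGs c) 0 1
  have hmD : Measurable (fun y : E n => ∫ z, G z * gM κ c y z) :=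
    (((hG.comp measurable_snd).mul (meas_gM κ c)).stronglyMeasurable.integral_prod_right').measurable
  set Z : Set (E n) := ball 0 ρ' ∩ {y | Λ * ‖y - c‖ < |dv c v y + ∫ z, G z * gM κ c y z|} with hZ
  have hZm : MeasurableSet Z := measurableSet_ball.inter
    (measurableSet_lt (by fun_prop) ((measurable_dv c v).add hmD).abs)
  have hZ0 : volume Z = 0 := by
    refine (flow_fl c).null_of_ae hZm ?_
    filter_upwards [hfin, ae_ray (by omega : 2 ≤ n) c] with y hy hray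
    have hm0 : Measurable (fun w : ℝ × E n => (fl c w.1 y, w.2)) :=
      ((continuous_fl_time c y).measurable.comp measurable_fst).prodMk measurable_snd
    have hm1 := (meas_gW κ ρ' c hG).comp hm0
    have hm : Measurable (Function.uncurry fun (t : ℝ) (z : E n) => gW κ ρ' c G (fl c t y) z) := hm1
    have hint : Integrable (Function.uncurry fun (t : ℝ) (z : E n) => gW κ ρ' c G (fl c t y) z)
        ((volume.restrict (Ioo 0 1)).prod volume) := by
      refine ⟨hm.aestronglyMeasurable, ?_⟩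
      rw [HasFiniteIntegral, lintegral_prod _ hm.enorm.aemeasurable]
      exact hy
    filter_upwards [grad_ray hn hv hK hlip hray.1 hray.2 hint] with t ht hI hmem
    exact absurd (ht hI hmem.1) (not_le.2 hmem.2)
  filter_upwards [measure_eq_zero_iff_ae_notMem.1 hZ0] with y hy hB
  by_contra hcon
  exact hy ⟨hB, not_le.1 hcon⟩

end Vale.Agent.P100
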