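import Vale.Agent.P100.Defs

/-!
# P100 Levels: discrete layer cake, and the cutoff

Write `τ = s₁^p`.  For `s ≥ 0`: `lev p s₁ j < s ↔ j τ < s^p` (`Real.rpow_lt_rpow_iff`, `Real.rpow_inv_lt_iff_of_pos`, `one_div`).
Counting: `N(s) = #{j : Fin J | (j+1) τ < s^p}` satisfies `τ N(s) ≤ s^p`, and `s^p - τ ≤ τ N(s)` if `s^p ≤ (J+1) τ` (induction on `J`).
Integrate over `s ∈ [0, y]`: `max (y - a) 0 = ∫ s in 0..y, if a < s then 1 else 0` for `a ≥ 0`, `Vp p y = ∫ s in 0..y, s^p` (`integral_rpow`).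
An alternative without integrals: induction on `J` using convexity (`Vp p y - Vp p a ≥ a^p (y - a)`).
`exists_cut`: `Ψ s = 1 - Real.smoothTransition ((s - r₁)/(r₂ - r₁))`; `deriv smoothTransition` is continuous and vanishes off `[0,1]`.
`lower_pt` is the pointwise inequality used in `Lower`: with `w j = max (y - lev (j+1)) 0`,
`a V - ∑ τ σ j w j = a (V - ∑ τ w j) + ∑ τ (a - σ j) w j ∈ [0, a τ y + (Ce + b) a V]` when `ψ' ≠ 0`.
-/

open MeasureTheory Set Metric Filter Topology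

noncomputable section

namespace Vale.Agent.P100


private theorem lev_lt_iff {p s₁ y : ℝ} (hp : 0 < p) (hs : 0 < s₁) (hy : 0 ≤ y) (j : ℕ) :
    lev p s₁ j < y ↔ (j : ℝ) * s₁ ^ p < y ^ p := by
  rw [lev, one_div, Real.rpow_inv_lt_iff_of_pos (by positivity) hy hp]

private theorem lev_nonneg {p s₁ : ℝ} (hs : 0 < s₁) (j : ℕ) : 0 ≤ lev p s₁ j := by
  rw [lev]
  positivity

private theorem int_ite {a y : ℝ} (ha : 0 ≤ a) (hy : 0 ≤ y) (c : ℝ) :
    IntervalIntegrable (fun s => if a < s then c else 0) volume 0 y ∧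
      ∫ s in (0 : ℝ)..y, (if a < s then c else 0) = c * max (y - a) 0 := by
  have e : (fun s => if a < s then c else 0) = (Ioi a).indicator fun _ : ℝ => c := by
    funext s
    simp [indicator]
  rw [e]
  refine ⟨?_, ?_⟩
  · rw [intervalIntegrable_iff_integrableOn_Ioc_of_le hy]
    exact (integrableOn_const (by simp)).indicator measurableSet_Ioi
  · rw [intervalIntegral.integral_of_le hy, setIntegral_indicator measurableSet_Ioi, Ioc_inter_Ioi,
      sup_eq_right.2 ha, setIntegral_const, Real.volume_real_Ioc, smul_eq_mul, mul_comm]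

private theorem int_Vp {p y : ℝ} (hp : 0 < p) :
    IntervalIntegrable (fun s : ℝ => s ^ p) volume 0 y ∧ ∫ s in (0 : ℝ)..y, s ^ p = Vp p y := by
  refine ⟨intervalIntegral.intervalIntegrable_rpow' (by linarith), ?_⟩
  rw [integral_rpow (Or.inl (by linarith)), Real.zero_rpow (by linarith), sub_zero, Vp]

private theorem int_sum {p s₁ y : ℝ} (hs : 0 < s₁) (hy : 0 ≤ y) (J : ℕ) :
    IntervalIntegrable (fun s => ∑ j : Fin J, (if lev p s₁ (j + 1) < s then s₁ ^ p else 0)) volume 0 y ∧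
      ∫ s in (0 : ℝ)..y, ∑ j : Fin J, (if lev p s₁ (j + 1) < s then s₁ ^ p else 0) =
        ∑ j : Fin J, s₁ ^ p * max (y - lev p s₁ (j + 1)) 0 := by
  have h := fun j : Fin J => int_ite (lev_nonneg (p := p) hs (j + 1)) hy (s₁ ^ p)
  refine ⟨?_, ?_⟩
  · have := IntervalIntegrable.sum (μ := volume) (a := 0) (b := y) Finset.univ fun j _ => (h j).1
    have e : (fun s => ∑ j : Fin J, (if lev p s₁ (j + 1) < s then s₁ ^ p else 0)) =
        ∑ j : Fin J, fun s => (if lev p s₁ (j + 1) < s then s₁ ^ p else 0) := by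
      funext s
      rw [Finset.sum_apply]
    rw [e]
    exact this
  · rw [intervalIntegral.integral_finsetSum fun j _ => (h j).1]
    exact Finset.sum_congr rfl fun j _ => (h j).2

private theorem min_le_sum {p s₁ y : ℝ} (hp : 0 < p) (hs : 0 < s₁) (hy : 0 ≤ y) (J : ℕ) :
    min (y ^ p) ((J + 1) * s₁ ^ p) ≤
      s₁ ^ p + ∑ j : Fin J, (if lev p s₁ (j + 1) < y then s₁ ^ p else 0) := by
  induction J with
  | zero => simp
  | succ J ih =>
    rw [Fin.sum_univ_castSucc]
    simp only [Fin.val_castSucc, Fin.val_last]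
    split_ifs with h
    · rw [lev_lt_iff hp hs hy] at h
      push_cast at h ⊢
      rw [min_eq_right h.le] at ih
      linarith [min_le_right (y ^ p) (((J : ℝ) + 1 + 1) * s₁ ^ p)]
    · rw [lev_lt_iff hp hs hy, not_lt] at h
      push_cast at h ⊢
      rw [min_eq_left h] at ih
      linarith [min_le_left (y ^ p) (((J : ℝ) + 1 + 1) * s₁ ^ p)]

theorem lev_ge {p s₁ : ℝ} (hp : 0 < p) (hs : 0 < s₁) (j : ℕ) : s₁ ≤ lev p s₁ (j + 1) := by
  by_contra h
  rw [not_le, lev_lt_iff hp hs hs.le] at h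
  have h1 : 0 < s₁ ^ p := by positivity
  have h2 : (0 : ℝ) ≤ j := Nat.cast_nonneg j
  push_cast at h
  nlinarith

theorem sum_ite_lev_le {p s₁ y : ℝ} (hp : 0 < p) (hs : 0 < s₁) (hy : 0 ≤ y) (J : ℕ) :
    ∑ j : Fin J, (if lev p s₁ (j + 1) < y then s₁ ^ p else 0) ≤ y ^ p := by
  have hτ : 0 < s₁ ^ p := by positivity
  have key : ∑ j : Fin J, (if lev p s₁ (j + 1) < y then s₁ ^ p else 0) ≤ min (y ^ p) (J * s₁ ^ p) := by
    induction J with
    | zero => simp; positivity
    | succ J ih =>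
      rw [Fin.sum_univ_castSucc]
      simp only [Fin.val_castSucc, Fin.val_last]
      have h1 := min_le_left (y ^ p) ((J : ℝ) * s₁ ^ p)
      have h2 := min_le_right (y ^ p) ((J : ℝ) * s₁ ^ p)
      split_ifs with h
      · rw [lev_lt_iff hp hs hy] at h
        push_cast at h ⊢
        exact le_min (by linarith) (by linarith)
      · push_cast
        exact le_min (by linarith) (by linarith)
  exact key.trans (min_le_left _ _)

theorem sum_max_lev_le {p s₁ y : ℝ} (hp : 0 < p) (hs : 0 < s₁) (hy : 0 ≤ y) (J : ℕ) :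
    ∑ j : Fin J, s₁ ^ p * max (y - lev p s₁ (j + 1)) 0 ≤ Vp p y := by
  rw [← (int_sum hs hy J).2, ← (int_Vp hp).2]
  exact intervalIntegral.integral_mono_on hy (int_sum hs hy J).1 (int_Vp hp).1
    fun s h => sum_ite_lev_le hp hs h.1 J

theorem Vp_le_sum {p s₁ y : ℝ} (hp : 0 < p) (hs : 0 < s₁) (hy : 0 ≤ y) {J : ℕ}
    (hJ : y ^ p ≤ J * s₁ ^ p) :
    Vp p y ≤ s₁ ^ p * y + ∑ j : Fin J, s₁ ^ p * max (y - lev p s₁ (j + 1)) 0 := by
  have hτ : 0 < s₁ ^ p := by positivity
  have e : s₁ ^ p * y = ∫ _ in (0 : ℝ)..y, s₁ ^ p := by simp [mul_comm]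
  rw [← (int_sum hs hy J).2, ← (int_Vp hp).2, e,
    ← intervalIntegral.integral_add intervalIntegrable_const (int_sum hs hy J).1]
  refine intervalIntegral.integral_mono_on hy (int_Vp hp).1
    (intervalIntegrable_const.add (int_sum hs hy J).1) fun s h => ?_
  have h1 : s ^ p ≤ y ^ p := Real.rpow_le_rpow h.1 h.2 hp.le
  have h2 := min_le_sum hp hs h.1 J
  rwa [min_eq_left (by linarith)] at h2

theorem exists_cut : ∃ L : ℝ, 0 ≤ L ∧ ∀ r₁ r₂ : ℝ, r₁ < r₂ → ∃ Ψ : ℝ → ℝ, Cut Ψ r₁ r₂ (L / (r₂ - r₁)) := by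
  have hd : ContDiff ℝ 1 Real.smoothTransition := Real.smoothTransition.contDiff
  have hdf : Differentiable ℝ Real.smoothTransition := hd.differentiable one_ne_zero
  have hz : ∀ s, s ∉ Icc (0 : ℝ) 1 → deriv Real.smoothTransition s = 0 := by
    intro s hs
    rw [mem_Icc, not_and_or, not_le, not_le] at hs
    rcases hs with hs | hs
    · have : Real.smoothTransition =ᶠ[𝓝 s] fun _ => 0 := by
        filter_upwards [gt_mem_nhds hs] with t ht
        exact Real.smoothTransition.zero_of_nonpos ht.le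
      rw [this.deriv_eq, deriv_const]
    · have : Real.smoothTransition =ᶠ[𝓝 s] fun _ => 1 := by
        filter_upwards [lt_mem_nhds hs] with t ht
        exact Real.smoothTransition.one_of_one_le ht.le
      rw [this.deriv_eq, deriv_const]
  obtain ⟨L, hL⟩ := (isCompact_Icc (a := (0 : ℝ)) (b := 1)).exists_bound_of_continuousOn
    (hd.continuous_deriv le_rfl).continuousOn
  have hL0 : 0 ≤ L := (norm_nonneg _).trans (hL 0 (by simp))
  have hL' : ∀ s, |deriv Real.smoothTransition s| ≤ L := by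
    intro s
    by_cases hs : s ∈ Icc (0 : ℝ) 1
    · exact hL s hs
    · rw [hz s hs, abs_zero]
      exact hL0
  refine ⟨L, hL0, fun r₁ r₂ h => ⟨fun s => 1 - Real.smoothTransition ((s - r₁) / (r₂ - r₁)), ?_⟩⟩
  have hr : 0 < r₂ - r₁ := sub_pos.2 h
  have hD : ∀ s, HasDerivAt (fun s => 1 - Real.smoothTransition ((s - r₁) / (r₂ - r₁)))
      (-(deriv Real.smoothTransition ((s - r₁) / (r₂ - r₁)) * (1 / (r₂ - r₁)))) s := fun s =>
    ((hdf _).hasDerivAt.comp s (((hasDerivAt_id s).sub_const r₁).div_const (r₂ - r₁))).const_sub 1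
  refine ⟨fun s => (hD s).differentiableAt, fun s t hst => ?_, fun s => ?_, fun s => ?_,
    fun s hs => ?_, fun s hs => ?_, fun s => ?_, fun s hs => ?_⟩
  · have := Real.smoothTransition.monotone
      (show (s - r₁) / (r₂ - r₁) ≤ (t - r₁) / (r₂ - r₁) by gcongr)
    linarith
  · linarith [Real.smoothTransition.le_one ((s - r₁) / (r₂ - r₁))]
  · linarith [Real.smoothTransition.nonneg ((s - r₁) / (r₂ - r₁))]
  · rw [Real.smoothTransition.zero_of_nonpos (div_nonpos_of_nonpos_of_nonneg (by linarith) hr.le),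
      sub_zero]
  · rw [Real.smoothTransition.one_of_one_le ((one_le_div hr).2 (by linarith)), sub_self]
  · rw [(hD s).deriv, abs_neg, abs_mul, abs_of_pos (one_div_pos.2 hr), mul_one_div]
    gcongr
    exact hL' _
  · rw [(hD s).deriv, hz, zero_mul, neg_zero]
    intro h2
    refine hs ⟨?_, ?_⟩
    · have := h2.1
      rw [le_div_iff₀ hr] at this
      linarith
    · have := h2.2
      rw [div_le_one hr] at this
      linarith

/-- `a = ‖x‖^A`, `y = v x`, `ψ' = dΨ x`, `Θ j = θ j - ψ`, `b ∈ {0,1,2}` the bad indicator -/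
theorem lower_pt {p s₁ y a ψ' ν Ce δ b P : ℝ} (hp : 0 < p) (hs : 0 < s₁) (hy : 0 < y) (ha : 0 ≤ a)
    (hν : 0 ≤ ν) (hCe : 0 ≤ Ce) (hδ : 0 ≤ δ) (hb : 0 ≤ b) (hP : |ψ'| ≤ P) {J : ℕ} {σ Θ : Fin J → ℝ}
    (hσ0 : ∀ j, 0 ≤ σ j) (hσa : ∀ j, σ j ≤ a)
    (hσz : ∀ j : Fin J, σ j ≠ 0 → lev p s₁ (j + 1) < y ∧ |Θ j| ≤ δ)
    (hcov : ψ' ≠ 0 → y ^ p ≤ J * s₁ ^ p ∧
      ∀ j : Fin J, lev p s₁ (j + 1) < y → (1 - Ce - b) * a ≤ σ j) :
    -(ν * δ * (a * Vp p y)) - P * ((Ce + b) * (a * Vp p y)) - |ψ'| * (s₁ ^ p * a * y) ≤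
      a * Vp p y * ψ' + ∑ j : Fin J, s₁ ^ p * σ j * (ν * Θ j - ψ') * (y - lev p s₁ (j + 1)) := by
  have hτ : 0 < s₁ ^ p := by positivity
  set τ := s₁ ^ p with hτd
  set V := Vp p y with hV
  set w : Fin J → ℝ := fun j => max (y - lev p s₁ (j + 1)) 0 with hw
  have hw0 : ∀ j, 0 ≤ w j := fun j => le_max_right _ _
  have hσw : ∀ j : Fin J, σ j * (y - lev p s₁ (j + 1)) = σ j * w j := by
    intro j
    by_cases h : σ j = 0
    · simp [h]
    · simp only [hw]
      rw [max_eq_left (sub_pos.2 (hσz j h).1).le]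
  have hS : ∑ j, τ * w j ≤ V := sum_max_lev_le hp hs hy.le J
  have hV0 : 0 ≤ V := (Finset.sum_nonneg fun j _ => mul_nonneg hτ.le (hw0 j)).trans hS
  have hQ : ∑ j, τ * (σ j * w j) ≤ a * V := by
    refine le_trans ?_ (mul_le_mul_of_nonneg_left hS ha)
    rw [Finset.mul_sum]
    refine Finset.sum_le_sum fun j _ => ?_
    have := mul_le_mul_of_nonneg_right (hσa j) (mul_nonneg hτ.le (hw0 j))
    linarith
  have e : ∑ j : Fin J, τ * σ j * (ν * Θ j - ψ') * (y - lev p s₁ (j + 1)) =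
      ∑ j, ν * Θ j * (τ * (σ j * w j)) - ψ' * ∑ j, τ * (σ j * w j) := by
    rw [Finset.mul_sum, ← Finset.sum_sub_distrib]
    refine Finset.sum_congr rfl fun j _ => ?_
    rw [← hσw j]
    ring
  have h1 : -(ν * δ * (a * V)) ≤ ∑ j, ν * Θ j * (τ * (σ j * w j)) := by
    have h2 := mul_le_mul_of_nonneg_left hQ (mul_nonneg hν hδ)
    refine (neg_le_neg h2).trans ?_
    rw [Finset.mul_sum, ← Finset.sum_neg_distrib]
    refine Finset.sum_le_sum fun j _ => ?_
    by_cases h : σ j = 0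
    · simp [h]
    · have h3 : -δ ≤ Θ j := (abs_le.1 (hσz j h).2).1
      have h4 : 0 ≤ ν * (τ * (σ j * w j)) :=
        mul_nonneg hν (mul_nonneg hτ.le (mul_nonneg (hσ0 j) (hw0 j)))
      have := mul_le_mul_of_nonneg_right h3 h4
      linarith
  have hP0 : 0 ≤ P := (abs_nonneg _).trans hP
  have hE : 0 ≤ (Ce + b) * (a * V) := by positivity
  have h5 : -(P * ((Ce + b) * (a * V))) - |ψ'| * (τ * a * y) ≤
      ψ' * (a * V - ∑ j, τ * (σ j * w j)) := by
    by_cases h : ψ' = 0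
    · have := mul_nonneg hP0 hE
      simp only [h, abs_zero, zero_mul]
      linarith
    · obtain ⟨h6, h7⟩ := hcov h
      have h8 : V ≤ τ * y + ∑ j, τ * w j := Vp_le_sum hp hs hy.le h6
      have h9 : a * ∑ j, τ * w j - ∑ j, τ * (σ j * w j) ≤ (Ce + b) * a * ∑ j, τ * w j := by
        rw [Finset.mul_sum, Finset.mul_sum, ← Finset.sum_sub_distrib]
        refine Finset.sum_le_sum fun j _ => ?_
        by_cases h10 : lev p s₁ (j + 1) < y
        · have := mul_le_mul_of_nonneg_right (h7 j h10) (mul_nonneg hτ.le (hw0 j))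
          linarith
        · have : w j = 0 := max_eq_right (by linarith [not_lt.1 h10])
          simp [this]
      have h11 := mul_le_mul_of_nonneg_left hS (show 0 ≤ (Ce + b) * a by positivity)
      have h12 := mul_le_mul_of_nonneg_left h8 ha
      have hD : a * V - ∑ j, τ * (σ j * w j) ≤ (Ce + b) * (a * V) + τ * a * y := by linarith
      have h13 := mul_le_mul_of_nonneg_right (neg_abs_le ψ') (sub_nonneg.2 hQ)
      have h14 := mul_le_mul_of_nonneg_left hD (abs_nonneg ψ')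
      have h15 := mul_le_mul_of_nonneg_right hP hE
      linarith
  rw [e]
  linarith

end Vale.Agent.P100
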