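import Vale.Agent.P100.Flow2

/-!
# P100 V1: the Pohozaev identity with a cutoff, along the flow

Plan.  `G x = Fw x Ψ‖x-c‖`, `H x = (n + A) G x - A Fw x (⟪c,x⟫/‖x‖²) Ψ + Fw x dΨ x + fw x Ψ dv x`.  All pieces vanish when
`‖x‖ > ρ` and the last one for `‖x‖ ≥ ρ` (`Cut.zero`, `Cut.dz`, `‖x - c‖ ≥ ‖x‖ - ‖c‖`); they are integrable by `integrableOn_Fw`,
`integrableOn_Fw_lin` (ball of radius `ρ + 1`), boundedness of `Ψ` and `dΨ` there, and `hint`
(`IntegrableOn.integrable_of_forall_notMem_eq_zero`).  `Flow.integral_eq_zero` with `flow_fl`, `ae_ray`: at `Y = fl c t x ≠ 0`,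
`d/ds ‖fl c s x‖^A = ‖Y‖^A (A - A ⟪c,Y⟫/‖Y‖²)` (write `‖Y‖^A = (‖Y‖²)^(A/2)`, `hasDerivAt_fl`, `HasDerivAt.norm_sq`),
`d/ds Vp p (v ..) = v^p dv` (`HasDerivAt.rpow_const`), `hasDerivAt_cut_fl`.
-/

open MeasureTheory Set Metric Filter Topology

noncomputable section

namespace Vale.Agent.P100

variable {n : ℕ}


private theorem int_mul {F b : E n → ℝ} {R C : ℝ} (hF : IntegrableOn F (ball 0 R)) (hb : Measurable b)
    (hC : ∀ x ∈ ball (0 : E n) R, |b x| ≤ C) (hz : ∀ x, x ∉ ball (0 : E n) R → b x = 0) :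
    Integrable (fun x => F x * b x) := by
  have h1 : IntegrableOn (fun x => F x * b x) (ball 0 R) :=
    Integrable.mul_bdd hF hb.aestronglyMeasurable
      ((ae_restrict_mem measurableSet_ball).mono fun x hx => hC x hx)
  exact h1.integrable_of_forall_notMem_eq_zero fun x hx => by rw [hz x hx, mul_zero]

private theorem der_norm (A : ℝ) {c x : E n} {t : ℝ} (h : fl c t x ≠ 0) :
    HasDerivAt (fun s => ‖fl c s x‖ ^ A)
      (‖fl c t x‖ ^ A * (A - A * (inner ℝ c (fl c t x) / ‖fl c t x‖ ^ 2))) t := by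
  have e : ∀ y : E n, (‖y‖ ^ 2) ^ (A / 2) = ‖y‖ ^ A := by
    intro y
    rw [← Real.rpow_natCast, ← Real.rpow_mul (norm_nonneg y)]
    congr 1
    push_cast
    ring
  have h0 : ‖fl c t x‖ ^ 2 ≠ 0 := pow_ne_zero 2 (norm_ne_zero_iff.2 h)
  have h1 := (hasDerivAt_fl c x t).norm_sq.rpow_const (p := A / 2) (Or.inl h0)
  simp only [e] at h1
  convert h1 using 1
  rw [Real.rpow_sub_one h0, e, inner_sub_right, real_inner_self_eq_norm_sq,
    real_inner_comm c (fl c t x)]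
  field_simp

private theorem der_Vp {p : ℝ} (hp : 0 < p) {v : E n → ℝ} (hv : Nice v) {c x : E n} {t : ℝ}
    (h : fl c t x ≠ 0) :
    HasDerivAt (fun s => Vp p (v (fl c s x))) (v (fl c t x) ^ p * dv c v (fl c t x)) t := by
  have h1 := ((hasDerivAt_comp_fl (hv.differentiableAt h)).rpow_const (p := p + 1)
    (Or.inl (hv.pos _).ne')).div_const (p + 1)
  refine HasDerivAt.congr_deriv h1 ?_
  have : p + 1 ≠ 0 := by linarith
  rw [add_sub_cancel_right]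
  field_simp

theorem v1 (hn : 3 ≤ n) {A p : ℝ} (hA : -2 < A) (hp : 0 < p) {v : E n → ℝ} (hv : Nice v) {c : E n}
    {Ψ : ℝ → ℝ} {r₁ r₂ L ρ : ℝ} (hΨ : Cut Ψ r₁ r₂ L) (hρ : r₂ + ‖c‖ ≤ ρ)
    (hint : IntegrableOn (fun x => fw A p v x * dv c v x) (ball 0 ρ)) :
    Integrable (fun x => Fw A p v x * Ψ ‖x - c‖) ∧
    Integrable (fun x => Fw A p v x * (inner ℝ c x / ‖x‖ ^ 2) * Ψ ‖x - c‖) ∧
    Integrable (fun x => Fw A p v x * dΨ c Ψ x) ∧
    Integrable (fun x => fw A p v x * Ψ ‖x - c‖ * dv c v x) ∧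
    -∫ x, fw A p v x * Ψ ‖x - c‖ * dv c v x =
      ((n : ℝ) + A) * (∫ x, Fw A p v x * Ψ ‖x - c‖) -
        A * (∫ x, Fw A p v x * (inner ℝ c x / ‖x‖ ^ 2) * Ψ ‖x - c‖) + ∫ x, Fw A p v x * dΨ c Ψ x := by
  have hn1 : ∀ x : E n, ‖x‖ - ‖c‖ ≤ ‖x - c‖ := fun x => norm_sub_norm_le x c
  have hz : ∀ x : E n, x ∉ ball (0 : E n) ρ → Ψ ‖x - c‖ = 0 := by
    intro x hx
    rw [mem_ball_zero_iff, not_lt] at hx
    exact hΨ.zero _ (by linarith [hn1 x])
  have hmΨ : Measurable fun x : E n => Ψ ‖x - c‖ :=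
    hΨ.diff.continuous.measurable.comp (by fun_prop)
  have hbΨ : ∀ x ∈ ball (0 : E n) ρ, |Ψ ‖x - c‖| ≤ 1 := fun x _ => by
    rw [abs_of_nonneg (hΨ.nonneg _)]
    exact hΨ.le_one _
  have i1 : Integrable (fun x => Fw A p v x * Ψ ‖x - c‖) :=
    int_mul (integrableOn_Fw hn hA hp hv ρ) hmΨ hbΨ hz
  have i2 : Integrable (fun x => Fw A p v x * (inner ℝ c x / ‖x‖ ^ 2) * Ψ ‖x - c‖) :=
    int_mul (integrableOn_Fw_lin hn hA hp hv ρ c) hmΨ hbΨ hz
  have i3 : Integrable (fun x => Fw A p v x * dΨ c Ψ x) := by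
    refine int_mul (C := L * (ρ + 1 + ‖c‖)) (integrableOn_Fw hn hA hp hv (ρ + 1))
      (measurable_dΨ c Ψ) (fun x hx => ?_) fun x hx => ?_
    · rw [mem_ball_zero_iff] at hx
      rw [dΨ, abs_mul, abs_norm]
      exact mul_le_mul (hΨ.bd _) (by linarith [norm_sub_le x c]) (norm_nonneg _)
        ((abs_nonneg _).trans (hΨ.bd 0))
    · rw [mem_ball_zero_iff, not_lt] at hx
      rw [dΨ, hΨ.dz _ fun h => by linarith [h.2, hn1 x], zero_mul]
  have i4 : Integrable (fun x => fw A p v x * Ψ ‖x - c‖ * dv c v x) := by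
    simp only [mul_right_comm _ (Ψ _)]
    exact int_mul hint hmΨ hbΨ hz
  refine ⟨i1, i2, i3, i4, ?_⟩
  have hmF := measurable_Fw A p hv.cont
  have hmf := measurable_fw A p hv.cont
  have j1 := i1.const_mul ((n : ℝ) + A)
  have j2 := i2.const_mul A
  have j3 : Integrable (fun x => ((n : ℝ) + A) * (Fw A p v x * Ψ ‖x - c‖) -
      A * (Fw A p v x * (inner ℝ c x / ‖x‖ ^ 2) * Ψ ‖x - c‖)) := j1.sub j2
  have j4 : Integrable (fun x => ((n : ℝ) + A) * (Fw A p v x * Ψ ‖x - c‖) -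
      A * (Fw A p v x * (inner ℝ c x / ‖x‖ ^ 2) * Ψ ‖x - c‖) + Fw A p v x * dΨ c Ψ x) := j3.add i3
  have key := (flow_fl c).integral_eq_zero (G := fun x => Fw A p v x * Ψ ‖x - c‖)
    (H := fun x => ((n : ℝ) + A) * (Fw A p v x * Ψ ‖x - c‖) -
      A * (Fw A p v x * (inner ℝ c x / ‖x‖ ^ 2) * Ψ ‖x - c‖) + Fw A p v x * dΨ c Ψ x +
      fw A p v x * Ψ ‖x - c‖ * dv c v x)
    (((((hmF.mul hmΨ).const_mul _).sub (((hmF.mul (by fun_prop)).mul hmΨ).const_mul _)).add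
      (hmF.mul (measurable_dΨ c Ψ))).add ((hmf.mul hmΨ).mul (measurable_dv c v)))
    (j4.add i4) i1 ?_
  · rw [integral_add j4 i4, integral_add j3 i3, integral_sub j1 j2,
      integral_const_mul, integral_const_mul] at key
    linarith
  · filter_upwards [ae_ray (by omega) c] with x hx t
    have h1 := (((der_norm A (hx.2 t)).mul (der_Vp hp hv (hx.2 t))).mul
      (hasDerivAt_cut_fl hΨ.diff c x t)).mul
      (((hasDerivAt_id t).const_mul (n : ℝ)).exp)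
    refine HasDerivAt.congr_deriv h1 ?_
    simp only [Fw, fw, Pi.mul_apply, id]
    ring

end Vale.Agent.P100
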