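import Vale.Agent.P100.Flow2

/-!
# P100 V2: integration by parts on short segments

Plan.  `K = {x | R₀ ≤ ‖x‖ ≤ R₁}` is compact and misses `0`, so `v`, `dv c v` (`Nice.continuousOn_dv`), `‖x‖^A`, `dΨ` (`|dΨ| ≤ L (R₁ + ‖c‖)`) are bounded on
`S ⊆ K`; both integrands are measurable, bounded and vanish off `S` (finite measure), hence integrable
(`Integrable.of_bound`-type lemmas, `Measure.integrableOn_of_bounded`).  Apply `Flow.setIntegral_eq_zero` (`flow_fl`) to the sum `H` of the two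
integrands with `G t = σ x exp ((n-2)/2 t) (Ψ (mid x) - Ψ ‖fl c t x - c‖) (v (fl c t x) - s)`; it vanishes at both ends; derivative by
`hasDerivAt_cut_fl`, `hasDerivAt_comp_fl` (`fl c t x ∈ S`, so it is `≠ 0`), and `eσ`, `mid_fl`,
`exp (-((n+2)/2 t)) exp (n t) = exp ((n-2)/2 t)`.
-/

open MeasureTheory Set Metric Filter Topology

noncomputable section

namespace Vale.Agent.P100

variable {n : ℕ}

theorem v2 {c : E n} {S : Set (E n)} {α β σ : E n → ℝ} (hL : Lay1 c S α β σ) {v : E n → ℝ}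
    (hv : Nice v) {Ψ : ℝ → ℝ} {r₁ r₂ L : ℝ} (hΨ : Cut Ψ r₁ r₂ L) {R₀ R₁ A s : ℝ} (hR₀ : 0 < R₀)
    (hS : ∀ x ∈ S, R₀ ≤ ‖x‖ ∧ ‖x‖ ≤ R₁ ∧ v (fl c (-α x) x) = s ∧ v (fl c (β x) x) = s ∧
      σ x ≤ ‖x‖ ^ A) :
    Integrable (fun x => σ x * (Ψ (mid c α β x) - Ψ ‖x - c‖) * dv c v x) ∧
    Integrable (fun x => σ x * (((n : ℝ) - 2) / 2 * (Ψ (mid c α β x) - Ψ ‖x - c‖) - dΨ c Ψ x) *
      (v x - s)) ∧
    -∫ x, σ x * (Ψ (mid c α β x) - Ψ ‖x - c‖) * dv c v x =
      ∫ x, σ x * (((n : ℝ) - 2) / 2 * (Ψ (mid c α β x) - Ψ ‖x - c‖) - dΨ c Ψ x) * (v x - s) := by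
  have hK : IsCompact (closedBall (0 : E n) R₁ \ ball 0 R₀) :=
    (isCompact_closedBall _ _).diff isOpen_ball
  have hK0 : closedBall (0 : E n) R₁ \ ball 0 R₀ ⊆ {0}ᶜ := by
    rintro x hx rfl
    exact hx.2 (mem_ball_self hR₀)
  have hS0 : ∀ x ∈ S, x ≠ 0 := fun x hx => norm_pos_iff.1 (hR₀.trans_le (hS x hx).1)
  have dom : ∀ {f g : E n → ℝ}, Measurable f → ContinuousOn g {0}ᶜ → (∀ x, |f x| ≤ g x) →
      Integrable fun x => σ x * f x := fun {f g} hf hg hb => by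
    have h1 : ContinuousOn (fun x : E n => ‖x‖ ^ A * g x) {0}ᶜ :=
      (continuous_norm.continuousOn.rpow_const fun x hx => Or.inl (norm_ne_zero_iff.2 hx)).mul hg
    have h2 : IntegrableOn (fun x : E n => ‖x‖ ^ A * g x) S :=
      ((h1.mono hK0).integrableOn_compact hK).mono_set fun x hx =>
        ⟨mem_closedBall_zero_iff.2 (hS x hx).2.1, fun h =>
          (mem_ball_zero_iff.1 h).not_ge (hS x hx).1⟩
    refine IntegrableOn.integrable_of_forall_notMem_eq_zero (s := S) (h2.mono'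
      (hL.mσ.mul hf).aestronglyMeasurable (ae_restrict_of_forall_mem hL.seg.mS fun x hx => ?_))
      fun x hx => by rw [hL.zσ x hx, zero_mul]
    rw [norm_mul, Real.norm_of_nonneg (hL.nσ x)]
    exact mul_le_mul (hS x hx).2.2.2.2 (hb x) (abs_nonneg _) (by positivity)
  have m1 := hΨ.anti.measurable
  have m2 := measurable_mid (c := c) hL.seg.mα hL.seg.mβ
  have m3 := measurable_dv c v
  have m4 := measurable_dΨ c Ψ
  have m5 := hv.cont
  have m6 := hL.mσ
  have b1 : ∀ a b, |Ψ a - Ψ b| ≤ 1 := fun a b => abs_sub_le_iff.2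
    ⟨by linarith [hΨ.le_one a, hΨ.nonneg b], by linarith [hΨ.le_one b, hΨ.nonneg a]⟩
  have i1 := dom (f := fun x => (Ψ (mid c α β x) - Ψ ‖x - c‖) * dv c v x) (by fun_prop)
    (hv.continuousOn_dv c).abs fun x => by
      rw [abs_mul]
      exact mul_le_of_le_one_left (abs_nonneg _) (b1 _ _)
  have i2 := dom (f := fun x => (((n : ℝ) - 2) / 2 * (Ψ (mid c α β x) - Ψ ‖x - c‖) - dΨ c Ψ x) *
    (v x - s)) (g := fun x => (|((n : ℝ) - 2) / 2| + L * ‖x - c‖) * |v x - s|) (by fun_prop)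
    (by fun_prop) fun x => by
      rw [abs_mul]
      refine mul_le_mul_of_nonneg_right ((abs_sub _ _).trans (add_le_add ?_ ?_)) (abs_nonneg _)
      · rw [abs_mul]
        exact mul_le_of_le_one_right (abs_nonneg _) (b1 _ _)
      · rw [dΨ, abs_mul, abs_norm]
        exact mul_le_mul_of_nonneg_right (hΨ.bd _) (norm_nonneg _)
  simp only [← mul_assoc] at i1 i2
  refine ⟨i1, i2, ?_⟩
  rw [neg_eq_iff_add_eq_zero, ← integral_add i1 i2,
    ← setIntegral_eq_integral_of_forall_compl_eq_zero (s := S) fun x hx => by simp [hL.zσ x hx]]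
  refine (flow_fl c).setIntegral_eq_zero hL.seg (by fun_prop) (i1.add i2).integrableOn fun x hx =>
    ⟨fun t => σ x * Real.exp (((n : ℝ) - 2) / 2 * t) * (Ψ (mid c α β x) - Ψ ‖fl c t x - c‖) *
      (v (fl c t x) - s), ?_, fun t ht => ?_, ?_⟩
  · have h1 := hΨ.diff.continuous
    have h2 := continuous_fl_time c x
    fun_prop
  · have h1 := ((((hasDerivAt_id t).const_mul (((n : ℝ) - 2) / 2)).exp.const_mul (σ x)).mul
      ((hasDerivAt_cut_fl hΨ.diff c x t).const_sub (Ψ (mid c α β x)))).mul ((hasDerivAt_comp_fl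
        (hv.differentiableAt (hS0 _ (hL.seg.mem x hx t ht)))).sub_const s)
    have h2 : Real.exp (-(((n : ℝ) + 2) / 2 * t)) * Real.exp (n * t) =
        Real.exp (((n : ℝ) - 2) / 2 * t) := by
      rw [← Real.exp_add]
      congr 1
      ring
    refine h1.congr_deriv ?_
    simp only [mid_fl hL.seg hx ht, hL.eσ x hx t ht, id, Pi.mul_apply, ← h2]
    ring
  · simp only [(hS x hx).2.2.1, (hS x hx).2.2.2.1, sub_self, mul_zero]

end Vale.Agent.P100
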