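import Vale.Agent.P100.Layer
import Vale.Agent.P100.V1
import Vale.Agent.P100.V2
import Vale.Agent.P100.Levels

/-!
# P100 Lower: lower bound for `-∫ phi · dv`

Plan.  `τ = s₁^p`; choose `J` with `v^p ≤ J τ` on `closedBall 0 (2R)`.  For `j : Fin J` take `S j, α j, β j, σ₀ j` from `exists_layer` at level
`lev p s₁ (j+1)` (`choose`), `σ j = τ σ₀ j` (`Lay1.smul`); `le` from `sum_ite_lev_le`.
`phi x dv x = fw ψ dv + ∑ τ σ₀ j Θ j dv` (`ψ = Ψ ‖x - c‖` vanishes off `ball 0 (r + d)`), so by `v1` (`ρ = r + 3d/4`) and `v2`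
`-∫ phi dv = (n+A) ∫ Fw ψ - A ∫ Fw lin ψ + ∫ (Fw dΨ + ∑ τ σ₀ j ((n-2)/2 Θ j - dΨ)(v - lev))`.
(a) `Fw ψ ((n+A) - A lin) ≥ 1_{ball 0 r} Fw ((n+A) - A lin)`: `ψ = 1` on `ball 0 r`, and outside `|A lin| ≤ |A| ‖c‖/‖x‖ ≤ n + A`.
(b) `lower_pt` with `ν = (n-2)/2`, `Ce = C e`, `δ = 4 L e R/d`, `P = 2 L R/d`, `b = 1_D (fl e x) + 1_D (fl (-e) x)` for `x ∈ ball 0 (r+d)`
(off this ball the integrand is `0`).  If `dΨ x ≠ 0` then `‖x - c‖ ∈ Icc (r + d/8) (r + 3d/8)`, so `R ≤ ‖x‖ < 2R`, `‖x‖^A ≤ 2^|A| R^A`,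
`‖fl c (± e) x‖ < 2R`, and for `lev < v x` either `x ∈ S j` or `v (fl c (± e) x) > lev ≥ s₁` (`lev_ge`), that is `b ≥ 1`.
Integrate (`integral_mono`, `integral_indicator`); the integrand of `Bad` is integrable on the ball (bounded measurable factor).
-/

open MeasureTheory Set Metric Filter Topology

noncomputable section

namespace Vale.Agent.P100

variable {n : ℕ}

private theorem geo_R {R r d e : ℝ} {c : E n} (g : Geo R r d e c) :
    0 < R ∧ d ≤ R ∧ e ≤ 1 / 64 ∧ ‖c‖ ≤ d / 8 := by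
  have h1 := g.hd
  have h2 := g.hr
  have h3 := g.hrd
  have h4 := g.heR
  have h5 := g.hc
  have hR : d ≤ R := by linarith
  refine ⟨by linarith, hR, ?_, by linarith⟩
  by_contra h
  push Not at h
  nlinarith

private theorem rpow_le_two {R A t : ℝ} (hR : 0 < R) (h1 : R ≤ t) (h2 : t ≤ 2 * R) :
    t ^ A ≤ 2 ^ |A| * R ^ A := by
  have h2A : (1 : ℝ) ≤ 2 ^ |A| := Real.one_le_rpow (by norm_num) (abs_nonneg A)
  rcases le_total 0 A with hA | hA
  · rw [abs_of_nonneg hA, ← Real.mul_rpow (by norm_num) hR.le]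
    exact Real.rpow_le_rpow (by linarith) h2 hA
  · calc t ^ A ≤ R ^ A := Real.rpow_le_rpow_of_nonpos hR h1 hA
      _ ≤ _ := le_mul_of_one_le_left (Real.rpow_nonneg hR.le _) h2A

/-- points where the cutoff moves -/
private theorem zone {R r d e L : ℝ} {c : E n} {Ψ : ℝ → ℝ} (g : Geo R r d e c)
    (hΨ : Cut Ψ (r + d / 8) (r + 3 * d / 8) L) {x : E n} (hx : dΨ c Ψ x ≠ 0) :
    ‖x - c‖ ∈ Icc (r + d / 8) (r + 3 * d / 8) ∧ R ≤ ‖x‖ ∧ ‖x‖ < r + d ∧
      ‖fl c e x‖ < 2 * R ∧ ‖fl c (-e) x‖ < 2 * R := by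
  obtain ⟨hR, hd, he, hc⟩ := geo_R g
  have h1 := g.hd
  have h2 := g.hr
  have h3 := g.hrd
  have h4 := g.heR
  have h5 := g.he
  have hz : ‖x - c‖ ∈ Icc (r + d / 8) (r + 3 * d / 8) := by
    by_contra h
    exact hx (by rw [dΨ, hΨ.dz _ h, zero_mul])
  have a1 : ‖x - c‖ ≤ ‖x‖ + ‖c‖ := norm_sub_le _ _
  have a2 : ‖x‖ ≤ ‖x - c‖ + ‖c‖ := by simpa using norm_add_le (x - c) c
  have a3 : ∀ t, ‖fl c t x‖ ≤ Real.exp t * ‖x - c‖ + ‖c‖ := fun t => by
    rw [← norm_fl_sub]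
    have := norm_add_le (fl c t x - c) c
    rwa [sub_add_cancel] at this
  have a4 : Real.exp e ≤ 1 + 2 * e := by
    have := Real.abs_exp_sub_one_le (x := e) (by rw [abs_of_pos h5]; linarith)
    rw [abs_of_pos h5] at this
    linarith [le_abs_self (Real.exp e - 1)]
  have a5 : Real.exp (-e) ≤ 1 := Real.exp_le_one_iff.2 (by linarith)
  have a6 : 0 ≤ ‖x - c‖ := norm_nonneg _
  have a7 : Real.exp e * ‖x - c‖ ≤ (1 + 2 * e) * (r + 3 * d / 8) :=
    mul_le_mul a4 hz.2 a6 (by linarith)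
  have a8 : Real.exp (-e) * ‖x - c‖ ≤ r + 3 * d / 8 := by
    have := mul_le_mul_of_nonneg_right a5 a6
    linarith [hz.2]
  have a9 : e * (r + 3 * d / 8) ≤ e * (2 * R) := mul_le_mul_of_nonneg_left (by linarith) h5.le
  refine ⟨hz, by linarith [hz.1], by linarith [hz.2], ?_, ?_⟩
  · have := a3 e
    nlinarith
  · have := a3 (-e)
    linarith

private theorem abs_dΨ_le {R r d e L : ℝ} {c : E n} {Ψ : ℝ → ℝ} (g : Geo R r d e c) (hL : 0 ≤ L)
    (hΨ : Cut Ψ (r + d / 8) (r + 3 * d / 8) (L / d)) (x : E n) : |dΨ c Ψ x| ≤ 2 * L * (R / d) := by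
  obtain ⟨hR, hd, he, hc⟩ := geo_R g
  have h1 := g.hd
  by_cases hx : dΨ c Ψ x = 0
  · rw [hx, abs_zero]
    positivity
  have hz := (zone g hΨ hx).1
  rw [dΨ, abs_mul, abs_norm]
  calc |deriv Ψ ‖x - c‖| * ‖x - c‖ ≤ L / d * (2 * R) :=
        mul_le_mul (hΨ.bd _) (by linarith [hz.2, g.hrd]) (norm_nonneg _) (by positivity)
    _ = _ := by ring

/-- part (a): the main term -/
private theorem lower_main (hn : 3 ≤ n) {A p : ℝ} (hA : -2 < A) (hp : 0 < p) {v : E n → ℝ} (hv : Nice v)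
    {R r d e L : ℝ} {c : E n} {Ψ : ℝ → ℝ} (g : Geo R r d e c) (hc : |A| * ‖c‖ ≤ (n + A) * R)
    (hΨ : Cut Ψ (r + d / 8) (r + 3 * d / 8) L)
    (i1 : Integrable (fun x => Fw A p v x * Ψ ‖x - c‖))
    (i2 : Integrable (fun x => Fw A p v x * (inner ℝ c x / ‖x‖ ^ 2) * Ψ ‖x - c‖)) :
    ((n : ℝ) + A) * En A p v r - Lin A p v r c ≤ ((n : ℝ) + A) * (∫ x, Fw A p v x * Ψ ‖x - c‖) -
      A * ∫ x, Fw A p v x * (inner ℝ c x / ‖x‖ ^ 2) * Ψ ‖x - c‖ := by
  obtain ⟨hR, hd, he, hc'⟩ := geo_R g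
  have j1 := integrableOn_Fw hn hA hp hv r
  have j2 := integrableOn_Fw_lin hn hA hp hv r c
  unfold En Lin
  rw [← integral_const_mul, ← integral_const_mul, ← integral_const_mul, ← integral_const_mul,
    ← integral_sub (j1.const_mul _) (j2.const_mul _), ← integral_sub (i1.const_mul _) (i2.const_mul _),
    ← integral_indicator measurableSet_ball]
  refine integral_mono ((integrable_indicator_iff measurableSet_ball).2
    ((j1.const_mul _).sub (j2.const_mul _))) ((i1.const_mul _).sub (i2.const_mul _)) fun x => ?_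
  by_cases hx : x ∈ ball (0 : E n) r
  · have h1 : Ψ ‖x - c‖ = 1 := hΨ.one _ (by
      have := norm_sub_le x c
      have := mem_ball_zero_iff.1 hx
      linarith)
    simp only [indicator_of_mem hx, h1, mul_one, le_refl]
  · simp only [indicator_of_notMem hx]
    have hx' : R ≤ ‖x‖ := g.hr.trans (not_lt.1 (mt mem_ball_zero_iff.2 hx))
    have hx0 : 0 < ‖x‖ := hR.trans_le hx'
    have h2 : A * (inner ℝ c x / ‖x‖ ^ 2) ≤ n + A := by
      have h3 : |inner ℝ c x| ≤ ‖c‖ * ‖x‖ := abs_real_inner_le_norm c x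
      have hn3 : (3 : ℝ) ≤ n := by exact_mod_cast hn
      have h4 : (0 : ℝ) ≤ n + A := by linarith
      rw [← mul_div_assoc, div_le_iff₀ (by positivity)]
      calc A * inner ℝ c x ≤ |A| * |inner ℝ c x| := by rw [← abs_mul]; exact le_abs_self _
        _ ≤ |A| * (‖c‖ * ‖x‖) := by gcongr
        _ = |A| * ‖c‖ * ‖x‖ := by ring
        _ ≤ (n + A) * R * ‖x‖ := by gcongr
        _ ≤ (n + A) * ‖x‖ * ‖x‖ := by gcongr
        _ = _ := by ring
    have h5 := mul_nonneg (mul_nonneg (Fw_nonneg A hp hv.pos x) (hΨ.nonneg ‖x - c‖)) (sub_nonneg.2 h2)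
    nlinarith

private theorem int_bad {c : E n} {e ρ : ℝ} {D : Set (E n)} (hD : MeasurableSet D) {F : E n → ℝ}
    (hF : IntegrableOn F (ball 0 ρ)) :
    IntegrableOn (fun x => F x * (D.indicator 1 (fl c e x) + D.indicator 1 (fl c (-e) x)))
      (ball 0 ρ) := by
  have hm : ∀ t, Measurable (fun x => D.indicator (1 : E n → ℝ) (fl c t x)) := fun t =>
    (measurable_one.indicator hD).comp (continuous_fl_space c t).measurable
  refine Integrable.mul_bdd (c := 2) hF ((hm e).add (hm (-e))).aestronglyMeasurable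
    (Eventually.of_forall fun x => ?_)
  by_cases h1 : fl c e x ∈ D <;> by_cases h2 : fl c (-e) x ∈ D <;> simp [h1, h2]
  norm_num

private theorem int_three {f₁ f₂ f₃ g : E n → ℝ} {a b b' c : ℝ} (h₁ : Integrable f₁)
    (h₂ : Integrable f₂) (h₃ : Integrable f₃) (hg : Integrable g)
    (h : ∀ x, -(a * f₁ x) - b * (b' * f₂ x) - c * f₃ x ≤ g x) :
    -(a * ∫ x, f₁ x) - b * (b' * ∫ x, f₂ x) - c * ∫ x, f₃ x ≤ ∫ x, g x := by
  have i1 : Integrable (fun x => -(a * f₁ x)) := (h₁.const_mul a).neg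
  have i2 : Integrable (fun x => b * (b' * f₂ x)) := (h₂.const_mul b').const_mul b
  have i3 : Integrable (fun x => -(a * f₁ x) - b * (b' * f₂ x)) := i1.sub i2
  have i4 : Integrable (fun x => c * f₃ x) := h₃.const_mul c
  have := integral_mono (f := fun x => -(a * f₁ x) - b * (b' * f₂ x) - c * f₃ x) (i3.sub i4) hg h
  rw [integral_sub i3 i4, integral_sub i1 i2, integral_neg] at this
  simpa only [integral_const_mul] using this

/-- part (b): the pointwise inequality -/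
private theorem lower_pw {A p L ν C C₁ : ℝ} (hp : 0 < p) (hL : 0 ≤ L) (hν0 : 0 ≤ ν) (hC₁ : 0 ≤ C₁)
    (hCa : ν * 4 * L + 2 * L * C₁ ≤ C) (hCb : 2 * L * 2 ^ |A| ≤ C) (hCc : 2 * L ≤ C)
    {v : E n → ℝ} (hv : Nice v) {R r d e s₁ : ℝ} {c : E n} {Ψ : ℝ → ℝ} (g : Geo R r d e c)
    (hs₁ : 0 < s₁) (hΨ : Cut Ψ (r + d / 8) (r + 3 * d / 8) (L / d)) {J : ℕ}
    (hJ : ∀ x : E n, ‖x‖ ≤ 2 * R → v x ^ p ≤ J * s₁ ^ p) {S : Fin J → Set (E n)}
    {α β σ : Fin J → E n → ℝ} (h1 : ∀ j, Lay1 c (S j) (α j) (β j) (σ j))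
    (h2 : ∀ j : Fin J, ∀ x ∈ S j, R / 2 ≤ ‖x‖ ∧ ‖x‖ < r + 3 * d / 4 ∧ lev p s₁ (j + 1) < v x ∧
      v (fl c (-α j x) x) = lev p s₁ (j + 1) ∧ v (fl c (β j x) x) = lev p s₁ (j + 1) ∧
      (1 - C₁ * e) * ‖x‖ ^ A ≤ σ j x ∧ σ j x ≤ ‖x‖ ^ A ∧
      |Ψ (mid c (α j) (β j) x) - Ψ ‖x - c‖| ≤ 4 * L * (e * R / d))
    (h3 : ∀ (j : Fin J) (x : E n), ‖x - c‖ ∈ Icc (r + d / 8) (r + 3 * d / 8) →
      lev p s₁ (j + 1) < v x → v (fl c e x) ≤ lev p s₁ (j + 1) →
      v (fl c (-e) x) ≤ lev p s₁ (j + 1) → x ∈ S j) (x : E n) :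
    -(C * (e * R / d) * (ball 0 (r + d)).indicator (Fw A p v) x) -
      C * (R / d) * (s₁ ^ p * R ^ A * (ball 0 (2 * R)).indicator v x) -
      C * (R / d) * (ball 0 (r + d)).indicator
        (fun x => Fw A p v x * ((Dset v s₁ (2 * R)).indicator 1 (fl c e x) + (Dset v s₁ (2 * R)).indicator 1 (fl c (-e) x))) x ≤
      Fw A p v x * dΨ c Ψ x + ∑ j, s₁ ^ p * (σ j x *
        (ν * (Ψ (mid c (α j) (β j) x) - Ψ ‖x - c‖) - dΨ c Ψ x) * (v x - lev p s₁ (j + 1))) := by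
  obtain ⟨hR, hd, he, hc'⟩ := geo_R g
  have hd0 := g.hd
  have he0 := g.he
  have hC0 : 0 ≤ C := le_trans (by positivity) hCc
  have hτ : 0 < s₁ ^ p := Real.rpow_pos_of_pos hs₁ p
  have hσa : ∀ j, σ j x ≤ ‖x‖ ^ A := fun j => by
    by_cases hx : x ∈ S j
    · exact (h2 j x hx).2.2.2.2.2.2.1
    · rw [(h1 j).zσ x hx]
      exact Real.rpow_nonneg (norm_nonneg _) _
  have hσz : ∀ j, r + 3 * d / 4 ≤ ‖x‖ → σ j x = 0 := fun j hx =>
    (h1 j).zσ x fun h => absurd (h2 j x h).2.1 (not_lt.2 hx)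
  set D := Dset v s₁ (2 * R) with hD
  have hRA : 0 < R ^ A := Real.rpow_pos_of_pos hR A
  have n2 : 0 ≤ (ball (0 : E n) (2 * R)).indicator v x :=
    indicator_nonneg (fun y _ => (hv.pos y).le) x
  have n2' : 0 ≤ C * (R / d) * (s₁ ^ p * R ^ A * (ball 0 (2 * R)).indicator v x) := by positivity
  by_cases hx : x ∈ ball (0 : E n) (r + d)
  · set b : ℝ := D.indicator 1 (fl c e x) + D.indicator 1 (fl c (-e) x) with hb
    have b1 : 0 ≤ D.indicator (1 : E n → ℝ) (fl c e x) := indicator_nonneg (fun _ _ => zero_le_one) _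
    have b2 : 0 ≤ D.indicator (1 : E n → ℝ) (fl c (-e) x) :=
      indicator_nonneg (fun _ _ => zero_le_one) _
    have hb0 : 0 ≤ b := add_nonneg b1 b2
    have ha : 0 ≤ ‖x‖ ^ A := Real.rpow_nonneg (norm_nonneg _) _
    have hP := abs_dΨ_le g hL hΨ x
    have key := lower_pt (a := ‖x‖ ^ A) (ψ' := dΨ c Ψ x) (ν := ν) (Ce := C₁ * e)
      (δ := 4 * L * (e * R / d)) (b := b) (P := 2 * L * (R / d)) hp hs₁ (hv.pos x) ha hν0
      (by positivity) (by positivity) hb0 hP (J := J) (σ := fun j => σ j x)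
      (Θ := fun j => Ψ (mid c (α j) (β j) x) - Ψ ‖x - c‖) (fun j => (h1 j).nσ x) hσa
      (fun j hj => by
        have hx' : x ∈ S j := by
          by_contra h
          exact hj ((h1 j).zσ x h)
        exact ⟨(h2 j x hx').2.2.1, (h2 j x hx').2.2.2.2.2.2.2⟩)
      (fun hz => by
        obtain ⟨z1, z2, z3, z4, z5⟩ := zone g hΨ hz
        refine ⟨hJ x (by linarith [g.hrd]), fun j hj => ?_⟩
        by_cases hx' : x ∈ S j
        · have := (h2 j x hx').2.2.2.2.2.1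
          have q3 := mul_nonneg hb0 ha
          linarith [sub_mul (1 - C₁ * e) b (‖x‖ ^ A)]
        · have hb1 : 1 ≤ b := by
            by_cases q1 : v (fl c e x) ≤ lev p s₁ (j + 1)
            · by_cases q2 : v (fl c (-e) x) ≤ lev p s₁ (j + 1)
              · exact absurd (h3 j x z1 hj q1 q2) hx'
              · have : fl c (-e) x ∈ D := ⟨z5, (lev_ge hp hs₁ j).trans_lt (not_le.1 q2)⟩
                rw [hb, indicator_of_mem this, Pi.one_apply]
                linarith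
            · have : fl c e x ∈ D := ⟨z4, (lev_ge hp hs₁ j).trans_lt (not_le.1 q1)⟩
              rw [hb, indicator_of_mem this, Pi.one_apply]
              linarith
          have q3 : 0 ≤ C₁ * e := by positivity
          exact (mul_nonpos_of_nonpos_of_nonneg (by linarith) ha).trans ((h1 j).nσ x))
    have hF0 : 0 ≤ Fw A p v x := Fw_nonneg A hp hv.pos x
    have t3 : |dΨ c Ψ x| * (s₁ ^ p * ‖x‖ ^ A * v x) ≤
        C * (R / d) * (s₁ ^ p * R ^ A * (ball 0 (2 * R)).indicator v x) := by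
      by_cases hz : dΨ c Ψ x = 0
      · rw [hz, abs_zero, zero_mul]
        exact n2'
      obtain ⟨z1, z2, z3, z4, z5⟩ := zone g hΨ hz
      have hx2 : x ∈ ball (0 : E n) (2 * R) := mem_ball_zero_iff.2 (by linarith [g.hrd])
      rw [indicator_of_mem hx2]
      have hvx := (hv.pos x).le
      calc |dΨ c Ψ x| * (s₁ ^ p * ‖x‖ ^ A * v x)
          ≤ 2 * L * (R / d) * (s₁ ^ p * (2 ^ |A| * R ^ A) * v x) := by
            gcongr
            exact rpow_le_two hR z2 (by linarith [g.hrd])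
        _ = 2 * L * 2 ^ |A| * (R / d) * (s₁ ^ p * R ^ A * v x) := by ring
        _ ≤ _ := by gcongr
    have t1 : (ν * 4 * L + 2 * L * C₁) * (e * R / d * Fw A p v x) ≤ C * (e * R / d * Fw A p v x) := by
      gcongr
    have t2 : 2 * L * (R / d * (Fw A p v x * b)) ≤ C * (R / d * (Fw A p v x * b)) := by gcongr
    rw [indicator_of_mem hx, indicator_of_mem hx]
    have e4 : ∑ j, s₁ ^ p * (σ j x * (ν * (Ψ (mid c (α j) (β j) x) - Ψ ‖x - c‖) - dΨ c Ψ x) *
        (v x - lev p s₁ (j + 1))) = ∑ j : Fin J, s₁ ^ p * σ j x *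
        (ν * (Ψ (mid c (α j) (β j) x) - Ψ ‖x - c‖) - dΨ c Ψ x) * (v x - lev p s₁ (j + 1)) :=
      Finset.sum_congr rfl fun j _ => by ring
    rw [e4]
    change _ ≤ Fw A p v x * dΨ c Ψ x + _ at key
    refine le_trans ?_ key
    change _ ≤ -(ν * (4 * L * (e * R / d)) * Fw A p v x) -
      2 * L * (R / d) * ((C₁ * e + b) * Fw A p v x) - _
    have e5 : ν * (4 * L * (e * R / d)) * Fw A p v x + 2 * L * (R / d) * ((C₁ * e + b) * Fw A p v x) =
        (ν * 4 * L + 2 * L * C₁) * (e * R / d * Fw A p v x) + 2 * L * (R / d * (Fw A p v x * b)) := by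
      ring
    rw [← hb]
    linarith
  · have hx' : r + d ≤ ‖x‖ := not_lt.1 (mt mem_ball_zero_iff.2 hx)
    have hz : dΨ c Ψ x = 0 := by
      by_contra h
      linarith [(zone g hΨ h).2.2.1]
    rw [indicator_of_notMem hx, indicator_of_notMem hx, hz]
    simp only [hσz _ (by linarith), zero_mul, mul_zero, Finset.sum_const_zero]
    linarith

theorem lower (hn : 3 ≤ n) {A p L : ℝ} (hA : -2 < A) (hp : 0 < p) (hL : 0 ≤ L) : ∃ C : ℝ, 0 ≤ C ∧
    ∀ (v : E n → ℝ), Nice v → ∀ (R r d e s₁ : ℝ) (c : E n) (Ψ : ℝ → ℝ), Geo R r d e c → 0 < s₁ →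
    |A| * ‖c‖ ≤ (n + A) * R → Cut Ψ (r + d / 8) (r + 3 * d / 8) (L / d) →
    IntegrableOn (fun x => fw A p v x * dv c v x) (ball 0 (r + 3 * d / 4)) →
    ∃ LF : Lay c ((ball 0 (r + d)).indicator (fw A p v)),
      (∀ x, r + 3 * d / 4 ≤ ‖x‖ → LF.phi Ψ x = 0) ∧
      ((n : ℝ) + A) * En A p v r - Lin A p v r c - C * (e * R / d) * En A p v (r + d) -
        C * (R / d) * (s₁ ^ p * R ^ A * ∫ x in ball 0 (2 * R), v x) -
        C * (R / d) * Bad c e (Dset v s₁ (2 * R)) (Fw A p v) (r + d) ≤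
      -∫ x, LF.phi Ψ x * dv c v x := by
  obtain ⟨C₁, hC₁, hlay⟩ := exists_layer n A
  have hn3 : (3 : ℝ) ≤ n := by exact_mod_cast hn
  set ν : ℝ := ((n : ℝ) - 2) / 2 with hν
  have hν0 : 0 ≤ ν := by rw [hν]; linarith
  have h2A : (1 : ℝ) ≤ 2 ^ |A| := Real.one_le_rpow (by norm_num) (abs_nonneg A)
  set C : ℝ := ν * 4 * L + 2 * L * C₁ + 2 * L * 2 ^ |A| with hC
  have hCa : ν * 4 * L + 2 * L * C₁ ≤ C := by
    have : 0 ≤ 2 * L * 2 ^ |A| := by positivity
    linarith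
  have hCb : 2 * L * 2 ^ |A| ≤ C := by
    have : 0 ≤ ν * 4 * L + 2 * L * C₁ := by positivity
    linarith
  have hCc : 2 * L ≤ C := le_trans (by nlinarith) hCb
  refine ⟨C, by positivity, ?_⟩
  intro v hv R r d e s₁ c Ψ g hs₁ hc hΨ hint
  obtain ⟨hR, hd, he, hc'⟩ := geo_R g
  have hd0 := g.hd
  have he0 := g.he
  have hτ : 0 < s₁ ^ p := Real.rpow_pos_of_pos hs₁ p
  obtain ⟨J, hJ⟩ : ∃ J : ℕ, ∀ x : E n, ‖x‖ ≤ 2 * R → v x ^ p ≤ J * s₁ ^ p := by
    obtain ⟨M, hM⟩ := (isCompact_closedBall (0 : E n) (2 * R)).bddAbove_image hv.cont.continuousOn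
    obtain ⟨J, hJ⟩ := exists_nat_ge (max M 0 ^ p / s₁ ^ p)
    refine ⟨J, fun x hx => ?_⟩
    have h1 : v x ≤ max M 0 :=
      (hM (mem_image_of_mem v (mem_closedBall_zero_iff.2 hx))).trans (le_max_left _ _)
    rw [div_le_iff₀ hτ] at hJ
    exact (Real.rpow_le_rpow (hv.pos x).le h1 hp.le).trans hJ
  choose S α β σ h1 h2 h3 using
    fun j : Fin J => hlay v hv.cont R r d e (lev p s₁ (j + 1)) L c Ψ g hΨ
  have hσa : ∀ j x, σ j x ≤ ‖x‖ ^ A := fun j x => by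
    by_cases hx : x ∈ S j
    · exact (h2 j x hx).2.2.2.2.2.2.1
    · rw [(h1 j).zσ x hx]
      exact Real.rpow_nonneg (norm_nonneg _) _
  have hσz : ∀ j x, r + 3 * d / 4 ≤ ‖x‖ → σ j x = 0 := fun j x hx =>
    (h1 j).zσ x fun h => absurd (h2 j x h).2.1 (not_lt.2 hx)
  have hψz : ∀ x : E n, r + 3 * d / 4 ≤ ‖x‖ → Ψ ‖x - c‖ = 0 := fun x hx => hΨ.zero _ (by
    have : ‖x‖ ≤ ‖x - c‖ + ‖c‖ := by simpa using norm_add_le (x - c) c
    linarith)
  have hle : ∀ x, ∑ j, s₁ ^ p * σ j x ≤ (ball 0 (r + d)).indicator (fw A p v) x := by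
    intro x
    by_cases hx : x ∈ ball (0 : E n) (r + d)
    · rw [indicator_of_mem hx]
      have ha : 0 ≤ ‖x‖ ^ A := Real.rpow_nonneg (norm_nonneg _) _
      calc ∑ j, s₁ ^ p * σ j x
          ≤ ∑ j : Fin J, ‖x‖ ^ A * (if lev p s₁ (j + 1) < v x then s₁ ^ p else 0) := by
            refine Finset.sum_le_sum fun j _ => ?_
            by_cases hj : x ∈ S j
            · rw [if_pos (h2 j x hj).2.2.1, mul_comm]
              exact mul_le_mul_of_nonneg_right (hσa j x) hτ.le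
            · rw [(h1 j).zσ x hj, mul_zero]
              split_ifs <;> positivity
        _ ≤ ‖x‖ ^ A * v x ^ p := by
            rw [← Finset.mul_sum]
            exact mul_le_mul_of_nonneg_left (sum_ite_lev_le hp hs₁ (hv.pos x).le J) ha
    · rw [indicator_of_notMem hx]
      have hx' : r + d ≤ ‖x‖ := not_lt.1 (mt mem_ball_zero_iff.2 hx)
      simp [hσz _ x (by linarith)]
  let LF : Lay c ((ball 0 (r + d)).indicator (fw A p v)) :=
    ⟨J, S, α, β, fun j x => s₁ ^ p * σ j x, fun j => (h1 j).smul hτ.le, hle⟩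
  have hphi : ∀ x, LF.phi Ψ x = fw A p v x * Ψ ‖x - c‖ +
      ∑ j, s₁ ^ p * σ j x * (Ψ (mid c (α j) (β j) x) - Ψ ‖x - c‖) := by
    intro x
    by_cases hx : x ∈ ball (0 : E n) (r + d)
    · simp only [Lay.phi, indicator_of_mem hx, LF]
    · have hx' : r + d ≤ ‖x‖ := not_lt.1 (mt mem_ball_zero_iff.2 hx)
      simp only [Lay.phi, hψz x (by linarith), mul_zero, LF]
  refine ⟨LF, fun x hx => ?_, ?_⟩
  · simp [hphi, hψz x hx, hσz _ x hx]
  obtain ⟨i1, i2, i3, i4, e1⟩ := v1 hn hA hp hv hΨ (ρ := r + 3 * d / 4) (by linarith) hint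
  have hv2 := fun j => v2 (h1 j) hv hΨ (R₀ := R / 2) (R₁ := r + 3 * d / 4) (A := A)
    (s := lev p s₁ (j + 1)) (by positivity) fun x hx =>
      ⟨(h2 j x hx).1, (h2 j x hx).2.1.le, (h2 j x hx).2.2.2.1, (h2 j x hx).2.2.2.2.1, hσa j x⟩
  have e2 : -∫ x, LF.phi Ψ x * dv c v x = (-∫ x, fw A p v x * Ψ ‖x - c‖ * dv c v x) +
      ∑ j, s₁ ^ p * ∫ x, σ j x * (ν * (Ψ (mid c (α j) (β j) x) - Ψ ‖x - c‖) - dΨ c Ψ x) *
        (v x - lev p s₁ (j + 1)) := by
    have e3 : (fun x => LF.phi Ψ x * dv c v x) = fun x => fw A p v x * Ψ ‖x - c‖ * dv c v x +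
        ∑ j, s₁ ^ p * (σ j x * (Ψ (mid c (α j) (β j) x) - Ψ ‖x - c‖) * dv c v x) := by
      funext x
      rw [hphi, add_mul, Finset.sum_mul]
      congr 1
      exact Finset.sum_congr rfl fun j _ => by ring
    rw [e3, integral_add i4 (integrable_finsetSum _ fun j _ => (hv2 j).1.const_mul _),
      integral_finsetSum _ fun j _ => (hv2 j).1.const_mul _, neg_add, ← Finset.sum_neg_distrib]
    congr 1
    refine Finset.sum_congr rfl fun j _ => ?_
    rw [integral_const_mul, ← (hv2 j).2.2, mul_neg]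
  have hmain := lower_main hn hA hp hv g hc hΨ i1 i2
  have k1 := integrableOn_Fw hn hA hp hv (r + d)
  have k2 : IntegrableOn v (ball 0 (2 * R)) :=
    (hv.cont.continuousOn.integrableOn_compact (isCompact_closedBall 0 (2 * R))).mono_set
      ball_subset_closedBall
  have k3 := int_bad (c := c) (e := e) (measurableSet_Dset hv.cont s₁ (2 * R)) k1
  have k1' := (integrable_indicator_iff measurableSet_ball).2 k1
  have k2' := (integrable_indicator_iff measurableSet_ball).2 k2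
  have k3' := (integrable_indicator_iff measurableSet_ball).2 k3
  have hpt := lower_pw hp hL hν0 hC₁ hCa hCb hCc hv g hs₁ hΨ hJ h1 h2 h3
  have hI := int_three k1' k2' k3' (i3.add (integrable_finsetSum _ fun j _ =>
    (hv2 j).2.1.const_mul (s₁ ^ p))) hpt
  simp only [Pi.add_apply] at hI
  rw [integral_add i3 (integrable_finsetSum _ fun j _ => (hv2 j).2.1.const_mul (s₁ ^ p)),
    integral_finsetSum _ fun j _ => (hv2 j).2.1.const_mul (s₁ ^ p)] at hI
  simp only [integral_const_mul, integral_indicator measurableSet_ball] at hI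
  rw [e2, e1]
  unfold En at hmain ⊢
  unfold Bad
  linarith

end Vale.Agent.P100
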