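import Vale.Agent.P100.Basic

/-!
# P100 Upper: upper bound for `-∫ Φ dv`

Plan.  `M y z = (n-2)/2 Kr κ (y-z) + Qk κ c y z`, `D y = ∫ z, G z * M y z`.  `F y G z M y z` is integrable on the product, so
`y ↦ ∫ z, F y G z M y z = F y D y` is integrable (`Integrable.integral_prod_left`, `integral_const_mul`).  On the ball
`|F dv| ≤ |F D| + Λ ρ₃ F` a.e., which gives the first claim (`measurable_dv`).  For the second: `Φ G Qk`, `Φ G Kr` are integrable on the product
(domination, `0 ≤ Φ ≤ F`), `-Φ dv ≤ Φ D + Λ ρ₃ F` a.e. (`Φ = 0` off the ball), `∫ Φ D = ∬ Φ G M` (`integral_prod`), and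
`∬ Φ G Kr ≤ ∬ F G Kr`.
-/

open MeasureTheory Set Metric Filter Topology

noncomputable section

namespace Vale.Agent.P100

variable {n : ℕ}

theorem upper_dom {Φ F G : E n → ℝ} {M : E n × E n → ℝ} (hΦ : Measurable Φ) (hG : Measurable G)
    (hM : Measurable M) (h : ∀ x, 0 ≤ Φ x ∧ Φ x ≤ F x)
    (hI : Integrable (fun w : E n × E n => F w.1 * G w.2 * M w) (volume.prod volume)) :
    Integrable (fun w : E n × E n => Φ w.1 * G w.2 * M w) (volume.prod volume) := by
  refine hI.mono (((hΦ.comp measurable_fst).mul (hG.comp measurable_snd)).mul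
    hM).aestronglyMeasurable (ae_of_all _ fun w => ?_)
  simp only [norm_mul, Real.norm_eq_abs]
  have h1 := h w.1
  rw [abs_of_nonneg h1.1, abs_of_nonneg (h1.1.trans h1.2)]
  gcongr
  exact h1.2

theorem upper_fub {Φ G : E n → ℝ} {K Q : E n × E n → ℝ} (a : ℝ)
    (hK : Integrable (fun w : E n × E n => Φ w.1 * G w.2 * K w) (volume.prod volume))
    (hQ : Integrable (fun w : E n × E n => Φ w.1 * G w.2 * Q w) (volume.prod volume)) :
    Integrable (fun y => Φ y * ∫ z, G z * (a * K (y, z) + Q (y, z))) ∧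
      ∫ y, Φ y * ∫ z, G z * (a * K (y, z) + Q (y, z)) =
        a * (∫ w : E n × E n, Φ w.1 * G w.2 * K w ∂(volume.prod volume)) +
          ∫ w : E n × E n, Φ w.1 * G w.2 * Q w ∂(volume.prod volume) := by
  have h1 : Integrable (fun w : E n × E n => Φ w.1 * (G w.2 * (a * K w + Q w)))
      (volume.prod volume) :=
    ((hK.const_mul a).add hQ).congr (ae_of_all _ fun w => by simp only [Pi.add_apply]; ring)
  have h2 : ∀ y, Φ y * ∫ z, G z * (a * K (y, z) + Q (y, z)) =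
      ∫ z, Φ y * (G z * (a * K (y, z) + Q (y, z))) := fun y => (integral_const_mul _ _).symm
  simp only [h2]
  refine ⟨h1.integral_prod_left, ?_⟩
  rw [← integral_prod _ h1, ← integral_const_mul, ← integral_add (hK.const_mul a) hQ]
  exact integral_congr_ae (ae_of_all _ fun w => by ring)

theorem upper (hn : 2 ≤ n) {κ : ℝ} (hκ : 0 ≤ κ) {c : E n} {v F G : E n → ℝ} (hF : Measurable F)
    (hG : Measurable G) (hF0 : ∀ x, 0 ≤ F x) (hG0 : ∀ x, 0 ≤ G x) (hFi : Integrable F)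
    (hQ : Integrable (fun w : E n × E n => F w.1 * G w.2 * Qk κ c w.1 w.2) (volume.prod volume))
    (hK : Integrable (fun w : E n × E n => F w.1 * G w.2 * Kr κ (w.1 - w.2)) (volume.prod volume))
    {ρ' ρ₃ Λ : ℝ} (hΛ : 0 ≤ Λ) (hρ₃ : 0 ≤ ρ₃) (hρ : ∀ y ∈ ball (0 : E n) ρ', ‖y - c‖ ≤ ρ₃)
    (hgrad : ∀ᵐ y : E n, y ∈ ball (0 : E n) ρ' →
      |dv c v y + ∫ z, G z * (((n : ℝ) - 2) / 2 * Kr κ (y - z) + Qk κ c y z)| ≤ Λ * ‖y - c‖) :
    IntegrableOn (fun x => F x * dv c v x) (ball 0 ρ') ∧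
    ∀ Φ : E n → ℝ, Measurable Φ → (∀ x, 0 ≤ Φ x ∧ Φ x ≤ F x) → (∀ x, ρ' ≤ ‖x‖ → Φ x = 0) →
      -∫ x, Φ x * dv c v x ≤
        ((n : ℝ) - 2) / 2 * (∫ w : E n × E n, F w.1 * G w.2 * Kr κ (w.1 - w.2) ∂(volume.prod volume)) +
        (∫ w : E n × E n, Φ w.1 * G w.2 * Qk κ c w.1 w.2 ∂(volume.prod volume)) +
        Λ * ρ₃ * ∫ x, F x := by
  have hKm : Measurable fun w : E n × E n => Kr κ (w.1 - w.2) :=
    (measurable_Kr κ).comp (measurable_fst.sub measurable_snd)
  have hQm := measurable_Qk κ c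
  set a : ℝ := ((n : ℝ) - 2) / 2 with ha
  have ha0 : 0 ≤ a := by
    have : (2 : ℝ) ≤ n := by exact_mod_cast hn
    rw [ha]; linarith
  set D : E n → ℝ := fun y => ∫ z, G z * (a * Kr κ (y - z) + Qk κ c y z) with hD
  have hb : ∀ᵐ y : E n, y ∈ ball (0 : E n) ρ' → |dv c v y + D y| ≤ Λ * ρ₃ := by
    filter_upwards [hgrad] with y hy hy'
    exact (hy hy').trans (mul_le_mul_of_nonneg_left (hρ y hy') hΛ)
  have hFD : Integrable fun y => F y * D y :=
    (upper_fub (K := fun w => Kr κ (w.1 - w.2)) (Q := fun w => Qk κ c w.1 w.2) a hK hQ).1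
  have h1 : IntegrableOn (fun x => F x * dv c v x) (ball 0 ρ') := by
    refine Integrable.mono' (g := fun y => |F y * D y| + Λ * ρ₃ * F y)
      (hFD.abs.add (hFi.const_mul _)).integrableOn
      (hF.mul (measurable_dv c v)).aestronglyMeasurable ?_
    rw [ae_restrict_iff' measurableSet_ball]
    filter_upwards [hb] with y hy hy'
    have h2 := hy hy'
    have h3 : |dv c v y| ≤ |D y| + Λ * ρ₃ := by
      have := abs_sub (dv c v y + D y) (D y)
      rw [add_sub_cancel_right] at this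
      linarith
    rw [Real.norm_eq_abs, abs_mul, abs_mul, abs_of_nonneg (hF0 y)]
    nlinarith [hF0 y]
  refine ⟨h1, fun Φ hΦ hΦF hΦ0 => ?_⟩
  have hK' := upper_dom hΦ hG hKm hΦF hK
  have hQ' := upper_dom hΦ hG hQm hΦF hQ
  obtain ⟨i1, i2⟩ :=
    upper_fub (K := fun w => Kr κ (w.1 - w.2)) (Q := fun w => Qk κ c w.1 w.2) a hK' hQ'
  have hz : ∀ x, x ∉ ball (0 : E n) ρ' → Φ x = 0 := fun x hx =>
    hΦ0 x (by simpa using hx)
  have h2 : Integrable fun x => Φ x * dv c v x := by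
    refine Integrable.mono ((integrable_indicator_iff measurableSet_ball).2 h1)
      (hΦ.mul (measurable_dv c v)).aestronglyMeasurable (ae_of_all _ fun x => ?_)
    by_cases hx : x ∈ ball (0 : E n) ρ'
    · rw [indicator_of_mem hx, norm_mul, norm_mul, Real.norm_of_nonneg (hΦF x).1,
        Real.norm_of_nonneg (hF0 x)]
      exact mul_le_mul_of_nonneg_right (hΦF x).2 (norm_nonneg _)
    · rw [hz x hx, zero_mul, norm_zero]
      exact norm_nonneg _
  have h3 : -∫ x, Φ x * dv c v x ≤ ∫ x, (Φ x * D x + Λ * ρ₃ * F x) := by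
    rw [← integral_neg]
    refine integral_mono_ae h2.neg (i1.add (hFi.const_mul _)) ?_
    filter_upwards [hb] with y hy
    have h4 := hΦF y
    have h5 : 0 ≤ Λ * ρ₃ := mul_nonneg hΛ hρ₃
    by_cases hy' : y ∈ ball (0 : E n) ρ'
    · have h6 := (abs_le.1 (hy hy')).1
      nlinarith [mul_le_mul_of_nonneg_left h4.2 h5, mul_le_mul_of_nonneg_left h6 h4.1]
    · rw [hz y hy']
      nlinarith [hF0 y]
  rw [integral_add i1 (hFi.const_mul _), integral_const_mul] at h3
  have h4 : ∫ w : E n × E n, Φ w.1 * G w.2 * Kr κ (w.1 - w.2) ∂(volume.prod volume) ≤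
      ∫ w : E n × E n, F w.1 * G w.2 * Kr κ (w.1 - w.2) ∂(volume.prod volume) := by
    refine integral_mono hK' hK fun w => ?_
    have := Kr_nonneg hκ (w.1 - w.2)
    have := hG0 w.2
    dsimp only
    gcongr
    exact (hΦF w.1).2
  have h5 := mul_le_mul_of_nonneg_left h4 ha0
  change ∫ y, Φ y * D y = _ at i2
  linarith

end Vale.Agent.P100
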