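import Vale.Agent.P100.Cross
import Vale.Agent.P100.Grad
import Vale.Agent.P100.Upper
import Vale.Agent.P100.Lower

/-!
# P100 Core: the localized Pohozaev inequality for one centre `c`

Plan.  `f = fw A p v`, `g = fw B q u`, `F = 1_{ball 0 (r+d)} f`, `G = 1_{ball 0 (r+d)} g`, `Ψ` from `exists_cut` with `r₁ = r + d/8`, `r₂ = r + 3d/8`
(slope `L/(d/4) = (4L)/d`).  `side` does one half: `RepP.lip` with radius `r + d` and `d/4` (`r + d - d/4 = r + 3d/4`,
`∫ z in ball, Kr * g = ∫ z, Kr * G z` by `integral_indicator`), `ae_grad`, `upper` with `ρ₃ = 2R`, `lower`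
(`F = f` on `ball 0 (r + 3d/4)`), `Lay.measurable_phi`, `Lay.phi_bounds`; monotonicity of the integrals of `v, g, f ≥ 0` in the radius.
`mu_le`: `∬ F G Kr = ∫ F y (∫ G z Kr (y - z)) ≤ ∫ F v = (p+1) En` (`integral_prod`, `leK`, `fw_mul_self`).
`core`: add the two halves, use `cross`, `∬ G F Kr = ∬ F G Kr =: μ` (`integral_prod_swap`, `Kr_sub_comm`),
`μ ≤ (p+1) En₁`, `μ ≤ (q+1) En₂`, so `((n+A)/(p+1) + (n+B)/(q+1)) μ ≤ En2`; and `En₁ + En₂ ≤ En2` since `n + A, n + B ≥ 1`.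
-/

open MeasureTheory Set Metric Filter Topology

noncomputable section

namespace Vale.Agent.P100

variable {n : ℕ}

/-- the Pohozaev energy -/
def En2 (A B p q : ℝ) (u v : E n → ℝ) (r : ℝ) : ℝ :=
  ((n : ℝ) + A) * En A p v r + ((n : ℝ) + B) * En B q u r

theorem mu_le (hn : 3 ≤ n) {A B p q κ C₀ : ℝ} (hA : -2 < A) (hB : -2 < B) (hp : 0 < p) (hκ : 0 < κ)
    {u v : E n → ℝ} (hu : Nice u) (hv : Nice v) (hv' : RepP κ C₀ v (fw B q u)) (ρ : ℝ) :
    ∫ w : E n × E n, (ball 0 ρ).indicator (fw A p v) w.1 * (ball 0 ρ).indicator (fw B q u) w.2 *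
      Kr κ (w.1 - w.2) ∂(volume.prod volume) ≤ (p + 1) * En A p v ρ := by
  obtain ⟨-, hK⟩ := integrable_fw_pair (p := p) (q := q) hn hA hB hκ.le hu hv ρ 0
  rw [integral_prod _ hK]
  have hF := integrableOn_Fw hn hA hp hv ρ
  unfold En
  rw [← integral_const_mul, ← integral_indicator measurableSet_ball]
  refine integral_mono hK.integral_prod_left
    ((integrable_indicator_iff measurableSet_ball).2 (hF.const_mul _)) fun y => ?_
  by_cases hy : y ∈ ball (0 : E n) ρ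
  · simp only [indicator_of_mem hy, mul_assoc, integral_const_mul]
    rw [← fw_mul_self A hp hv.pos]
    refine mul_le_mul_of_nonneg_left (le_trans ?_ (hv'.leK y)) (fw_nonneg A p hv.pos y)
    refine integral_mono_of_nonneg (Eventually.of_forall fun z => mul_nonneg
      (indicator_nonneg (fun x _ => fw_nonneg B q hu.pos x) z) (Kr_nonneg hκ.le _)) (hv'.intK y)
      (Eventually.of_forall fun z => ?_)
    simp only
    rw [mul_comm]
    exact mul_le_mul_of_nonneg_left (indicator_le_self' (fun x _ => fw_nonneg B q hu.pos x) z)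
      (Kr_nonneg hκ.le _)
  · simp [indicator_of_notMem hy]

theorem side (hn : 3 ≤ n) {A B p q κ C₀ L : ℝ} (hA : -2 < A) (hB : -2 < B) (hp : 0 < p) (hκ : 0 < κ)
    (hC₀ : 0 < C₀) (hL : 0 ≤ L) : ∃ C : ℝ, 0 ≤ C ∧ ∀ u v : E n → ℝ, Nice u → Nice v →
    RepP κ C₀ v (fw B q u) → ∀ (R r d e s₁ : ℝ) (c : E n) (Ψ : ℝ → ℝ), Geo R r d e c → 0 < s₁ →
    |A| * ‖c‖ ≤ (n + A) * R → Cut Ψ (r + d / 8) (r + 3 * d / 8) (L / d) →
    ∃ LF : Lay c ((ball 0 (r + d)).indicator (fw A p v)),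
      ((n : ℝ) + A) * En A p v r - Lin A p v r c ≤ C * (e * R / d) * En A p v (r + d) +
        C * (R / d) * (s₁ ^ p * R ^ A * ∫ x in ball 0 (2 * R), v x) +
        C * (R / d) * Bad c e (Dset v s₁ (2 * R)) (Fw A p v) (r + d) +
        C * R * (((d ^ (n + 1))⁻¹ * (∫ x in ball 0 (2 * R), v x) +
          d / d ^ n * ∫ x in ball 0 (2 * R), fw B q u x) * ∫ x in ball 0 (2 * R), fw A p v x) +
        ((n : ℝ) - 2) / 2 * (∫ w : E n × E n, (ball 0 (r + d)).indicator (fw A p v) w.1 *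
          (ball 0 (r + d)).indicator (fw B q u) w.2 * Kr κ (w.1 - w.2) ∂(volume.prod volume)) +
        ∫ w : E n × E n, LF.phi Ψ w.1 * (ball 0 (r + d)).indicator (fw B q u) w.2 * Qk κ c w.1 w.2
          ∂(volume.prod volume) := by
  obtain ⟨C₁, hC₁, hlow⟩ := lower hn hA hp hL
  refine ⟨C₁ + 2 * C₀ * 4 ^ (n + 1), by positivity, ?_⟩
  intro u v hu hv hv' R r d e s₁ c Ψ g hs₁ hc hΨ
  have hd := g.hd
  have hdR : d ≤ R := by linarith [g.hr, g.hrd]
  have hR : 0 < R := hd.trans_le hdR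
  have he := g.he
  set F := (ball 0 (r + d)).indicator (fw A p v) with hF
  set G := (ball 0 (r + d)).indicator (fw B q u) with hG
  have mF : Measurable F := (measurable_fw A p hv.cont).indicator measurableSet_ball
  have mG : Measurable G := (measurable_fw B q hu.cont).indicator measurableSet_ball
  have nF : ∀ x, 0 ≤ F x := indicator_nonneg fun x _ => fw_nonneg A p hv.pos x
  have nG : ∀ x, 0 ≤ G x := indicator_nonneg fun x _ => fw_nonneg B q hu.pos x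
  have iF : Integrable F :=
    (integrable_indicator_iff measurableSet_ball).2 (integrableOn_fw hn hA p hv _)
  have iG : Integrable G :=
    (integrable_indicator_iff measurableSet_ball).2 (integrableOn_fw hn hB q hu _)
  have eK : ∀ y : E n, (fun z => Kr κ (y - z) * G z) =
      (ball 0 (r + d)).indicator (fun z => Kr κ (y - z) * fw B q u z) := fun y => by
    funext z
    rw [hG, indicator_mul_right]
  have hK : ∀ y : E n, Integrable (fun z => Kr κ (y - z) * G z) := fun y => by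
    rw [eK]
    exact (hv'.intK y).indicator measurableSet_ball
  set Λ : ℝ := C₀ * (((d / 4) ^ (n + 1))⁻¹ * (∫ z in ball 0 (r + d), v z) +
    d / 4 / (d / 4) ^ n * ∫ z in ball 0 (r + d), fw B q u z) with hΛ
  have nv : 0 ≤ ∫ z in ball (0 : E n) (r + d), v z := integral_nonneg fun x => (hv.pos x).le
  have ng : 0 ≤ ∫ z in ball (0 : E n) (r + d), fw B q u z := integral_nonneg (fw_nonneg B q hu.pos)
  have nf : 0 ≤ ∫ z in ball (0 : E n) (r + d), fw A p v z := integral_nonneg (fw_nonneg A p hv.pos)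
  have hΛ0 : 0 ≤ Λ := by positivity
  have hlip : ∀ y ∈ ball (0 : E n) (r + 3 * d / 4), ∀ y' ∈ ball (0 : E n) (r + 3 * d / 4),
      |(v y - ∫ z, Kr κ (y - z) * G z) - (v y' - ∫ z, Kr κ (y' - z) * G z)| ≤ Λ * ‖y - y'‖ := by
    intro y hy y' hy'
    have e1 : r + d - d / 4 = r + 3 * d / 4 := by ring
    have := hv'.lip (r + d) (d / 4) (by positivity) y (e1 ▸ hy) y' (e1 ▸ hy')
    rw [eK, eK, integral_indicator measurableSet_ball, integral_indicator measurableSet_ball]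
    exact this
  have hgrad := ae_grad hn hκ.le hv mG nG iG (ρ := r + d)
    (fun x hx => indicator_of_notMem (by simpa using hx) _) hK hlip c
  obtain ⟨hQ, hKK⟩ := integrable_fw_pair (p := p) (q := q) hn hA hB hκ.le hu hv (r + d) c
  obtain ⟨u1, u2⟩ := upper (by omega) hκ.le mF mG nF nG iF hQ hKK hΛ0 (ρ₃ := 2 * R) (by positivity)
    (fun y hy => by
      have := norm_sub_le y c
      have := mem_ball_zero_iff.1 hy
      linarith [g.hc, g.hrd]) hgrad
  have u1' : IntegrableOn (fun x => fw A p v x * dv c v x) (ball 0 (r + 3 * d / 4)) :=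
    u1.congr_fun (fun x hx => by
      simp only [hF, indicator_of_mem (ball_subset_ball (by linarith) hx : x ∈ ball 0 (r + d))])
      measurableSet_ball
  obtain ⟨LF, l1, l2⟩ := hlow v hv R r d e s₁ c Ψ g hs₁ hc hΨ u1'
  refine ⟨LF, ?_⟩
  have u3 := u2 (LF.phi Ψ) (LF.measurable_phi mF hΨ.diff.continuous.measurable)
    (LF.phi_bounds hΨ.nonneg hΨ.le_one) l1
  have hsub : ball (0 : E n) (r + d) ⊆ ball 0 (2 * R) := ball_subset_ball g.hrd
  have iv : IntegrableOn v (ball 0 (2 * R)) :=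
    (hv.cont.continuousOn.integrableOn_compact (isCompact_closedBall 0 (2 * R))).mono_set
      ball_subset_closedBall
  have m1 : ∫ z in ball (0 : E n) (r + d), v z ≤ ∫ z in ball 0 (2 * R), v z :=
    setIntegral_mono_set iv (Eventually.of_forall fun x => (hv.pos x).le) hsub.eventuallyLE
  have m2 : ∫ z in ball (0 : E n) (r + d), fw B q u z ≤ ∫ z in ball 0 (2 * R), fw B q u z :=
    setIntegral_mono_set (integrableOn_fw hn hB q hu _) (Eventually.of_forall (fw_nonneg B q hu.pos))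
      hsub.eventuallyLE
  have m3 : ∫ z in ball (0 : E n) (r + d), fw A p v z ≤ ∫ z in ball 0 (2 * R), fw A p v z :=
    setIntegral_mono_set (integrableOn_fw hn hA p hv _) (Eventually.of_forall (fw_nonneg A p hv.pos))
      hsub.eventuallyLE
  have m4 : ∫ x, F x = ∫ z in ball (0 : E n) (r + d), fw A p v z := integral_indicator measurableSet_ball
  set Iv := ∫ z in ball (0 : E n) (2 * R), v z
  set Ig := ∫ z in ball (0 : E n) (2 * R), fw B q u z
  set If := ∫ z in ball (0 : E n) (2 * R), fw A p v z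
  have nIv : 0 ≤ Iv := nv.trans m1
  have nIg : 0 ≤ Ig := ng.trans m2
  have nIf : 0 ≤ If := nf.trans m3
  have hΛ1 : Λ ≤ C₀ * (4 ^ (n + 1) * ((d ^ (n + 1))⁻¹ * Iv + d / d ^ n * Ig)) := by
    rw [hΛ, mul_add ((4 : ℝ) ^ (n + 1)), ← mul_assoc, ← mul_assoc]
    have a1 : ((d / 4) ^ (n + 1))⁻¹ = 4 ^ (n + 1) * (d ^ (n + 1))⁻¹ := by
      rw [div_pow]
      field_simp
    have a2 : d / 4 / (d / 4) ^ n ≤ 4 ^ (n + 1) * (d / d ^ n) := by
      rw [div_pow, pow_succ]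
      have : d / 4 / (d ^ n / 4 ^ n) = 4 ^ n * (1 / 4) * (d / d ^ n) := by field_simp
      rw [this]
      gcongr
      norm_num
    rw [a1]
    gcongr
  have t4 : Λ * (2 * R) * ∫ x, F x ≤
      2 * C₀ * 4 ^ (n + 1) * R * (((d ^ (n + 1))⁻¹ * Iv + d / d ^ n * Ig) * If) := by
    rw [m4]
    calc Λ * (2 * R) * ∫ z in ball (0 : E n) (r + d), fw A p v z
        ≤ C₀ * (4 ^ (n + 1) * ((d ^ (n + 1))⁻¹ * Iv + d / d ^ n * Ig)) * (2 * R) * If := by gcongr
      _ = _ := by ring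
  have nE : 0 ≤ En A p v (r + d) := En_nonneg A hp hv _
  have nB : 0 ≤ Bad c e (Dset v s₁ (2 * R)) (Fw A p v) (r + d) :=
    integral_nonneg fun x => mul_nonneg (Fw_nonneg A hp hv.pos x)
      (add_nonneg (indicator_nonneg (fun _ _ => zero_le_one) _)
        (indicator_nonneg (fun _ _ => zero_le_one) _))
  have n1 : 0 ≤ 2 * C₀ * 4 ^ (n + 1) * (e * R / d) * En A p v (r + d) := by positivity
  have n2 : 0 ≤ 2 * C₀ * 4 ^ (n + 1) * (R / d) * (s₁ ^ p * R ^ A * Iv) := by positivity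
  have n3 : 0 ≤ 2 * C₀ * 4 ^ (n + 1) * (R / d) * Bad c e (Dset v s₁ (2 * R)) (Fw A p v) (r + d) := by
    positivity
  have n4 : 0 ≤ C₁ * R * (((d ^ (n + 1))⁻¹ * Iv + d / d ^ n * Ig) * If) := by positivity
  simp only [add_mul (C₁)]
  linarith

private theorem core_arith {m A B p q C₁ C₂ η X R E₁ E₂ μ T₁ T₂ U₁ U₂ B₁ B₂ e₁ e₂ l₁ l₂ Q₁ Q₂ : ℝ}
    (hm : 3 ≤ m) (hA : -2 < A) (hB : -2 < B) (hp : 0 < p) (hq : 0 < q) (hC₁ : 0 ≤ C₁) (hC₂ : 0 ≤ C₂)
    (hη : 0 ≤ η) (hX : 0 ≤ X) (hR : 0 ≤ R) (nE₁ : 0 ≤ E₁) (nE₂ : 0 ≤ E₂) (m₁ : μ ≤ (p + 1) * E₁)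
    (m₂ : μ ≤ (q + 1) * E₂) (nT₁ : 0 ≤ T₁) (nT₂ : 0 ≤ T₂) (nU₁ : 0 ≤ U₁) (nU₂ : 0 ≤ U₂)
    (nB₁ : 0 ≤ B₁) (nB₂ : 0 ≤ B₂)
    (a₁ : (m + A) * e₁ - l₁ ≤ C₁ * η * E₁ + C₁ * X * T₁ + C₁ * X * B₁ + C₁ * R * U₁ +
      (m - 2) / 2 * μ + Q₁)
    (a₂ : (m + B) * e₂ - l₂ ≤ C₂ * η * E₂ + C₂ * X * T₂ + C₂ * X * B₂ + C₂ * R * U₂ +
      (m - 2) / 2 * μ + Q₂) (hQ : Q₁ + Q₂ ≤ 0) :
    (m + A) * e₁ + (m + B) * e₂ - (l₁ + l₂) ≤
      ((m - 2) / ((m + A) / (p + 1) + (m + B) / (q + 1)) + (C₁ + C₂) * η) *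
        ((m + A) * E₁ + (m + B) * E₂) + (C₁ + C₂) * X * (T₁ + T₂) + (C₁ + C₂) * R * (U₁ + U₂) +
        (C₁ + C₂) * X * (B₁ + B₂) := by
  have hA' : 0 < m + A := by linarith
  have hB' : 0 < m + B := by linarith
  have hk : 0 < (m + A) / (p + 1) + (m + B) / (q + 1) := by positivity
  set F := (m + A) * E₁ + (m + B) * E₂ with hF
  have hμ : (m - 2) * μ ≤ (m - 2) / ((m + A) / (p + 1) + (m + B) / (q + 1)) * F := by
    rw [div_mul_eq_mul_div, mul_div_assoc]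
    refine mul_le_mul_of_nonneg_left ?_ (by linarith)
    rw [le_div_iff₀ hk, mul_add]
    refine add_le_add ?_ ?_
    · rw [← mul_div_assoc, div_le_iff₀ (by linarith)]
      linarith [mul_le_mul_of_nonneg_left m₁ hA'.le]
    · rw [← mul_div_assoc, div_le_iff₀ (by linarith)]
      linarith [mul_le_mul_of_nonneg_left m₂ hB'.le]
  have b₁ : E₁ ≤ F := by
    linarith [mul_nonneg (show 0 ≤ m + A - 1 by linarith) nE₁, mul_nonneg hB'.le nE₂]
  have b₂ : E₂ ≤ F := by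
    linarith [mul_nonneg (show 0 ≤ m + B - 1 by linarith) nE₂, mul_nonneg hA'.le nE₁]
  have c₁ : C₁ * η * E₁ ≤ C₁ * η * F := by gcongr
  have c₂ : C₂ * η * E₂ ≤ C₂ * η * F := by gcongr
  have p1 : 0 ≤ C₂ * X * T₁ := by positivity
  have p2 : 0 ≤ C₁ * X * T₂ := by positivity
  have p3 : 0 ≤ C₂ * R * U₁ := by positivity
  have p4 : 0 ≤ C₁ * R * U₂ := by positivity
  have p5 : 0 ≤ C₂ * X * B₁ := by positivity
  have p6 : 0 ≤ C₁ * X * B₂ := by positivity
  linarith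

theorem core (hn : 3 ≤ n) {A B p q κ C₀ : ℝ} (hA : -2 < A) (hB : -2 < B) (hp : 0 < p) (hq : 0 < q)
    (hκ : 0 < κ) (hC₀ : 0 < C₀) : ∃ C : ℝ, 0 ≤ C ∧ ∀ u v : E n → ℝ, Nice u → Nice v →
    RepP κ C₀ u (fw A p v) → RepP κ C₀ v (fw B q u) → ∀ (R r d e s₁ s₂ : ℝ) (c : E n),
    Geo R r d e c → 0 < s₁ → 0 < s₂ → |A| * ‖c‖ ≤ (n + A) * R → |B| * ‖c‖ ≤ (n + B) * R →
      En2 A B p q u v r - (Lin A p v r c + Lin B q u r c) ≤
        (((n : ℝ) - 2) / ((n + A) / (p + 1) + (n + B) / (q + 1)) + C * (e * R / d)) *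
          En2 A B p q u v (r + d) +
        C * (R / d) * (s₁ ^ p * R ^ A * (∫ x in ball 0 (2 * R), v x) +
          s₂ ^ q * R ^ B * ∫ x in ball 0 (2 * R), u x) +
        C * R * (((d ^ (n + 1))⁻¹ * (∫ x in ball 0 (2 * R), v x) +
            d / d ^ n * ∫ x in ball 0 (2 * R), fw B q u x) * (∫ x in ball 0 (2 * R), fw A p v x) +
          ((d ^ (n + 1))⁻¹ * (∫ x in ball 0 (2 * R), u x) +
            d / d ^ n * ∫ x in ball 0 (2 * R), fw A p v x) * ∫ x in ball 0 (2 * R), fw B q u x) +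
        C * (R / d) * (Bad c e (Dset v s₁ (2 * R)) (Fw A p v) (r + d) +
          Bad c e (Dset u s₂ (2 * R)) (Fw B q u) (r + d)) := by
  obtain ⟨L, hL, hcut⟩ := exists_cut
  have hL4 : 0 ≤ 4 * L := by positivity
  obtain ⟨C₁, hC₁, h₁⟩ := side (n := n) (q := q) hn hA hB hp hκ hC₀ hL4
  obtain ⟨C₂, hC₂, h₂⟩ := side (n := n) (q := p) hn hB hA hq hκ hC₀ hL4
  refine ⟨C₁ + C₂, by positivity, ?_⟩
  intro u v hu hv hu' hv' R r d e s₁ s₂ c g hs₁ hs₂ hcA hcB
  have hd := g.hd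
  have hdR : d ≤ R := by linarith [g.hr, g.hrd]
  have hR : 0 < R := hd.trans_le hdR
  have he := g.he
  obtain ⟨Ψ, hΨ⟩ := hcut (r + d / 8) (r + 3 * d / 8) (by linarith)
  have eL : L / (r + 3 * d / 8 - (r + d / 8)) = 4 * L / d := by
    rw [show r + 3 * d / 8 - (r + d / 8) = d / 4 by ring]
    field_simp
  rw [eL] at hΨ
  obtain ⟨LF, a₁⟩ := h₁ u v hu hv hv' R r d e s₁ c Ψ g hs₁ hcA hΨ
  obtain ⟨LG, a₂⟩ := h₂ v u hv hu hu' R r d e s₂ c Ψ g hs₂ hcB hΨ
  obtain ⟨hQ, hK⟩ := integrable_fw_pair (p := p) (q := q) hn hA hB hκ.le hu hv (r + d) c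
  have hcr := cross (by omega) hκ.le ((measurable_fw A p hv.cont).indicator measurableSet_ball)
    ((measurable_fw B q hu.cont).indicator measurableSet_ball) LF LG hΨ.anti hΨ.nonneg hΨ.le_one hQ
  have m₁ := mu_le (q := q) hn hA hB hp hκ hu hv hv' (r + d)
  have m₂ := mu_le (q := p) hn hB hA hq hκ hv hu hu' (r + d)
  have hsw : ∫ w : E n × E n, (ball 0 (r + d)).indicator (fw B q u) w.1 *
      (ball 0 (r + d)).indicator (fw A p v) w.2 * Kr κ (w.1 - w.2) ∂(volume.prod volume) =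
      ∫ w : E n × E n, (ball 0 (r + d)).indicator (fw A p v) w.1 *
      (ball 0 (r + d)).indicator (fw B q u) w.2 * Kr κ (w.1 - w.2) ∂(volume.prod volume) := by
    rw [← integral_prod_swap]
    refine integral_congr_ae (Eventually.of_forall fun w => ?_)
    simp only [Prod.fst_swap, Prod.snd_swap]
    rw [Kr_sub_comm κ w.2 w.1]
    ring
  rw [hsw] at a₂ m₂
  set μ := ∫ w : E n × E n, (ball 0 (r + d)).indicator (fw A p v) w.1 *
      (ball 0 (r + d)).indicator (fw B q u) w.2 * Kr κ (w.1 - w.2) ∂(volume.prod volume)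
  have hn3 : (3 : ℝ) ≤ n := by exact_mod_cast hn
  have nE₁ : 0 ≤ En A p v (r + d) := En_nonneg A hp hv _
  have nE₂ : 0 ≤ En B q u (r + d) := En_nonneg B hq hu _
  have nB : ∀ (D : Set (E n)) (F : E n → ℝ), (∀ x, 0 ≤ F x) → 0 ≤ Bad c e D F (r + d) :=
    fun D F hF => integral_nonneg fun x => mul_nonneg (hF x)
      (add_nonneg (indicator_nonneg (fun _ _ => zero_le_one) _)
        (indicator_nonneg (fun _ _ => zero_le_one) _))
  have nB₁ := nB (Dset v s₁ (2 * R)) _ (Fw_nonneg A hp hv.pos)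
  have nB₂ := nB (Dset u s₂ (2 * R)) _ (Fw_nonneg B hq hu.pos)
  have nIv : 0 ≤ ∫ z in ball (0 : E n) (2 * R), v z := integral_nonneg fun x => (hv.pos x).le
  have nIu : 0 ≤ ∫ z in ball (0 : E n) (2 * R), u z := integral_nonneg fun x => (hu.pos x).le
  have nIg : 0 ≤ ∫ z in ball (0 : E n) (2 * R), fw B q u z := integral_nonneg (fw_nonneg B q hu.pos)
  have nIf : 0 ≤ ∫ z in ball (0 : E n) (2 * R), fw A p v z := integral_nonneg (fw_nonneg A p hv.pos)
  exact core_arith hn3 hA hB hp hq hC₁ hC₂ (by positivity) (by positivity) hR.le nE₁ nE₂ m₁ m₂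
    (by positivity) (by positivity) (by positivity) (by positivity) nB₁ nB₂ a₁ a₂ hcr

end Vale.Agent.P100
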