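import Vale.Agent.P100.Flow2
import Vale.Agent.P100.Ray

/-!
# P100 Cross: the antisymmetric part has a sign

`cross_SL`.  The integrand vanishes off `S ×ˢ univ` (`zσ`; `setIntegral_eq_integral_of_forall_compl_eq_zero`).  Apply
`setIntegral_nonpos₁` with `flow_fl`; for `w` with `NC` (`ae_NC`) and `w.1 ∈ S`, on `Ioo (-α) β`:
`σ (fl t y) e^(n t) = σ y e^((n-2)/2 t)` (`eσ`), `mid` is invariant (`mid_fl`); pull out constants
(`setIntegral_congr_fun`, `integral_const_mul`), use `ray_single` with `a = -α y`, `b = β y` and `Antitone Ψ`.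
`cross_SS`: same with `setIntegral_nonpos₂`, `ray_double`.
`cross`.  With `F₀ = F - ∑ σ ≥ 0`, `G₀ = G - ∑ σ' ≥ 0`, `ψ x = Ψ ‖x - c‖`, `θ = Ψ (mid ..)`:
`phi_F y G z - F y phi_G z = F₀ G₀ (ψ y - ψ z) + ∑ⱼ σⱼ G₀ (θⱼ y - ψ z) + ∑ₖ F₀ σ'ₖ (ψ y - θ'ₖ z) + ∑ⱼ ∑ₖ σⱼ σ'ₖ (θⱼ y - θ'ₖ z)`.
Every term times `Qk` is measurable and dominated by `|F G Qk|` (`0 ≤ σⱼ ≤ F`, `0 ≤ Ψ ≤ 1`).  First term `≤ 0` pointwise
(`Qk_nonneg`, `Qk_nonpos`); third term: `integral_prod_swap` and `Qk_swap` reduce it to `cross_SL`.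
-/

open MeasureTheory Set Metric Filter Topology

noncomputable section

namespace Vale.Agent.P100

variable {n : ℕ}

theorem cross_sign {Ψ : ℝ → ℝ} (hΨ : Antitone Ψ) {s s' I a : ℝ} (ha : 0 ≤ a)
    (h : (s ≤ s' → I ≤ 0) ∧ (s' ≤ s → 0 ≤ I)) : a * (Ψ s - Ψ s') * I ≤ 0 := by
  rw [mul_assoc]
  refine mul_nonpos_of_nonneg_of_nonpos ha ?_
  rcases le_total s s' with h1 | h1
  · exact mul_nonpos_of_nonneg_of_nonpos (sub_nonneg.2 (hΨ h1)) (h.1 h1)
  · exact mul_nonpos_of_nonpos_of_nonneg (sub_nonpos.2 (hΨ h1)) (h.2 h1)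

theorem cross_exp {c : E n} {S : Set (E n)} {α β σ : E n → ℝ} (hL : Lay1 c S α β σ) {x : E n}
    (hx : x ∈ S) {t : ℝ} (ht : t ∈ Ioo (-α x) (β x)) :
    σ (fl c t x) * Real.exp (n * t) = σ x * Real.exp (((n : ℝ) - 2) / 2 * t) := by
  rw [hL.eσ x hx t ht, mul_assoc, ← Real.exp_add]
  congr 2
  ring

theorem cross_SL (hn : 2 ≤ n) {κ : ℝ} (hκ : 0 ≤ κ) {c : E n} {S : Set (E n)} {α β σ : E n → ℝ}
    (hL : Lay1 c S α β σ) {H : E n → ℝ} (hH : Measurable H) (hH0 : ∀ x, 0 ≤ H x) {Ψ : ℝ → ℝ}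
    (hΨ : Antitone Ψ)
    (hint : Integrable (fun w : E n × E n =>
      σ w.1 * H w.2 * (Ψ (mid c α β w.1) - Ψ ‖w.2 - c‖) * Qk κ c w.1 w.2) (volume.prod volume)) :
    ∫ w : E n × E n, σ w.1 * H w.2 * (Ψ (mid c α β w.1) - Ψ ‖w.2 - c‖) * Qk κ c w.1 w.2
      ∂(volume.prod volume) ≤ 0 := by
  rw [← setIntegral_eq_integral_of_forall_compl_eq_zero (s := S ×ˢ univ) fun w hw => by
    rw [hL.zσ _ fun h => hw ⟨h, trivial⟩, zero_mul, zero_mul, zero_mul]]
  have h1 := hL.mσ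
  have h2 := hΨ.measurable
  have h3 := measurable_mid (c := c) hL.seg.mα hL.seg.mβ
  refine (flow_fl c).setIntegral_nonpos₁ hL.seg (Measurable.mul (by fun_prop) (measurable_Qk κ c))
    hint.integrableOn ((ae_NC hn c).mono fun w hw hS => ?_)
  rw [setIntegral_congr_fun (g := fun t => σ w.1 * H w.2 * (Ψ (mid c α β w.1) - Ψ ‖w.2 - c‖) *
    (Real.exp (((n : ℝ) - 2) / 2 * t) * Qk κ c (fl c t w.1) w.2)) measurableSet_Ioo fun t ht => by
      simp only [mid_fl hL.seg hS ht]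
      linear_combination H w.2 * (Ψ (mid c α β w.1) - Ψ ‖w.2 - c‖) * Qk κ c (fl c t w.1) w.2 *
        cross_exp hL hS ht, integral_const_mul]
  refine cross_sign hΨ (mul_nonneg (hL.nσ _) (hH0 _)) ?_
  rw [mid, ← neg_add_eq_sub]
  exact ray_single hn hκ hw (by linarith [hL.seg.pα _ hS, hL.seg.pβ _ hS])

theorem cross_SS (hn : 2 ≤ n) {κ : ℝ} (hκ : 0 ≤ κ) {c : E n} {S S' : Set (E n)}
    {α β σ α' β' σ' : E n → ℝ} (hL : Lay1 c S α β σ) (hL' : Lay1 c S' α' β' σ') {Ψ : ℝ → ℝ}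
    (hΨ : Antitone Ψ)
    (hint : Integrable (fun w : E n × E n =>
      σ w.1 * σ' w.2 * (Ψ (mid c α β w.1) - Ψ (mid c α' β' w.2)) * Qk κ c w.1 w.2)
      (volume.prod volume)) :
    ∫ w : E n × E n, σ w.1 * σ' w.2 * (Ψ (mid c α β w.1) - Ψ (mid c α' β' w.2)) * Qk κ c w.1 w.2
      ∂(volume.prod volume) ≤ 0 := by
  rw [← setIntegral_eq_integral_of_forall_compl_eq_zero (s := S ×ˢ S') fun w hw => by
    rcases not_and_or.1 hw with h | h
    · rw [hL.zσ _ h, zero_mul, zero_mul, zero_mul]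
    · rw [hL'.zσ _ h, mul_zero, zero_mul, zero_mul]]
  have h1 := hL.mσ
  have h1' := hL'.mσ
  have h2 := hΨ.measurable
  have h3 := measurable_mid (c := c) hL.seg.mα hL.seg.mβ
  have h3' := measurable_mid (c := c) hL'.seg.mα hL'.seg.mβ
  refine (flow_fl c).setIntegral_nonpos₂ hL.seg (flow_fl c) hL'.seg
    (Measurable.mul (by fun_prop) (measurable_Qk κ c)) hint.integrableOn
    ((ae_NC hn c).mono fun w hw hS hS' => ?_)
  rw [setIntegral_congr_fun (g := fun t' => σ w.1 * σ' w.2 *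
    (Ψ (mid c α β w.1) - Ψ (mid c α' β' w.2)) * (Real.exp (((n : ℝ) - 2) / 2 * t') *
      ∫ t in Ioo (-α w.1) (β w.1), Real.exp (((n : ℝ) - 2) / 2 * t) *
        Qk κ c (fl c t w.1) (fl c t' w.2))) measurableSet_Ioo fun t' ht' => by
      simp only [← integral_const_mul, ← integral_mul_const]
      refine setIntegral_congr_fun measurableSet_Ioo fun t ht => ?_
      simp only [mid_fl hL.seg hS ht, mid_fl hL'.seg hS' ht']
      have := congrArg₂ (· * ·) (cross_exp hL hS ht) (cross_exp hL' hS' ht')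
      linear_combination (Ψ (mid c α β w.1) - Ψ (mid c α' β' w.2)) *
        Qk κ c (fl c t w.1) (fl c t' w.2) * this, integral_const_mul]
  refine cross_sign hΨ (mul_nonneg (hL.nσ _) (hL'.nσ _)) ?_
  rw [mid, mid, ← neg_add_eq_sub, ← neg_add_eq_sub (α' _)]
  exact ray_double hn hκ hw (by linarith [hL.seg.pα _ hS, hL.seg.pβ _ hS])
    (by linarith [hL'.seg.pα _ hS', hL'.seg.pβ _ hS'])

/-- the layers together with the remainder -/
def crS {c : E n} {F : E n → ℝ} (L : Lay c F) : Option (Fin L.J) → E n → ℝ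
  | none => fun x => F x - ∑ j, L.σ j x
  | some j => L.σ j

/-- the radius at which the cutoff is evaluated -/
def crR {c : E n} {F : E n → ℝ} (L : Lay c F) : Option (Fin L.J) → E n → ℝ
  | none => fun x => ‖x - c‖
  | some j => mid c (L.α j) (L.β j)

section
variable {c : E n} {F : E n → ℝ} (L : Lay c F)

theorem crS_sum (x : E n) : ∑ o, crS L o x = F x := by simp [crS]

theorem crS_phi (Ψ : ℝ → ℝ) (x : E n) : ∑ o, crS L o x * Ψ (crR L o x) = L.phi Ψ x := by
  simp only [Fintype.sum_option, crS, crR, Lay.phi, mul_sub, sub_mul, Finset.sum_sub_distrib,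
    Finset.sum_mul]
  ring

theorem crS_nonneg : ∀ o x, 0 ≤ crS L o x
  | none, x => sub_nonneg.2 (L.le x)
  | some j, x => (L.one j).nσ x

theorem crS_le (o) (x : E n) : crS L o x ≤ F x :=
  (Finset.single_le_sum (fun o _ => crS_nonneg L o x) (Finset.mem_univ o)).trans_eq (crS_sum L x)

theorem crS_meas (hF : Measurable F) : ∀ o, Measurable (crS L o)
  | none => hF.sub (Finset.measurable_sum _ fun j _ => (L.one j).mσ)
  | some j => (L.one j).mσ

theorem crR_meas : ∀ o, Measurable (crR L o)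
  | none => by unfold crR; fun_prop
  | some j => measurable_mid (L.one j).seg.mα (L.one j).seg.mβ

end

theorem cross (hn : 2 ≤ n) {κ : ℝ} (hκ : 0 ≤ κ) {c : E n} {F G : E n → ℝ} (hF : Measurable F)
    (hG : Measurable G) (LF : Lay c F) (LG : Lay c G) {Ψ : ℝ → ℝ} (hΨ : Antitone Ψ)
    (h0 : ∀ s, 0 ≤ Ψ s) (h1 : ∀ s, Ψ s ≤ 1)
    (hint : Integrable (fun w : E n × E n => F w.1 * G w.2 * Qk κ c w.1 w.2) (volume.prod volume)) :
    (∫ w : E n × E n, LF.phi Ψ w.1 * G w.2 * Qk κ c w.1 w.2 ∂(volume.prod volume)) +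
      ∫ w : E n × E n, LG.phi Ψ w.1 * F w.2 * Qk κ c w.1 w.2 ∂(volume.prod volume) ≤ 0 := by
  have h2 := hΨ.measurable
  have dom : ∀ {f : E n × E n → ℝ}, Measurable f → (∀ w, |f w| ≤ F w.1 * G w.2) →
      Integrable (fun w => f w * Qk κ c w.1 w.2) (volume.prod volume) := fun hf hb =>
    hint.mono (hf.mul (measurable_Qk κ c)).aestronglyMeasurable (.of_forall fun w => by
      rw [norm_mul, norm_mul _ (Qk _ _ _ _)]
      exact mul_le_mul_of_nonneg_right ((hb w).trans (le_abs_self _)) (norm_nonneg _))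
  have hT : ∀ o o', Integrable (fun w : E n × E n => crS LF o w.1 * crS LG o' w.2 *
      (Ψ (crR LF o w.1) - Ψ (crR LG o' w.2)) * Qk κ c w.1 w.2) (volume.prod volume) := fun o o' => by
    have a1 := crS_meas LF hF o
    have a2 := crS_meas LG hG o'
    have a3 := crR_meas LF o
    have a4 := crR_meas LG o'
    refine dom (by fun_prop) fun w => ?_
    have a5 := mul_nonneg (crS_nonneg LF o w.1) (crS_nonneg LG o' w.2)
    rw [abs_mul, abs_of_nonneg a5]
    refine (mul_le_of_le_one_right a5 (abs_sub_le_iff.2 ⟨?_, ?_⟩)).trans (mul_le_mul (crS_le LF _ _)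
      (crS_le LG _ _) (crS_nonneg LG _ _) ((crS_nonneg LF o _).trans (crS_le LF _ _))) <;>
    linarith [h0 (crR LF o w.1), h1 (crR LF o w.1), h0 (crR LG o' w.2), h1 (crR LG o' w.2)]
  have bF := LF.phi_bounds h0 h1
  have bG := LG.phi_bounds h0 h1
  have mF := LF.measurable_phi hF h2
  have mG := LG.measurable_phi hG h2
  have i1 := dom (f := fun w => LF.phi Ψ w.1 * G w.2) (by fun_prop) fun w => by
    rw [abs_of_nonneg (mul_nonneg (bF _).1 ((bG _).1.trans (bG _).2))]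
    exact mul_le_mul_of_nonneg_right (bF _).2 ((bG _).1.trans (bG _).2)
  have i2 := dom (f := fun w => -(F w.1 * LG.phi Ψ w.2)) (by fun_prop) fun w => by
    rw [abs_neg, abs_of_nonneg (mul_nonneg ((bF _).1.trans (bF _).2) (bG _).1)]
    exact mul_le_mul_of_nonneg_left (bG _).2 ((bF _).1.trans (bF _).2)
  have e1 : ∫ w : E n × E n, LG.phi Ψ w.1 * F w.2 * Qk κ c w.1 w.2 ∂(volume.prod volume) =
      ∫ w : E n × E n, -(F w.1 * LG.phi Ψ w.2) * Qk κ c w.1 w.2 ∂(volume.prod volume) := by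
    rw [← integral_prod_swap]
    refine integral_congr_ae (.of_forall fun w => ?_)
    simp only [Prod.fst_swap, Prod.snd_swap, Qk_swap κ c w.1 w.2]
    ring
  rw [e1, ← integral_add i1 i2, integral_congr_ae (g := fun w => ∑ o, ∑ o', crS LF o w.1 *
    crS LG o' w.2 * (Ψ (crR LF o w.1) - Ψ (crR LG o' w.2)) * Qk κ c w.1 w.2) (.of_forall fun w => by
      simp only [← Finset.sum_mul]
      rw [← add_mul, ← crS_phi, ← crS_phi, ← crS_sum LF w.1, ← crS_sum LG w.2, Finset.sum_mul_sum,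
        Finset.sum_mul_sum, ← sub_eq_add_neg, ← Finset.sum_sub_distrib]
      refine congrArg (· * _) (Finset.sum_congr rfl fun o _ => ?_)
      rw [← Finset.sum_sub_distrib]
      exact Finset.sum_congr rfl fun o' _ => by ring),
    integral_finsetSum _ fun o _ => integrable_finsetSum _ fun o' _ => hT o o']
  refine Finset.sum_nonpos fun o _ => ?_
  rw [integral_finsetSum _ fun o' _ => hT o o']
  refine Finset.sum_nonpos fun o' _ => ?_
  rcases o with _ | j <;> rcases o' with _ | k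
  · exact integral_nonpos fun w => cross_sign hΨ
      (mul_nonneg (crS_nonneg LF _ _) (crS_nonneg LG _ _)) ⟨Qk_nonpos hn hκ, Qk_nonneg hn hκ⟩
  · have e : (fun w : E n × E n => LG.σ k w.1 * crS LF none w.2 *
        (Ψ (mid c (LG.α k) (LG.β k) w.1) - Ψ ‖w.2 - c‖) * Qk κ c w.1 w.2) = fun w =>
        crS LF none w.swap.1 * crS LG (some k) w.swap.2 * (Ψ (crR LF none w.swap.1) -
          Ψ (crR LG (some k) w.swap.2)) * Qk κ c w.swap.1 w.swap.2 := funext fun w => by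
      simp only [Prod.fst_swap, Prod.snd_swap, Qk_swap κ c w.1 w.2, crS, crR]
      ring
    have := cross_SL hn hκ (LG.one k) (crS_meas LF hF none) (crS_nonneg LF none) hΨ
      (e ▸ (hT none (some k)).swap)
    rw [e] at this
    exact (integral_prod_swap _).symm.trans_le this
  · exact cross_SL hn hκ (LF.one j) (crS_meas LG hG none) (crS_nonneg LG none) hΨ (hT (some j) none)
  · exact cross_SS hn hκ (LF.one j) (LG.one k) hΨ (hT (some j) (some k))

end Vale.Agent.P100
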