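import Vale.Agent.P100.Defs

/-!
# P100 Decay: two lemmas of real analysis

`decay`.  Insert one inequality in the other: `a ≥ c₁ c₂^p R^(2+A+p(2+B)) a^(pq)`.  If `pq ≤ 1` then
`a₀^(1-pq) ≥ a^(1-pq) ≥ c R^(positive)` for all `R ≥ 1`, which is absurd.  If `pq > 1`:
`a ≤ C R^(-x)`, `b ≤ C R^(-y)` with `x = (2+A+p(2+B))/(pq-1)`, `y = (2+B+q(2+A))/(pq-1)`, and the hypothesis is equivalent to
`(2+A)(q+1) + (2+B)(p+1) > (m-2)(pq-1)`, that is `x + y > m - 2`; `tendsto_rpow_neg_atTop`.  Taking logarithms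
(`α = log a`, ...) makes everything linear and may be the shortest way.

`iterate`.  Let `S = sup {G r (2R - r)^N : R ≤ r < 2R}` (finite).  Choose `l ∈ (0,1)` with `ϑ < l^N` (continuity at `1`, or
`l = ((1+ϑ)/2)^(1/(N+1))`).  For `r` take `d = (1-l)(2R-r)`: `G r (2R-r)^N ≤ (ϑ/l^N) S + T R^N (1-l)^(-N)`.  So
`S ≤ T R^N (1-l)^(-N) / (1 - ϑ/l^N)`; put `r = R`.
-/

open MeasureTheory Set Metric Filter Topology

noncomputable section

namespace Vale.Agent.P100

theorem decay {m p q A B c₁ c₂ a₀ : ℝ} (hp : 0 < p) (hq : 0 < q) (hA : -2 < A) (hB : -2 < B)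
    (hc₁ : 0 < c₁) (hc₂ : 0 < c₂) (hsub : m - 2 < (m + A) / (p + 1) + (m + B) / (q + 1))
    {a b : ℝ → ℝ} (ha : ∀ R, 0 < R → 0 < a R) (hb : ∀ R, 0 < R → 0 < b R)
    (ha₀ : ∀ R, 0 < R → a R ≤ a₀)
    (h₁ : ∀ R, 0 < R → c₁ * R ^ (2 + A) * b R ^ p ≤ a R)
    (h₂ : ∀ R, 0 < R → c₂ * R ^ (2 + B) * a R ^ q ≤ b R) :
    Tendsto (fun R => R ^ (m - 2) * a R * b R) atTop (𝓝 0) := by
  have hl₁ : ∀ R, 0 < R →
      Real.log c₁ + (2 + A) * Real.log R + p * Real.log (b R) ≤ Real.log (a R) := by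
    intro R hR
    have hbR := hb R hR
    have := Real.log_le_log (by positivity) (h₁ R hR)
    rwa [Real.log_mul (by positivity) (by positivity), Real.log_mul (by positivity) (by positivity),
      Real.log_rpow hR, Real.log_rpow hbR] at this
  have hl₂ : ∀ R, 0 < R →
      Real.log c₂ + (2 + B) * Real.log R + q * Real.log (a R) ≤ Real.log (b R) := by
    intro R hR
    have haR := ha R hR
    have := Real.log_le_log (by positivity) (h₂ R hR)
    rwa [Real.log_mul (by positivity) (by positivity), Real.log_mul (by positivity) (by positivity),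
      Real.log_rpow hR, Real.log_rpow haR] at this
  have hA' : 0 < 2 + A := by linarith
  have hB' : 0 < 2 + B := by linarith
  have k₁ : ∀ R, 0 < R → Real.log c₁ + p * Real.log c₂ + (2 + A + p * (2 + B)) * Real.log R ≤
      (1 - p * q) * Real.log (a R) := by
    intro R hR
    have := mul_le_mul_of_nonneg_left (hl₂ R hR) hp.le
    nlinarith [hl₁ R hR]
  have k₂ : ∀ R, 0 < R → Real.log c₂ + q * Real.log c₁ + (2 + B + q * (2 + A)) * Real.log R ≤
      (1 - p * q) * Real.log (b R) := by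
    intro R hR
    have := mul_le_mul_of_nonneg_left (hl₁ R hR) hq.le
    nlinarith [hl₂ R hR]
  rcases le_or_gt (p * q) 1 with hpq | hpq
  · exfalso
    have hx : 0 < 2 + A + p * (2 + B) := by positivity
    set K := (1 - p * q) * Real.log a₀ - (Real.log c₁ + p * Real.log c₂) with hK
    set x := 2 + A + p * (2 + B) with hxd
    have hR : 0 < Real.exp (K / x + 1) := Real.exp_pos _
    have h3 := k₁ _ hR
    rw [Real.log_exp] at h3
    have h4 : Real.log (a (Real.exp (K / x + 1))) ≤ Real.log a₀ :=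
      Real.log_le_log (ha _ hR) (ha₀ _ hR)
    have h5 := mul_le_mul_of_nonneg_left h4 (sub_nonneg.2 hpq)
    have h6 : x * (K / x + 1) = K + x := by field_simp
    rw [h6] at h3
    linarith
  · have hD : 0 < p * q - 1 := by linarith
    have hp1 : 0 < p + 1 := by linarith
    have hq1 : 0 < q + 1 := by linarith
    have hs : (m - 2) * (p * q - 1) < (2 + A) * (q + 1) + (2 + B) * (p + 1) := by
      rw [div_add_div _ _ hp1.ne' hq1.ne', lt_div_iff₀ (by positivity)] at hsub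
      nlinarith
    set δ := ((2 + A) * (q + 1) + (2 + B) * (p + 1)) / (p * q - 1) - (m - 2) with hδ
    have hδ0 : 0 < δ := by
      rw [hδ, sub_pos, lt_div_iff₀ hD]
      exact hs
    set K := -(Real.log c₁ + p * Real.log c₂ + Real.log c₂ + q * Real.log c₁) / (p * q - 1) with hK
    have hb' : ∀ R, 0 < R → R ^ (m - 2) * a R * b R ≤ Real.exp K * R ^ (-δ) := by
      intro R hR
      have haR := ha R hR
      have hbR := hb R hR
      rw [← Real.log_le_log_iff (by positivity) (by positivity),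
        Real.log_mul (by positivity) (by positivity), Real.log_mul (by positivity) (by positivity),
        Real.log_mul (by positivity) (by positivity), Real.log_rpow hR, Real.log_rpow hR,
        Real.log_exp]
      have h3 : Real.log (a R) + Real.log (b R) ≤
          K - ((2 + A) * (q + 1) + (2 + B) * (p + 1)) / (p * q - 1) * Real.log R := by
        rw [hK, div_mul_eq_mul_div, ← sub_div, le_div_iff₀ hD]
        nlinarith [k₁ R hR, k₂ R hR]
      rw [hδ]
      linarith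
    have ht : Tendsto (fun R : ℝ => Real.exp K * R ^ (-δ)) atTop (𝓝 0) := by
      simpa using (tendsto_rpow_neg_atTop hδ0).const_mul (Real.exp K)
    refine squeeze_zero' ?_ ?_ ht
    · filter_upwards [eventually_gt_atTop 0] with R hR
      have haR := ha R hR
      have hbR := hb R hR
      positivity
    · filter_upwards [eventually_gt_atTop 0] with R hR
      exact hb' R hR

theorem iterate {ϑ : ℝ} (h0 : 0 ≤ ϑ) (h1 : ϑ < 1) (N : ℕ) : ∃ C : ℝ, 0 ≤ C ∧
    ∀ (G : ℝ → ℝ) (R T M : ℝ), 0 < R → 0 ≤ T → (∀ r, R ≤ r → r ≤ 2 * R → 0 ≤ G r ∧ G r ≤ M) →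
      (∀ r d, R ≤ r → 0 < d → r + d ≤ 2 * R → G r ≤ ϑ * G (r + d) + T * (R / d) ^ N) →
      G R ≤ C * T := by
  obtain ⟨l, hl0, hl1, hlN⟩ : ∃ l : ℝ, 0 < l ∧ l < 1 ∧ ϑ < l ^ N := by
    have hc : ContinuousAt (fun l : ℝ => l ^ N) 1 := (continuous_pow N).continuousAt
    have he : ∀ᶠ l : ℝ in 𝓝 1, ϑ < l ^ N := hc.eventually (lt_mem_nhds (by simpa using h1))
    have he2 : ∀ᶠ l : ℝ in 𝓝[<] 1, ϑ < l ^ N := he.filter_mono nhdsWithin_le_nhds
    have he3 : ∀ᶠ l : ℝ in 𝓝[<] 1, 0 < l :=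
      (lt_mem_nhds (zero_lt_one' ℝ) : ∀ᶠ l : ℝ in 𝓝 1, 0 < l).filter_mono nhdsWithin_le_nhds
    obtain ⟨l, h2, h3, h4⟩ := (he2.and (he3.and self_mem_nhdsWithin)).exists
    exact ⟨l, h3, h4, h2⟩
  have hlN0 : 0 < l ^ N := by positivity
  have hθ : ϑ / l ^ N < 1 := (div_lt_one hlN0).2 hlN
  have hθ0 : 0 ≤ ϑ / l ^ N := by positivity
  have h1l : 0 < 1 - l := by linarith
  have h1θ : 0 < 1 - ϑ / l ^ N := by linarith
  refine ⟨((1 - l) ^ N)⁻¹ / (1 - ϑ / l ^ N), by positivity, ?_⟩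
  intro G R T M hR hT hG hstep
  set F : ℝ → ℝ := fun r => G r * (2 * R - r) ^ N with hF
  have hM : 0 ≤ M := (hG R le_rfl (by linarith)).1.trans (hG R le_rfl (by linarith)).2
  have hbdd : BddAbove (F '' Ico R (2 * R)) := by
    refine ⟨M * R ^ N, ?_⟩
    rintro _ ⟨r, hr, rfl⟩
    have h2 := hG r hr.1 hr.2.le
    have h3 : 0 ≤ 2 * R - r := by linarith [hr.2]
    have h4 : 2 * R - r ≤ R := by linarith [hr.1]
    exact mul_le_mul h2.2 (pow_le_pow_left₀ h3 h4 N) (by positivity) hM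
  have hne : (F '' Ico R (2 * R)).Nonempty := ⟨F R, R, ⟨le_rfl, by linarith⟩, rfl⟩
  set S := sSup (F '' Ico R (2 * R)) with hS
  have hle : ∀ r, R ≤ r → r < 2 * R → F r ≤ S := fun r h2 h3 => le_csSup hbdd ⟨r, ⟨h2, h3⟩, rfl⟩
  have hS2 : S ≤ ϑ / l ^ N * S + T * R ^ N * ((1 - l) ^ N)⁻¹ := by
    refine csSup_le hne ?_
    rintro _ ⟨r, hr, rfl⟩
    have hw : 0 < 2 * R - r := by linarith [hr.2]
    have hd : 0 < (1 - l) * (2 * R - r) := by positivity
    have hrd : r + (1 - l) * (2 * R - r) < 2 * R := by nlinarith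
    have h2 := hstep r _ hr.1 hd hrd.le
    have h3 := hle (r + (1 - l) * (2 * R - r)) (by linarith [hr.1]) hrd
    have e : 2 * R - (r + (1 - l) * (2 * R - r)) = l * (2 * R - r) := by ring
    simp only [hF] at h3 ⊢
    rw [e, mul_pow] at h3
    have h4 := mul_le_mul_of_nonneg_right h2 (pow_pos hw N).le
    have h5 := mul_le_mul_of_nonneg_left h3 hθ0
    have e2 : ϑ / l ^ N * (G (r + (1 - l) * (2 * R - r)) * (l ^ N * (2 * R - r) ^ N)) =
        ϑ * G (r + (1 - l) * (2 * R - r)) * (2 * R - r) ^ N := by field_simp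
    have e3 : T * (R / ((1 - l) * (2 * R - r))) ^ N * (2 * R - r) ^ N =
        T * R ^ N * ((1 - l) ^ N)⁻¹ := by
      rw [div_pow, mul_pow]
      field_simp
    rw [e2] at h5
    rw [add_mul, e3] at h4
    linarith
  have hS3 : S ≤ T * R ^ N * ((1 - l) ^ N)⁻¹ / (1 - ϑ / l ^ N) := by
    rw [le_div_iff₀ h1θ]
    linarith
  have h6 := (hle R le_rfl (by linarith)).trans hS3
  simp only [hF] at h6
  have e4 : 2 * R - R = R := by ring
  rw [e4] at h6
  have hRN : 0 < R ^ N := by positivity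
  refine le_of_mul_le_mul_right ?_ hRN
  refine h6.trans (le_of_eq ?_)
  ring

end Vale.Agent.P100
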