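import Vale.Agent.P100.Green

/-!
# P100 Eta: cutoffs at the origin

Plan.  `η y = φ (‖y - 0‖^2)` with `φ s = Real.smoothTransition (2 * s / ε^2 - 1)`; so `η = 0` for `‖y‖² ≤ ε²/2` (in particular on
`ball 0 (ε/2)`), `η = 1` for `‖y‖ ≥ ε`.  `deriv smoothTransition` and its derivative are continuous and vanish outside `[0,1]`, hence bounded by
some `M`; `pd_radial`, `lap_radial` give `|pd i η| ≤ 2 ε (2M/ε²)` and `|lap η| ≤ 2n (2M/ε²) + 4 ε² (4M/ε⁴)` on `‖y‖ ≤ ε`
(`|y i| ≤ ‖y‖`: `EuclideanSpace.norm_apply_le`/`PiLp.norm_apply_le`), and both vanish for `‖y‖ > ε` (`η = 1` nearby).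
`∫ lap η = 0`: `lap η = - lap (1 - η)` and `integral_lap_eq_zero`.
-/

open MeasureTheory Set Metric Filter Topology

noncomputable section

namespace Vale.Agent.P100

variable {n : ℕ}

private lemma eta_contDiff (c : ℝ) : ContDiff ℝ 2 fun s : ℝ => Real.smoothTransition (c * s - 1) :=
  Real.smoothTransition.contDiff.comp (by fun_prop)

private lemma eta_bound : ∃ M : ℝ, 0 ≤ M ∧ ∀ s ∈ Icc (-1 : ℝ) 1,
    |deriv Real.smoothTransition s| ≤ M ∧ |deriv (deriv Real.smoothTransition) s| ≤ M := by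
  have h : ContDiff ℝ 2 Real.smoothTransition := Real.smoothTransition.contDiff
  have h1 : ContDiff ℝ 1 (deriv Real.smoothTransition) := h.deriv'
  have h2 : Continuous (deriv (deriv Real.smoothTransition)) := h1.continuous_deriv le_rfl
  obtain ⟨M1, hM1⟩ := (isCompact_Icc (a := (-1 : ℝ)) (b := 1)).exists_bound_of_continuousOn
    h1.continuous.continuousOn
  obtain ⟨M2, hM2⟩ := (isCompact_Icc (a := (-1 : ℝ)) (b := 1)).exists_bound_of_continuousOn
    h2.continuousOn
  refine ⟨max (max M1 M2) 0, le_max_right _ _, fun s hs => ⟨?_, ?_⟩⟩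
  · exact (hM1 s hs).trans ((le_max_left _ _).trans (le_max_left _ _))
  · exact (hM2 s hs).trans ((le_max_right _ _).trans (le_max_left _ _))

private lemma eta_deriv (c : ℝ) : deriv (fun s : ℝ => Real.smoothTransition (c * s - 1)) =
    fun s => deriv Real.smoothTransition (c * s - 1) * c := by
  ext s
  have h : ContDiff ℝ 2 Real.smoothTransition := Real.smoothTransition.contDiff
  have h1 : HasDerivAt (fun s : ℝ => c * s - 1) c s := by
    simpa using ((hasDerivAt_id s).const_mul c).sub_const 1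
  exact ((h.differentiable (by norm_num) _).hasDerivAt.comp s h1).deriv

private lemma eta_deriv2 (c s : ℝ) :
    deriv (deriv (fun s : ℝ => Real.smoothTransition (c * s - 1))) s =
      deriv (deriv Real.smoothTransition) (c * s - 1) * c * c := by
  rw [eta_deriv]
  have h : ContDiff ℝ 2 Real.smoothTransition := Real.smoothTransition.contDiff
  have h' : ContDiff ℝ 1 (deriv Real.smoothTransition) := h.deriv'
  have h1 : HasDerivAt (fun s : ℝ => c * s - 1) c s := by
    simpa using ((hasDerivAt_id s).const_mul c).sub_const 1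
  exact (((h'.differentiable (by norm_num) _).hasDerivAt.comp s h1).mul_const c).deriv

theorem exists_eta (n : ℕ) : ∃ C : ℝ, 0 ≤ C ∧ ∀ ε : ℝ, 0 < ε → ∃ η : E n → ℝ, ContDiff ℝ 2 η ∧
    (∀ y, 0 ≤ η y ∧ η y ≤ 1) ∧ (∀ y, ‖y‖ < ε / 2 → η y = 0) ∧ (∀ y, ε ≤ ‖y‖ → η y = 1) ∧
    (∀ y i, |pd i η y| ≤ C / ε) ∧ (∀ y, |lap η y| ≤ C / ε ^ 2) ∧
    (∀ y i, ε < ‖y‖ → pd i η y = 0) ∧ (∀ y, ε < ‖y‖ → lap η y = 0) ∧ ∫ y, lap η y = 0 := by
  obtain ⟨M, hM0, hM⟩ := eta_bound
  refine ⟨(16 + 4 * n) * M, by positivity, fun ε hε => ?_⟩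
  set c : ℝ := 2 / ε ^ 2 with hc
  have hc0 : 0 < c := by positivity
  have hce : c * ε ^ 2 = 2 := by rw [hc]; field_simp
  let η : E n → ℝ := fun y => Real.smoothTransition (c * ‖y - 0‖ ^ 2 - 1)
  have hη : ContDiff ℝ 2 η := contDiff_radial (eta_contDiff c) 0
  have h1 : ∀ y, ε ≤ ‖y‖ → η y = 1 := by
    intro y hy
    apply Real.smoothTransition.one_of_one_le
    have : ε ^ 2 ≤ ‖y‖ ^ 2 := by gcongr
    rw [sub_zero]; nlinarith
  have hloc : ∀ y : E n, ε < ‖y‖ → η =ᶠ[𝓝 y] fun _ => 1 := by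
    intro y hy
    filter_upwards [continuous_norm.continuousAt.eventually (lt_mem_nhds hy)] with z hz
    exact h1 z hz.le
  have hpd0 : ∀ y i, ε < ‖y‖ → pd i η y = 0 := by
    intro y i hy
    rw [pd_congr (hloc y hy)]; simp [pd]
  have hlap0 : ∀ y, ε < ‖y‖ → lap η y = 0 := by
    intro y hy
    rw [lap_congr (hloc y hy), lap, InnerProductSpace.laplacian_const]; rfl
  have hmem : ∀ y : E n, ‖y‖ ≤ ε → c * ‖y - 0‖ ^ 2 - 1 ∈ Icc (-1 : ℝ) 1 := by
    intro y hy
    have h2 : ‖y‖ ^ 2 ≤ ε ^ 2 := by gcongr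
    have h3 : 0 ≤ c * ‖y‖ ^ 2 := by positivity
    rw [sub_zero]
    constructor <;> nlinarith
  have hn0 : (0 : ℝ) ≤ n := Nat.cast_nonneg n
  refine ⟨η, hη, fun y => ⟨Real.smoothTransition.nonneg _, Real.smoothTransition.le_one _⟩,
    fun y hy => ?_, h1, fun y i => ?_, fun y => ?_, hpd0, hlap0, ?_⟩
  · apply Real.smoothTransition.zero_of_nonpos
    have h2 : ‖y‖ ^ 2 ≤ (ε / 2) ^ 2 := by gcongr
    rw [sub_zero]; nlinarith
  · rcases lt_or_ge ε ‖y‖ with hy | hy
    · rw [hpd0 y i hy, abs_zero]; positivity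
    · have e := pd_radial (eta_contDiff c) 0 y i
      rw [eta_deriv] at e
      have e' : pd i η y = _ := e
      obtain ⟨b1, -⟩ := hM _ (hmem y hy)
      have h2 : |y i| ≤ ε := (PiLp.norm_apply_le y i).trans hy
      rw [e', abs_mul, abs_mul, abs_mul, abs_two, abs_of_pos hc0]
      simp only [PiLp.zero_apply, sub_zero] at b1 ⊢
      calc 2 * |y i| * (|deriv Real.smoothTransition (c * ‖y‖ ^ 2 - 1)| * c)
          ≤ 2 * ε * (M * c) := by gcongr
        _ = 4 * M / ε := by rw [hc]; field_simp; ring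
        _ ≤ (16 + 4 * n) * M / ε := by gcongr; linarith
  · rcases lt_or_ge ε ‖y‖ with hy | hy
    · rw [hlap0 y hy, abs_zero]; positivity
    · have e := lap_radial (eta_contDiff c) 0 y
      rw [eta_deriv2, eta_deriv] at e
      have e' : lap η y = _ := e
      obtain ⟨b1, b2⟩ := hM _ (hmem y hy)
      rw [e']
      refine (abs_add_le _ _).trans ?_
      simp only [sub_zero] at b1 b2 ⊢
      have h2 : ‖y‖ ^ 2 ≤ ε ^ 2 := by gcongr
      rw [abs_mul, abs_mul, abs_mul, abs_mul, abs_mul, abs_mul, abs_mul, abs_two, abs_of_pos hc0,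
        abs_of_nonneg hn0, abs_of_nonneg (sq_nonneg ‖y‖), abs_of_pos (by norm_num : (0 : ℝ) < 4)]
      calc 2 * n * (|deriv Real.smoothTransition (c * ‖y‖ ^ 2 - 1)| * c) +
            4 * ‖y‖ ^ 2 * (|deriv (deriv Real.smoothTransition) (c * ‖y‖ ^ 2 - 1)| * c * c)
          ≤ 2 * n * (M * c) + 4 * ε ^ 2 * (M * c * c) := by gcongr
        _ = (16 + 4 * n) * M / ε ^ 2 := by rw [hc]; field_simp; ring
  · have h2 : ContDiff ℝ 2 (fun y => η y - 1) := hη.sub contDiff_const
    have h3 : HasCompactSupport (fun y => η y - 1) := by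
      refine HasCompactSupport.intro (isCompact_closedBall (0 : E n) ε) fun y hy => ?_
      rw [h1 y (le_of_lt (by simpa using hy)), sub_self]
    rw [← integral_lap_eq_zero h2 h3]
    refine integral_congr_ae (Eventually.of_forall fun y => ?_)
    have h4 := hη.contDiffAt.laplacian_sub (f₂ := fun _ => (1 : ℝ)) (x := y) contDiffAt_const
    rw [InnerProductSpace.laplacian_const] at h4
    have h5 : lap (fun y => η y - 1) y = _ := h4
    show lap η y = lap (fun y => η y - 1) y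
    rw [h5, Pi.zero_apply, sub_zero, lap]

end Vale.Agent.P100
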