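import Vale.Agent.P100.Bump

/-!
# P100 Kernel: the Newton kernel as an integral of `Pk` (`n ≥ 3`)

Plan.  `κ₀ = ∫ t in Ioi 0, t/t^n * ph (1/t^2)`; the integrand vanishes on `(0,1]`, is continuous on `t > 0`, is `≤ t^(1-n)`
(`integrableOn_Ioi_rpow_of_lt`, `1 - n < -1`), and is positive for `t > 1`.  Scaling `t = ‖ζ‖ s`
(`integral_comp_mul_left_Ioi`, `integrableOn_Ioi_comp_mul_left_iff`).  `Ioi 0 = Ioo 0 s ∪ {s} ∪ Ioi s`.
Lipschitz bound of the tail: `lip_Pk` and `∫ t in Ioi s, t^(-n) = s^(1-n)/(n-1) ≤ s/s^n` (`integral_Ioi_rpow_of_lt`);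
`t ↦ Pk t ζ` is integrable on `Ioi s` for every `ζ` (also `ζ = 0`) since `0 ≤ Pk t ζ ≤ t^(1-n)`.
The limit: `intervalIntegral_tendsto_integral_Ioi` or `0 ≤ Tk s ζ ≤ s^2/s^n → 0`.
-/

open MeasureTheory Set Metric Filter Topology

noncomputable section

namespace Vale.Agent.P100

variable {n : ℕ}

private theorem kernel_meas (ζ : E n) : Measurable (fun t : ℝ => Pk t ζ) :=
  measurable_Pk.comp (measurable_id.prodMk measurable_const)

private theorem kernel_le {t : ℝ} (ht : 0 < t) (ζ : E n) : Pk t ζ ≤ t ^ (1 - (n : ℝ)) := by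
  rw [Real.rpow_sub ht, Real.rpow_one, Real.rpow_natCast, Pk]
  exact mul_le_of_le_one_right (by positivity) (ph_le_one (by positivity))

private theorem kernel_lt (hn : 3 ≤ n) : 1 - (n : ℝ) < -1 := by
  have : (3 : ℝ) ≤ n := by exact_mod_cast hn
  linarith

private theorem kernel_int (hn : 3 ≤ n) {s : ℝ} (hs : 0 < s) (ζ : E n) :
    IntegrableOn (fun t : ℝ => Pk t ζ) (Ioi s) := by
  refine (integrableOn_Ioi_rpow_of_lt (kernel_lt hn) hs).mono' (kernel_meas ζ).aestronglyMeasurable ?_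
  refine (ae_restrict_iff' measurableSet_Ioi).2 (Eventually.of_forall fun t ht => ?_)
  have ht0 : 0 < t := hs.trans ht
  rw [Real.norm_eq_abs, abs_of_nonneg (Pk_nonneg ht0 ζ)]
  exact kernel_le ht0 ζ

private theorem kernel_int0 (hn : 3 ≤ n) {ζ : E n} (hζ : ζ ≠ 0) :
    IntegrableOn (fun t : ℝ => Pk t ζ) (Ioi 0) := by
  have h0 : 0 < ‖ζ‖ := norm_pos_iff.2 hζ
  rw [← Ioc_union_Ioi_eq_Ioi h0.le]
  refine IntegrableOn.union ?_ (kernel_int hn h0 ζ)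
  refine (integrableOn_congr_fun (g := fun _ => 0) (fun t ht => Pk_eq_zero ht.1 ht.2)
    measurableSet_Ioc).2 integrableOn_zero

private theorem kernel_split (hn : 3 ≤ n) {ζ : E n} (hζ : ζ ≠ 0) {s : ℝ} (hs : 0 < s) :
    ∫ t in Ioi 0, Pk t ζ = kk s ζ + Tk s ζ := by
  have h := kernel_int0 hn hζ
  rw [kk, Tk, ← integral_Ioc_eq_integral_Ioo, ← setIntegral_union Ioc_disjoint_Ioi_same
    measurableSet_Ioi (h.mono_set Ioc_subset_Ioi_self) (h.mono_set (Ioi_subset_Ioi hs.le)),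
    Ioc_union_Ioi_eq_Ioi hs.le]

theorem measurable_Tk (s : ℝ) : Measurable (fun ζ : E n => Tk s ζ) := by
  have h : StronglyMeasurable (fun w : E n × ℝ => Pk w.2 w.1) :=
    (measurable_Pk.comp measurable_swap).stronglyMeasurable
  exact (h.integral_prod_right' (ν := volume.restrict (Ioi s))).measurable

theorem Tk_bound (hn : 3 ≤ n) {s : ℝ} (hs : 0 < s) (ζ : E n) : 0 ≤ Tk s ζ ∧ Tk s ζ ≤ s ^ 2 / s ^ n := by
  refine ⟨setIntegral_nonneg measurableSet_Ioi fun t ht => Pk_nonneg (hs.trans ht) ζ, ?_⟩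
  have h1 : Tk s ζ ≤ ∫ t in Ioi s, t ^ (1 - (n : ℝ)) :=
    setIntegral_mono_on (kernel_int hn hs ζ) (integrableOn_Ioi_rpow_of_lt (kernel_lt hn) hs)
      measurableSet_Ioi fun t ht => kernel_le (hs.trans ht) ζ
  rw [integral_Ioi_rpow_of_lt (kernel_lt hn) hs] at h1
  refine h1.trans ?_
  have h3 : (3 : ℝ) ≤ n := by exact_mod_cast hn
  have e : s ^ (1 - (n : ℝ) + 1) = s ^ 2 / s ^ n := by
    rw [show 1 - (n : ℝ) + 1 = ((2 : ℕ) : ℝ) - n by push_cast; ring, Real.rpow_sub hs,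
      Real.rpow_natCast, Real.rpow_natCast]
  rw [e, neg_div, ← div_neg]
  exact div_le_self (by positivity) (by linarith)

theorem lip_Tk (hn : 3 ≤ n) : ∃ L : ℝ, 0 ≤ L ∧ ∀ s : ℝ, 0 < s → ∀ ζ ζ' : E n,
    |Tk s ζ - Tk s ζ'| ≤ L * (s / s ^ n) * ‖ζ - ζ'‖ := by
  obtain ⟨L, hL, h⟩ := lip_Pk n
  refine ⟨L, hL, fun s hs ζ ζ' => ?_⟩
  have h3 : (3 : ℝ) ≤ n := by exact_mod_cast hn
  have hlt : -(n : ℝ) < -1 := by linarith
  have h1 : |Tk s ζ - Tk s ζ'| ≤ ∫ t in Ioi s, L * ‖ζ - ζ'‖ * t ^ (-(n : ℝ)) := by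
    rw [Tk, Tk, ← integral_sub (kernel_int hn hs ζ) (kernel_int hn hs ζ'), ← Real.norm_eq_abs]
    refine norm_integral_le_of_norm_le ((integrableOn_Ioi_rpow_of_lt hlt hs).const_mul _) ?_
    refine (ae_restrict_iff' measurableSet_Ioi).2 (Eventually.of_forall fun t ht => ?_)
    have ht0 : 0 < t := hs.trans ht
    rw [Real.norm_eq_abs, Real.rpow_neg ht0.le, Real.rpow_natCast]
    exact (h t ht0 ζ ζ').trans (le_of_eq (by ring))
  rw [integral_const_mul, integral_Ioi_rpow_of_lt hlt hs] at h1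
  refine h1.trans ?_
  have e : s ^ (-(n : ℝ) + 1) = s / s ^ n := by
    rw [show -(n : ℝ) + 1 = 1 - n by ring, Real.rpow_sub hs, Real.rpow_one, Real.rpow_natCast]
  have h2 : -s ^ (-(n : ℝ) + 1) / (-(n : ℝ) + 1) ≤ s / s ^ n := by
    rw [e, neg_div, ← div_neg]
    exact div_le_self (by positivity) (by linarith)
  have := mul_le_mul_of_nonneg_left h2 (by positivity : 0 ≤ L * ‖ζ - ζ'‖)
  linarith

theorem exists_kappa (hn : 3 ≤ n) : ∃ κ : ℝ, 0 < κ ∧ ∀ ζ : E n, ζ ≠ 0 →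
    (∀ s : ℝ, 0 < s → Kr κ ζ = kk s ζ + Tk s ζ) ∧ MonotoneOn (fun s => kk s ζ) (Ioi 0) ∧
    Tendsto (fun s => kk s ζ) atTop (𝓝 (Kr κ ζ)) := by
  obtain ⟨g, hg⟩ : ∃ g : ℝ → ℝ, g = fun t => t / t ^ n * ph (1 / t ^ 2) := ⟨_, rfl⟩
  have h3 : (3 : ℝ) ≤ n := by exact_mod_cast hn
  have hsc : ∀ ζ : E n, ζ ≠ 0 →
      ∫ t in Ioi 0, Pk t ζ = (∫ t in Ioi 0, g t) * ‖ζ‖ ^ (2 - (n : ℝ)) := by
    intro ζ hζ
    have h0 : 0 < ‖ζ‖ := norm_pos_iff.2 hζ
    have h1 := integral_comp_mul_left_Ioi (fun t => Pk t ζ) 0 h0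
    rw [mul_zero, smul_eq_mul] at h1
    have h2 : ∫ t in Ioi (0 : ℝ), Pk (‖ζ‖ * t) ζ = ∫ t in Ioi 0, ‖ζ‖ / ‖ζ‖ ^ n * g t := by
      refine setIntegral_congr_fun measurableSet_Ioi fun t ht => ?_
      have ht0 : (0 : ℝ) < t := ht
      have e : ‖ζ‖ ^ 2 / (‖ζ‖ * t) ^ 2 = 1 / t ^ 2 := by field_simp
      simp only [Pk, hg, e, mul_pow]
      field_simp
    have e : ‖ζ‖ ^ (2 - (n : ℝ)) = ‖ζ‖ ^ 2 / ‖ζ‖ ^ n := by
      rw [show 2 - (n : ℝ) = ((2 : ℕ) : ℝ) - n by push_cast; ring, Real.rpow_sub h0,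
        Real.rpow_natCast, Real.rpow_natCast]
    rw [h2, integral_const_mul] at h1
    rw [e, ← (eq_inv_mul_iff_mul_eq₀ h0.ne').1 h1]
    ring
  refine ⟨∫ t in Ioi 0, g t, ?_, fun ζ hζ => ?_⟩
  · obtain ⟨ζ, hζ⟩ : ∃ ζ : E n, ‖ζ‖ = 1 :=
      ⟨EuclideanSpace.single ⟨0, by omega⟩ 1, by simp⟩
    have hζ0 : ζ ≠ 0 := by
      rintro rfl
      simp at hζ
    have h1 := hsc ζ hζ0
    rw [hζ, Real.one_rpow, mul_one] at h1
    rw [← h1]
    have hi := kernel_int0 hn hζ0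
    have hsub : Ioc (2 : ℝ) 3 ⊆ Ioi 0 := fun t ht => lt_trans two_pos ht.1
    have h2 : ∫ t in Ioc (2 : ℝ) 3, Pk t ζ ≤ ∫ t in Ioi 0, Pk t ζ :=
      setIntegral_mono_set hi ((ae_restrict_iff' measurableSet_Ioi).2
        (Eventually.of_forall fun t ht => Pk_nonneg ht ζ)) hsub.eventuallyLE
    refine lt_of_lt_of_le ?_ h2
    have h4 : ∫ _t in Ioc (2 : ℝ) 3, (2 / 3 ^ n * (1 / 8) : ℝ) ≤ ∫ t in Ioc (2 : ℝ) 3, Pk t ζ := by
      refine setIntegral_mono_on (continuous_const.integrableOn_Ioc) (hi.mono_set hsub)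
        measurableSet_Ioc fun t ht => ?_
      have ht0 : (0 : ℝ) < t := lt_trans two_pos ht.1
      rw [Pk, hζ]
      refine mul_le_mul (div_le_div₀ ht0.le ht.1.le (by positivity)
        (pow_le_pow_left₀ ht0.le ht.2 n)) (ph_ge ?_) (by norm_num) (by positivity)
      rw [div_le_iff₀ (by positivity)]
      nlinarith [ht.1]
    refine lt_of_lt_of_le ?_ h4
    rw [setIntegral_const]
    norm_num
  · have hK : ∀ s : ℝ, 0 < s → Kr (∫ t in Ioi 0, g t) ζ = kk s ζ + Tk s ζ := fun s hs => by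
      rw [Kr, ← hsc ζ hζ, kernel_split hn hζ hs]
    refine ⟨hK, fun s _ s' _ hss => ?_, ?_⟩
    · refine setIntegral_mono_set ((kernel_int0 hn hζ).mono_set Ioo_subset_Ioi_self)
        ((ae_restrict_iff' measurableSet_Ioo).2 (Eventually.of_forall fun t ht => Pk_nonneg ht.1 ζ))
        (Ioo_subset_Ioo_right hss).eventuallyLE
    · have h1 := intervalIntegral_tendsto_integral_Ioi 0 (kernel_int0 hn hζ) tendsto_id
      rw [Kr, ← hsc ζ hζ]
      refine h1.congr' ?_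
      filter_upwards [eventually_gt_atTop 0] with s hs
      rw [id, intervalIntegral.integral_of_le hs.le, integral_Ioc_eq_integral_Ioo, kk]

end Vale.Agent.P100
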