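import Vale.Agent.P100.Rep
import Vale.Agent.P100.Kernel
import Vale.Agent.P100.Basic

/-!
# P100 RepCons: the package `RepP`

Plan.  `κ = κ₀ / mass n` with `κ₀` from `exists_kappa`; note `Kr κ (x - z) = Kr κ₀ (z - x) / mass n` (`Kr_sub_comm`).
* `intK`, `leK`: `∫ kk s (y-x) f y ≤ mass u x` for all `s` (`rep`, first term `≥ 0`); monotone convergence along `s = k+1`
  (`lintegral_tendsto_of_tendsto_of_monotone` / `integrable_of_monotone...`; or Fatou `lintegral_liminf_le`), a.e. `y ≠ x`.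
* `locf`: on `ball 0 ρ`, `z ≠ 0`: `Kr κ (0 - z) ≥ κ ρ^(2-n)`.
* `mean`: `rep` with `s = 2ρ`; `Rk s ≥ s^(-n)` on the ball (`rh_ge`), so `C ≥ 2^n mass n` works.
* `lip`: for `y ∈ ball 0 (r - d)` use `rep` with `s = d`: `Rk d (z-y)` and `kk d (z-y)` vanish for `z ∉ ball 0 r`, and
  `Kr κ₀ = kk d + Tk d` a.e., so `u y - ∫_{ball} Kr f = (∫_{ball} Rk d (z-y) u z - ∫_{ball} Tk d (z-y) f z)/mass n`;
  then `lip_Rk`, `lip_Tk` (`Tk d` is bounded and measurable, `f` integrable on the ball).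
Take `C = max (2^n mass n) ((L₁ + L₂)/mass n + 1)`.
-/

open MeasureTheory Set Metric Filter Topology

noncomputable section

namespace Vale.Agent.P100

variable {n : ℕ}

private lemma repc_int (hn : 3 ≤ n) {κ : ℝ} (hκ : 0 < κ)
    (hk : ∀ ζ : E n, ζ ≠ 0 → Tendsto (fun s => kk s ζ) atTop (𝓝 (Kr κ ζ)))
    {u f : E n → ℝ} (h : Sup u f) (x : E n) :
    Integrable (fun y => Kr κ (y - x) * f y) ∧ ∫ y, Kr κ (y - x) * f y ≤ mass n * u x := by
  have : Nontrivial (E n) := by
    apply Module.nontrivial_of_finrank_pos (R := ℝ); simp; omega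
  have hn2 : 2 ≤ n := by omega
  have hpos : ∀ k : ℕ, (0 : ℝ) < k + 1 := fun k => by positivity
  have hnn : ∀ (s : ℝ) y, 0 ≤ kk s (y - x) * f y := fun s y => mul_nonneg (kk_nonneg _ _) (h.nf y)
  have hnn' : ∀ y, 0 ≤ Kr κ (y - x) * f y := fun y => mul_nonneg (Kr_nonneg hκ.le _) (h.nf y)
  have hb : ∀ k : ℕ, ∫⁻ y, ENNReal.ofReal (kk (k + 1) (y - x) * f y) ≤
      ENNReal.ofReal (mass n * u x) := by
    intro k
    obtain ⟨h1, h2⟩ := rep hn2 h x (hpos k)
    rw [← ofReal_integral_eq_lintegral_ofReal h1 (Eventually.of_forall (hnn _))]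
    apply ENNReal.ofReal_le_ofReal
    have : 0 ≤ ∫ y, Rk ((k : ℝ) + 1) (y - x) * u y :=
      integral_nonneg fun y => mul_nonneg (Rk_nonneg (hpos k) _) (h.pos y).le
    linarith
  have hm : ∀ s : ℝ, Measurable fun y => kk s (y - x) * f y := fun s =>
    ((measurable_kk s).comp (measurable_id.sub_const x)).mul h.mf
  have hm' : Measurable fun y => Kr κ (y - x) * f y :=
    ((measurable_Kr κ).comp (measurable_id.sub_const x)).mul h.mf
  have f1 : ∫⁻ y, ENNReal.ofReal (Kr κ (y - x) * f y) =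
      ∫⁻ y, liminf (fun k : ℕ => ENNReal.ofReal (kk (k + 1) (y - x) * f y)) atTop := by
    refine lintegral_congr_ae ?_
    filter_upwards [compl_mem_ae_iff.2 (measure_singleton x)] with y hy
    have h1 := ((hk (y - x) (sub_ne_zero.2 hy)).comp
      (tendsto_atTop_add_const_right atTop 1 tendsto_natCast_atTop_atTop)).mul_const (f y)
    exact (ENNReal.tendsto_ofReal h1).liminf_eq.symm
  have f2 := lintegral_liminf_le (μ := volume) (u := atTop)
    (f := fun (k : ℕ) y => ENNReal.ofReal (kk (k + 1) (y - x) * f y))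
    fun k => (hm _).ennreal_ofReal
  have f3 : ∫⁻ y, ENNReal.ofReal (Kr κ (y - x) * f y) ≤ ENNReal.ofReal (mass n * u x) := by
    rw [f1]
    exact f2.trans (liminf_le_of_frequently_le' (Frequently.of_forall hb))
  have hint : Integrable (fun y => Kr κ (y - x) * f y) := by
    refine ⟨hm'.aestronglyMeasurable, ?_⟩
    rw [hasFiniteIntegral_iff_ofReal (Eventually.of_forall hnn')]
    exact f3.trans_lt ENNReal.ofReal_lt_top
  refine ⟨hint, ?_⟩
  rw [← ofReal_integral_eq_lintegral_ofReal hint (Eventually.of_forall hnn')] at f3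
  exact (ENNReal.ofReal_le_ofReal_iff (mul_pos (mass_pos n) (h.pos x)).le).1 f3

private lemma repc_loc (hn : 3 ≤ n) {κ : ℝ} (hκ : 0 < κ) {f : E n → ℝ} (hf : Measurable f)
    (h0 : ∀ y, 0 ≤ f y) (hi : Integrable (fun y => Kr κ (y - 0) * f y)) (ρ : ℝ) :
    IntegrableOn f (ball 0 ρ) := by
  have : Nontrivial (E n) := by
    apply Module.nontrivial_of_finrank_pos (R := ℝ); simp; omega
  rcases le_or_gt ρ 0 with hρ | hρ
  · rw [ball_eq_empty.2 hρ]; exact integrableOn_empty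
  have hc : 0 < κ * ρ ^ (2 - (n : ℝ)) := by positivity
  refine Integrable.mono' ((hi.const_mul (κ * ρ ^ (2 - (n : ℝ)))⁻¹).integrableOn)
    hf.aestronglyMeasurable ?_
  filter_upwards [ae_restrict_mem measurableSet_ball,
    ae_restrict_of_ae (compl_mem_ae_iff.2 (measure_singleton (0 : E n)))] with y hy hy0
  have hy1 : ‖y‖ < ρ := by simpa using hy
  have hy2 : 0 < ‖y‖ := norm_pos_iff.2 hy0
  have hn' : (3 : ℝ) ≤ n := by exact_mod_cast hn
  have h1 : κ * ρ ^ (2 - (n : ℝ)) ≤ Kr κ (y - 0) := by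
    rw [sub_zero, Kr]
    exact mul_le_mul_of_nonneg_left (Real.rpow_le_rpow_of_nonpos hy2 hy1.le (by linarith)) hκ.le
  rw [Real.norm_of_nonneg (h0 y), ← mul_assoc]
  refine le_mul_of_one_le_left (h0 y) ?_
  rw [inv_mul_eq_div, one_le_div hc]
  exact h1

private lemma repc_mean (hn : 2 ≤ n) {u f : E n → ℝ} (h : Sup u f) (x : E n) {ρ : ℝ}
    (hρ : 0 < ρ) : ∫ y in ball x ρ, u y ≤ 2 ^ n * mass n * ρ ^ n * u x := by
  have h2ρ : 0 < 2 * ρ := by positivity
  obtain ⟨-, h2⟩ := rep hn h x h2ρ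
  have h3 : 0 ≤ ∫ y, kk (2 * ρ) (y - x) * f y :=
    integral_nonneg fun y => mul_nonneg (kk_nonneg _ _) (h.nf y)
  have hi := integrable_Rk_mul h2ρ x h.cu
  have hu : IntegrableOn u (ball x ρ) :=
    (h.cu.continuousOn.integrableOn_compact (isCompact_closedBall x ρ)).mono_set
      ball_subset_closedBall
  have h4 : ∫ y in ball x ρ, ((2 * ρ) ^ n)⁻¹ * u y ≤ ∫ y in ball x ρ, Rk (2 * ρ) (y - x) * u y := by
    refine setIntegral_mono_on (hu.const_mul _) hi.integrableOn measurableSet_ball fun y hy => ?_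
    have hy1 : ‖y - x‖ < ρ := by rwa [mem_ball, dist_eq_norm] at hy
    have h5 : 1 ≤ rh (‖y - x‖ ^ 2 / (2 * ρ) ^ 2) := by
      apply rh_ge
      rw [div_le_iff₀ (by positivity)]
      have : ‖y - x‖ ^ 2 ≤ ρ ^ 2 := by gcongr
      nlinarith
    have := (h.pos y).le
    unfold Rk
    gcongr
    exact le_mul_of_one_le_right (by positivity) h5
  have h5 : ∫ y in ball x ρ, Rk (2 * ρ) (y - x) * u y ≤ ∫ y, Rk (2 * ρ) (y - x) * u y :=
    setIntegral_le_integral hi
      (Eventually.of_forall fun y => mul_nonneg (Rk_nonneg h2ρ _) (h.pos y).le)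
  rw [integral_const_mul] at h4
  have h6 : ((2 * ρ) ^ n)⁻¹ * ∫ y in ball x ρ, u y ≤ mass n * u x := by linarith
  rw [inv_mul_le_iff₀ (by positivity)] at h6
  calc _ ≤ (2 * ρ) ^ n * (mass n * u x) := h6
    _ = _ := by rw [mul_pow]; ring

private lemma repc_form (hn : 3 ≤ n) {κ : ℝ}
    (hk : ∀ ζ : E n, ζ ≠ 0 → ∀ s : ℝ, 0 < s → Kr κ ζ = kk s ζ + Tk s ζ)
    {u f : E n → ℝ} (h : Sup u f) {r d : ℝ} (hd : 0 < d) (hf : IntegrableOn f (ball 0 r))
    {y : E n} (hy : y ∈ ball (0 : E n) (r - d)) :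
    IntegrableOn (fun z => Tk d (z - y) * f z) (ball 0 r) ∧
    mass n * u y - ∫ z in ball 0 r, Kr κ (z - y) * f z =
      (∫ z in ball 0 r, Rk d (z - y) * u z) - ∫ z in ball 0 r, Tk d (z - y) * f z := by
  have : Nontrivial (E n) := by
    apply Module.nontrivial_of_finrank_pos (R := ℝ); simp; omega
  obtain ⟨h1, h2⟩ := rep (by omega) h y hd
  have hy1 : ‖y‖ < r - d := by simpa using hy
  have hfar : ∀ z, z ∉ ball (0 : E n) r → d ≤ ‖z - y‖ := by
    intro z hz
    have h3 : r ≤ ‖z‖ := by simpa using hz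
    have := norm_sub_norm_le z y
    linarith
  have hT : IntegrableOn (fun z => Tk d (z - y) * f z) (ball 0 r) := by
    refine Integrable.bdd_mul (c := d ^ 2 / d ^ n) hf
      ((measurable_Tk d).comp (measurable_id.sub_const y)).aestronglyMeasurable
      (Eventually.of_forall fun z => ?_)
    rw [Real.norm_of_nonneg (Tk_bound hn hd _).1]
    exact (Tk_bound hn hd _).2
  refine ⟨hT, ?_⟩
  have e1 : ∫ z in ball 0 r, Rk d (z - y) * u z = ∫ z, Rk d (z - y) * u z :=
    setIntegral_eq_integral_of_forall_compl_eq_zero fun z hz => by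
      rw [Rk_eq_zero hd (hfar z hz), zero_mul]
  have e2 : ∫ z in ball 0 r, kk d (z - y) * f z = ∫ z, kk d (z - y) * f z :=
    setIntegral_eq_integral_of_forall_compl_eq_zero fun z hz => by
      rw [kk_eq_zero (hfar z hz), zero_mul]
  have e3 : ∫ z in ball 0 r, Kr κ (z - y) * f z =
      (∫ z in ball 0 r, kk d (z - y) * f z) + ∫ z in ball 0 r, Tk d (z - y) * f z := by
    rw [← integral_add h1.integrableOn hT]
    refine integral_congr_ae ?_
    filter_upwards [ae_restrict_of_ae (compl_mem_ae_iff.2 (measure_singleton y))] with z hz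
    rw [hk (z - y) (sub_ne_zero.2 hz) d hd]; ring
  rw [e3, e1, e2, h2]; ring

private lemma repc_diff {s : Set (E n)} {a b g : E n → ℝ} {L : ℝ}
    (ha : IntegrableOn (fun z => a z * g z) s) (hb : IntegrableOn (fun z => b z * g z) s)
    (hg : IntegrableOn g s) (h0 : ∀ z, 0 ≤ g z) (hL : ∀ z, |a z - b z| ≤ L) :
    |(∫ z in s, a z * g z) - ∫ z in s, b z * g z| ≤ L * ∫ z in s, g z := by
  rw [← integral_sub ha hb, ← integral_const_mul]
  refine (abs_integral_le_integral_abs).trans ?_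
  refine integral_mono (ha.sub hb).abs (hg.const_mul L) fun z => ?_
  show |a z * g z - b z * g z| ≤ L * g z
  rw [← sub_mul, abs_mul, abs_of_nonneg (h0 z)]
  exact mul_le_mul_of_nonneg_right (hL z) (h0 z)

theorem exists_rep (hn : 3 ≤ n) : ∃ κ C : ℝ, 0 < κ ∧ 0 < C ∧
    ∀ u f : E n → ℝ, Sup u f → RepP κ C u f := by
  obtain ⟨κ, hκ, hk⟩ := exists_kappa hn
  obtain ⟨L1, hL1, hR⟩ := lip_Rk n
  obtain ⟨L2, hL2, hT⟩ := lip_Tk hn
  have hm := mass_pos n
  have hn2 : 2 ≤ n := by omega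
  have hK : ∀ x z : E n, Kr (κ / mass n) (x - z) = (mass n)⁻¹ * Kr κ (z - x) := by
    intro x z
    rw [Kr_sub_comm]; unfold Kr; ring
  refine ⟨κ / mass n, 2 ^ n * mass n + (L1 + L2) / mass n, by positivity, by positivity,
    fun u f h => ?_⟩
  have hI := repc_int hn hκ (fun ζ hζ => (hk ζ hζ).2.2) h
  have hloc := repc_loc hn hκ h.mf h.nf (hI 0).1
  refine ⟨hloc, fun x => ?_, fun x => ?_, fun x ρ hρ => ?_, fun r d hd y hy y' hy' => ?_⟩
  · simp_rw [hK, mul_assoc]
    exact (hI x).1.const_mul _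
  · simp_rw [hK, mul_assoc]
    rw [integral_const_mul, inv_mul_le_iff₀ hm]
    exact (hI x).2
  · refine (repc_mean hn2 h x hρ).trans ?_
    have := (h.pos x).le
    gcongr
    exact le_add_of_nonneg_right (by positivity)
  · obtain ⟨t1, e1⟩ := repc_form hn (fun ζ hζ => (hk ζ hζ).1) h hd (hloc r) hy
    obtain ⟨t2, e2⟩ := repc_form hn (fun ζ hζ => (hk ζ hζ).1) h hd (hloc r) hy'
    have hu : IntegrableOn u (ball 0 r) :=
      (h.cu.continuousOn.integrableOn_compact (isCompact_closedBall 0 r)).mono_set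
        ball_subset_closedBall
    have hyy : ∀ z : E n, ‖(z - y) - (z - y')‖ = ‖y - y'‖ := fun z => by
      rw [sub_sub_sub_cancel_left, norm_sub_rev]
    have d1 := repc_diff (s := ball 0 r) (L := L1 * (d ^ (n + 1))⁻¹ * ‖y - y'‖)
      (integrable_Rk_mul hd y h.cu).integrableOn (integrable_Rk_mul hd y' h.cu).integrableOn hu
      (fun z => (h.pos z).le) (fun z => by rw [← hyy z]; exact hR d hd _ _)
    have d2 := repc_diff (s := ball 0 r) (L := L2 * (d / d ^ n) * ‖y - y'‖) t1 t2 (hloc r) h.nf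
      (fun z => by rw [← hyy z]; exact hT d hd _ _)
    simp_rw [hK, mul_assoc]
    rw [integral_const_mul, integral_const_mul]
    set U := ∫ z in ball (0 : E n) r, u z
    set F := ∫ z in ball (0 : E n) r, f z
    have hU : 0 ≤ U := integral_nonneg fun z => (h.pos z).le
    have hF : 0 ≤ F := integral_nonneg h.nf
    have e3 : (u y - (mass n)⁻¹ * ∫ z in ball 0 r, Kr κ (z - y) * f z) -
        (u y' - (mass n)⁻¹ * ∫ z in ball 0 r, Kr κ (z - y') * f z) =
        (mass n)⁻¹ * (((∫ z in ball 0 r, Rk d (z - y) * u z) - ∫ z in ball 0 r, Rk d (z - y') * u z)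
          - ((∫ z in ball 0 r, Tk d (z - y) * f z) - ∫ z in ball 0 r, Tk d (z - y') * f z)) := by
      have : ((∫ z in ball 0 r, Rk d (z - y) * u z) - ∫ z in ball 0 r, Rk d (z - y') * u z)
          - ((∫ z in ball 0 r, Tk d (z - y) * f z) - ∫ z in ball 0 r, Tk d (z - y') * f z) =
          (mass n * u y - ∫ z in ball 0 r, Kr κ (z - y) * f z) -
          (mass n * u y' - ∫ z in ball 0 r, Kr κ (z - y') * f z) := by rw [e1, e2]; ring
      rw [this]; field_simp
    rw [e3, abs_mul, abs_of_pos (inv_pos.2 hm)]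
    set X := (d ^ (n + 1))⁻¹ * U * ‖y - y'‖ with hX
    set Y := d / d ^ n * F * ‖y - y'‖ with hY
    have hX0 : 0 ≤ X := by positivity
    have hY0 : 0 ≤ Y := by positivity
    have b1 := (abs_sub _ _).trans (add_le_add d1 d2)
    have b2 : L1 * (d ^ (n + 1))⁻¹ * ‖y - y'‖ * U + L2 * (d / d ^ n) * ‖y - y'‖ * F ≤
        (L1 + L2) * (X + Y) := by
      have : L1 * (d ^ (n + 1))⁻¹ * ‖y - y'‖ * U + L2 * (d / d ^ n) * ‖y - y'‖ * F =
          L1 * X + L2 * Y := by rw [hX, hY]; ring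
      rw [this]
      nlinarith [mul_nonneg hL1 hY0, mul_nonneg hL2 hX0]
    calc _ ≤ (mass n)⁻¹ * ((L1 + L2) * (X + Y)) := by gcongr; exact b1.trans b2
      _ = (L1 + L2) / mass n * (X + Y) := by ring
      _ ≤ (2 ^ n * mass n + (L1 + L2) / mass n) * (X + Y) := by
        gcongr; exact le_add_of_nonneg_left (by positivity)
      _ = _ := by rw [hX, hY]; ring

end Vale.Agent.P100
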