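import Vale.Agent.P100.Step
import Vale.Agent.P100.Decay
import Vale.Agent.P100.RepCons

/-!
# P100 Final
-/

open MeasureTheory Set Metric Filter Topology

noncomputable section

namespace Vale.Agent.P100

variable {n : ℕ}

theorem main_three (hn : 3 ≤ n) {A B p q : ℝ} (hp : 0 < p) (hq : 0 < q)
    (hsub : (n : ℝ) - 2 < (n + A) / (p + 1) + (n + B) / (q + 1)) {u v : E n → ℝ}
    (hu : Sup u (fw A p v)) (hv : Sup v (fw B q u)) : False := by
  obtain ⟨κ, C₀, hκ, hC₀, hrep⟩ := exists_rep hn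
  have hu' := hrep _ _ hu
  have hv' := hrep _ _ hv
  have nu : Nice u := ⟨hu.cu, hu.du, hu.pos⟩
  have nv : Nice v := ⟨hv.cu, hv.du, hv.pos⟩
  have hA : -2 < A := neg_two_lt hn hκ hp nv hu'
  have hB : -2 < B := neg_two_lt hn hκ hq nu hv'
  obtain ⟨c₁, hc₁, h₁⟩ := mn_lower hn hκ hC₀ A hp nu nv hu'
  obtain ⟨c₂, hc₂, h₂⟩ := mn_lower hn hκ hC₀ B hq nv nu hv'
  have hdec := decay (m := (n : ℝ)) (a₀ := u 0) hp hq hA hB hc₁ hc₂ hsub
    (a := mn u) (b := mn v) (fun R hR => mn_pos nu hR.le) (fun R hR => mn_pos nv hR.le)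
    (fun R hR => mn_le_zero nu hR.le) h₁ h₂
  obtain ⟨ϑ, C, N, h0, h1, hC, hstep⟩ := step hn hA hB hp hq hκ hC₀ hsub nu nv hu' hv'
  obtain ⟨C', hC', hit⟩ := iterate h0 h1 N
  have hn3 : (3 : ℝ) ≤ n := by exact_mod_cast hn
  have hA' : (0 : ℝ) < n + A := by linarith
  have hB' : (0 : ℝ) < n + B := by linarith
  have hmono : Monotone (En2 A B p q u v) := by
    intro r r' h
    unfold En2
    have e1 := En_mono hn hA hp nv h
    have e2 := En_mono hn hB hq nu h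
    nlinarith [mul_le_mul_of_nonneg_left e1 hA'.le, mul_le_mul_of_nonneg_left e2 hB'.le]
  have hnn : ∀ r, 0 ≤ En2 A B p q u v r := fun r =>
    add_nonneg (mul_nonneg hA'.le (En_nonneg A hp nv r)) (mul_nonneg hB'.le (En_nonneg B hq nu r))
  have hpos : 0 < En2 A B p q u v 1 :=
    add_pos (mul_pos hA' (En_pos hn hA hp nv)) (mul_pos hB' (En_pos hn hB hq nu))
  have hb : ∀ R : ℝ, 1 ≤ R →
      En2 A B p q u v 1 ≤ C' * C * (R ^ ((n : ℝ) - 2) * mn u R * mn v R) := by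
    intro R hR
    have hR0 : 0 < R := by linarith
    have hT : 0 ≤ C * (R ^ ((n : ℝ) - 2) * mn u R * mn v R) :=
      mul_nonneg hC (mul_nonneg (mul_nonneg (Real.rpow_nonneg hR0.le _) (mn_pos nu hR0.le).le)
        (mn_pos nv hR0.le).le)
    have := hit (En2 A B p q u v) R _ (En2 A B p q u v (2 * R)) hR0 hT
      (fun r _ h2 => ⟨hnn r, hmono h2⟩) (fun r d a b c => hstep R r d a b c)
    calc En2 A B p q u v 1 ≤ En2 A B p q u v R := hmono hR
      _ ≤ _ := this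
      _ = _ := by ring
  have hlim : Tendsto (fun R : ℝ => C' * C * (R ^ ((n : ℝ) - 2) * mn u R * mn v R)) atTop
      (𝓝 (C' * C * 0)) := hdec.const_mul _
  have : En2 A B p q u v 1 ≤ C' * C * 0 :=
    ge_of_tendsto hlim (Filter.eventually_atTop.2 ⟨1, hb⟩)
  linarith

theorem main (n : ℕ) (hn : 2 ≤ n) (p q A B : ℝ) (hp : 0 < p) (hq : 0 < q)
    (hsub : ((n : ℝ) + A) / (p + 1) + ((n : ℝ) + B) / (q + 1) > (n : ℝ) - 2)
    (u v : E n → ℝ) (cu : Continuous u) (cv : Continuous v) (du : ContDiffOn ℝ 2 u {0}ᶜ)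
    (dv : ContDiffOn ℝ 2 v {0}ᶜ) (pu : ∀ x, 0 < u x) (pv : ∀ x, 0 < v x)
    (eu : ∀ x, x ≠ 0 → -Laplacian.laplacian u x = ‖x‖ ^ A * v x ^ p)
    (ev : ∀ x, x ≠ 0 → -Laplacian.laplacian v x = ‖x‖ ^ B * u x ^ q) : False := by
  have hu : Sup u (fw A p v) := ⟨cu, du, pu, measurable_fw A p cv, fw_nonneg A p pv, eu⟩
  have hv : Sup v (fw B q u) := ⟨cv, dv, pv, measurable_fw B q cu, fw_nonneg B q pu, ev⟩
  rcases hn.eq_or_lt with h2 | h3
  · subst h2
    exact no_two hu fun x hx =>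
      mul_pos (Real.rpow_pos_of_pos (norm_pos_iff.2 hx) _) (Real.rpow_pos_of_pos (pv x) _)
  · exact main_three h3 hp hq hsub hu hv

end Vale.Agent.P100
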