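import Vale.Agent.P100.Defs

/-!
# P100 Flow: integration along a measurable flow

Plan.  `lintegral_comp`: `lintegral_map` with `jac` (each `φ t` is measurable: `hF.meas.comp (measurable_prodMk_left)`).
`integral_comp`: `integrable_map_measure`, `integral_map`, `integrable_smul_measure`, `integral_smul_measure`.
`ae_lintegral_lt_top`: Tonelli (`lintegral_lintegral_swap`): `∫⁻ x ∫⁻ t in Ioo a b, W (φ t x) = ∫⁻ t in Ioo a b, exp(-mt) ∫⁻ W < ∞`
(`exp (-(m t)) ≤ exp (|m| (|a|+|b|))`), then `ae_lt_top`.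
`integrable_prod`: `(t,x) ↦ H (φ t x) exp (m t)` is integrable for `(volume.restrict (Ioo a b)).prod μ` (`integrable_prod_iff`).
`integral_eq_zero`: `∫ H = ∫ t in Ioo 0 1, ∫ x, H (φ t x) e^(mt) = ∫ x, ∫ t in Ioo 0 1, … = ∫ x, (G (φ 1 x) e^m - G x) = 0`
(`intervalIntegral.integral_eq_sub_of_hasDerivAt`, interval integrability from `ae_integrableOn`).
`null_of_ae`: the same computation with the indicator of `Z` in `ℝ≥0∞`.
-/

open MeasureTheory Set Metric Filter Topology

noncomputable section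

namespace Vale.Agent.P100

variable {X : Type*} [MeasurableSpace X] {μ : Measure X} [SFinite μ] {φ : ℝ → X → X} {m : ℝ}

omit [SFinite μ] in
theorem Flow.measurable (hF : Flow μ φ m) (t : ℝ) : Measurable (φ t) := by
  exact hF.meas.comp (measurable_prodMk_left (x := t))

omit [SFinite μ] in
theorem Flow.lintegral_comp (hF : Flow μ φ m) {W : X → ENNReal} (hW : Measurable W) (t : ℝ) :
    ∫⁻ x, W (φ t x) * ENNReal.ofReal (Real.exp (m * t)) ∂μ = ∫⁻ x, W x ∂μ := by
  have h1 : ∫⁻ x, W (φ t x) ∂μ = ENNReal.ofReal (Real.exp (-(m * t))) * ∫⁻ x, W x ∂μ := by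
    rw [← lintegral_map hW (hF.measurable t), hF.jac, lintegral_smul_measure, smul_eq_mul]
  rw [lintegral_mul_const' _ _ ENNReal.ofReal_ne_top, h1, mul_right_comm,
    ← ENNReal.ofReal_mul (Real.exp_pos _).le, ← Real.exp_add]
  simp

omit [SFinite μ] in
theorem Flow.integral_comp (hF : Flow μ φ m) {G : X → ℝ} (hG : Integrable G μ) (t : ℝ) :
    Integrable (fun x => G (φ t x) * Real.exp (m * t)) μ ∧
      ∫ x, G (φ t x) * Real.exp (m * t) ∂μ = ∫ x, G x ∂μ := by
  have h1 : Integrable G (μ.map (φ t)) := by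
    rw [hF.jac]
    exact hG.smul_measure ENNReal.ofReal_ne_top
  have hm := (hF.measurable t).aemeasurable (μ := μ)
  refine ⟨((integrable_map_measure h1.aestronglyMeasurable hm).1 h1).mul_const _, ?_⟩
  rw [integral_mul_const, ← integral_map hm h1.aestronglyMeasurable, hF.jac, integral_smul_measure,
    ENNReal.toReal_ofReal (Real.exp_pos _).le, smul_eq_mul, mul_right_comm, ← Real.exp_add]
  simp

theorem Flow.ae_lintegral_lt_top (hF : Flow μ φ m) {W : X → ENNReal} (hW : Measurable W)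
    (hfin : ∫⁻ x, W x ∂μ < ⊤) (a b : ℝ) : ∀ᵐ x ∂μ, ∫⁻ t in Ioo a b, W (φ t x) < ⊤ := by
  have hm : Measurable (fun w : ℝ × X => W (φ w.1 w.2)) := hW.comp hF.meas
  refine ae_lt_top hm.lintegral_prod_left' (ne_of_lt ?_)
  rw [← lintegral_lintegral_swap (f := fun t x => W (φ t x)) hm.aemeasurable]
  have hb : ∀ t ∈ Ioo a b, ∫⁻ x, W (φ t x) ∂μ ≤
      ENNReal.ofReal (Real.exp (|m| * (|a| + |b|))) * ∫⁻ x, W x ∂μ := by
    intro t ht
    rw [← lintegral_map hW (hF.measurable t), hF.jac, lintegral_smul_measure, smul_eq_mul]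
    have h1 : |t| ≤ |a| + |b| := by
      rw [abs_le]
      constructor
      · linarith [neg_abs_le a, abs_nonneg b, ht.1]
      · linarith [le_abs_self b, abs_nonneg a, ht.2]
    have h2 : -(m * t) ≤ |m| * (|a| + |b|) := by
      refine (neg_le_abs _).trans ?_
      rw [abs_mul]
      gcongr
    gcongr
  refine (setLIntegral_mono' measurableSet_Ioo hb).trans_lt ?_
  rw [setLIntegral_const]
  exact ENNReal.mul_lt_top (ENNReal.mul_lt_top ENNReal.ofReal_lt_top hfin) (by simp)

theorem Flow.integrable_prod (hF : Flow μ φ m) {H : X → ℝ} (hm : Measurable H) (hH : Integrable H μ)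
    (a b : ℝ) : Integrable (fun w : ℝ × X => H (φ w.1 w.2) * Real.exp (m * w.1))
      ((volume.restrict (Ioo a b)).prod μ) := by
  have h1 : Measurable (fun w : ℝ × X => H (φ w.1 w.2) * Real.exp (m * w.1)) :=
    (hm.comp hF.meas).mul (by fun_prop)
  rw [integrable_prod_iff h1.aestronglyMeasurable]
  refine ⟨Eventually.of_forall fun t => (hF.integral_comp hH t).1, ?_⟩
  have h2 : (fun t : ℝ => ∫ x, ‖H (φ t x) * Real.exp (m * t)‖ ∂μ) = fun _ => ∫ x, ‖H x‖ ∂μ := by
    funext t
    rw [← (hF.integral_comp hH.norm t).2]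
    congr 1
    funext x
    rw [norm_mul, Real.norm_of_nonneg (Real.exp_pos _).le]
  simp only [h2]
  exact integrable_const _

theorem Flow.ae_integrableOn (hF : Flow μ φ m) {H : X → ℝ} (hm : Measurable H) (hH : Integrable H μ)
    (a b : ℝ) : ∀ᵐ x ∂μ, IntegrableOn (fun t => H (φ t x) * Real.exp (m * t)) (Ioo a b) := by
  exact (hF.integrable_prod hm hH a b).prod_left_ae

theorem Flow.integral_eq_zero (hF : Flow μ φ m) {G H : X → ℝ} (hm : Measurable H)
    (hH : Integrable H μ) (hG : Integrable G μ)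
    (hd : ∀ᵐ x ∂μ, ∀ t, HasDerivAt (fun s => G (φ s x) * Real.exp (m * s))
      (H (φ t x) * Real.exp (m * t)) t) : ∫ x, H x ∂μ = 0 := by
  have h1 : ∫ t in Ioo (0 : ℝ) 1, ∫ x, H (φ t x) * Real.exp (m * t) ∂μ = ∫ x, H x ∂μ := by
    simp only [(hF.integral_comp hH _).2]
    simp
  rw [← h1, integral_integral_swap (f := fun t x => H (φ t x) * Real.exp (m * t))
    (hF.integrable_prod hm hH 0 1)]
  have h2 : ∀ᵐ x ∂μ, ∫ t in Ioo (0 : ℝ) 1, H (φ t x) * Real.exp (m * t) =
      G (φ 1 x) * Real.exp (m * 1) - G (φ 0 x) * Real.exp (m * 0) := by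
    filter_upwards [hd, hF.ae_integrableOn hm hH 0 1] with x hx hi
    rw [← integral_Ioc_eq_integral_Ioo, ← intervalIntegral.integral_of_le zero_le_one]
    exact intervalIntegral.integral_eq_sub_of_hasDerivAt (fun t _ => hx t)
      ((intervalIntegrable_iff_integrableOn_Ioo_of_le zero_le_one).2 hi)
  rw [integral_congr_ae h2, integral_sub (hF.integral_comp hG 1).1 (hF.integral_comp hG 0).1,
    (hF.integral_comp hG 1).2, (hF.integral_comp hG 0).2, sub_self]

theorem Flow.null_of_ae (hF : Flow μ φ m) {Z : Set X} (hZ : MeasurableSet Z)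
    (h : ∀ᵐ x ∂μ, ∀ᵐ t, t ∈ Ioo (0 : ℝ) 1 → φ t x ∉ Z) : μ Z = 0 := by
  have hW : Measurable (Z.indicator (1 : X → ENNReal)) := measurable_one.indicator hZ
  have h1 : ∫⁻ t in Ioo (0 : ℝ) 1, ∫⁻ x, Z.indicator (1 : X → ENNReal) (φ t x) *
      ENNReal.ofReal (Real.exp (m * t)) ∂μ = μ Z := by
    simp only [hF.lintegral_comp hW]
    simp [lintegral_indicator_one hZ]
  have h2 : Measurable (fun w : ℝ × X => Z.indicator (1 : X → ENNReal) (φ w.1 w.2) *
      ENNReal.ofReal (Real.exp (m * w.1))) := (hW.comp hF.meas).mul (by fun_prop)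
  rw [← h1, lintegral_lintegral_swap (f := fun t x => Z.indicator (1 : X → ENNReal) (φ t x) *
      ENNReal.ofReal (Real.exp (m * t))) h2.aemeasurable]
  refine (lintegral_congr_ae ?_).trans lintegral_zero
  filter_upwards [h] with x hx
  refine (lintegral_congr_ae ?_).trans lintegral_zero
  filter_upwards [ae_restrict_of_ae hx, ae_restrict_mem measurableSet_Ioo] with t h3 h4
  simp [h3 h4]

end Vale.Agent.P100
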