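import Vale.Agent.P100.FlowAvg
import Vale.Agent.P100.Basic

/-!
# P100 Flow2: product flows; the dilation flow; null sets

Plan.  `prod_left`: `Measure.map_prod_map` with `id`, `Measure.prod_smul_left`.
`setIntegral_nonpos₂`: with `H₁ = avg` of `H` for the left flow, `∫ H = ∫ H₁` (`setIntegral_avg`), then `setIntegral_nonpos` for the right flow:
`∫ t', H₁ (y, φ' t' z) e^(m' t') = (α y + β y)⁻¹ * (double integral)`.
`flow_fl`: `fl c t = (c + ·) ∘ (exp t • ·) ∘ (· - c)`, `Measure.map_addHaar_smul`, `map_add_left_eq_self`, `finrank_euclideanSpace_fin`.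
Null sets: a line `c + ℝ w` is contained in a proper affine subspace when `n ≥ 2` (`Measure.addHaar_submodule` /
`Measure.addHaar_affineSubspace`, `finrank_span_singleton`, `finrank_span_le_card`).  `fl c t x = 0` forces `x ∈ ℝ c`.
If `y ≠ c` and `¬ NC c y z` then equality holds in Cauchy-Schwarz (`inner_eq_norm_mul_iff_real`), so `z - c ∈ ℝ (y - c)`.
`ae_NC`: `Measure.ae_prod_iff_ae_ae` / `measure_prod_null` (the set is closed).
-/

open MeasureTheory Set Metric Filter Topology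

noncomputable section

namespace Vale.Agent.P100

variable {n : ℕ}

section
variable {X Y : Type*} [MeasurableSpace X] [MeasurableSpace Y] {μ : Measure X} {ν : Measure Y}
  [SFinite μ] [SFinite ν]

theorem Flow.prod_left {φ : ℝ → X → X} {m : ℝ} (hF : Flow μ φ m) :
    Flow (μ.prod ν) (fun t (w : X × Y) => (φ t w.1, w.2)) m := by
  refine ⟨(hF.meas.comp (measurable_fst.prodMk (measurable_fst.comp measurable_snd))).prodMk
    (measurable_snd.comp measurable_snd), fun w => by simp [hF.zero], fun s t w => by simp [hF.add],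
    fun t => ?_⟩
  have e : (fun w : X × Y => (φ t w.1, w.2)) = Prod.map (φ t) id := rfl
  rw [e, ← Measure.map_prod_map μ ν (hF.measurable t) measurable_id, Measure.map_id, hF.jac,
    Measure.prod_smul_left]

theorem Flow.prod_right {φ : ℝ → Y → Y} {m : ℝ} (hF : Flow ν φ m) :
    Flow (μ.prod ν) (fun t (w : X × Y) => (w.1, φ t w.2)) m := by
  refine ⟨(measurable_fst.comp measurable_snd).prodMk
    (hF.meas.comp (measurable_fst.prodMk (measurable_snd.comp measurable_snd))),
    fun w => by simp [hF.zero], fun s t w => by simp [hF.add], fun t => ?_⟩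
  have e : (fun w : X × Y => (w.1, φ t w.2)) = Prod.map id (φ t) := rfl
  rw [e, ← Measure.map_prod_map μ ν measurable_id (hF.measurable t), Measure.map_id, hF.jac,
    Measure.prod_smul_right]

theorem Seg.prod_left {φ : ℝ → X → X} {S : Set X} {α β : X → ℝ} (hS : Seg φ S α β) {T : Set Y}
    (hT : MeasurableSet T) :
    Seg (fun t (w : X × Y) => (φ t w.1, w.2)) (S ×ˢ T) (fun w => α w.1) (fun w => β w.1) := by
  exact ⟨hS.mS.prod hT, hS.mα.comp measurable_fst, hS.mβ.comp measurable_fst,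
    fun w hw => hS.pα _ hw.1, fun w hw => hS.pβ _ hw.1,
    fun w hw t ht => ⟨hS.mem _ hw.1 t ht, hw.2⟩, fun w hw t ht => hS.eα _ hw.1 t ht,
    fun w hw t ht => hS.eβ _ hw.1 t ht⟩

theorem Seg.prod_right {φ : ℝ → Y → Y} {S : Set Y} {α β : Y → ℝ} (hS : Seg φ S α β) {T : Set X}
    (hT : MeasurableSet T) :
    Seg (fun t (w : X × Y) => (w.1, φ t w.2)) (T ×ˢ S) (fun w => α w.2) (fun w => β w.2) := by
  exact ⟨hT.prod hS.mS, hS.mα.comp measurable_snd, hS.mβ.comp measurable_snd,
    fun w hw => hS.pα _ hw.2, fun w hw => hS.pβ _ hw.2,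
    fun w hw t ht => ⟨hw.1, hS.mem _ hw.2 t ht⟩, fun w hw t ht => hS.eα _ hw.2 t ht,
    fun w hw t ht => hS.eβ _ hw.2 t ht⟩

theorem Flow.setIntegral_nonpos₁ {φ : ℝ → X → X} {m : ℝ} (hF : Flow μ φ m) {S : Set X} {α β : X → ℝ}
    (hS : Seg φ S α β) {H : X × Y → ℝ} (hm : Measurable H) (hH : IntegrableOn H (S ×ˢ univ) (μ.prod ν))
    (h : ∀ᵐ w ∂(μ.prod ν), w.1 ∈ S →
      ∫ t in Ioo (-α w.1) (β w.1), H (φ t w.1, w.2) * Real.exp (m * t) ≤ 0) :
    ∫ w in S ×ˢ univ, H w ∂(μ.prod ν) ≤ 0 := by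
  refine (hF.prod_left (ν := ν)).setIntegral_nonpos (hS.prod_left MeasurableSet.univ) hm hH ?_
  filter_upwards [h] with w hw hw'
  exact hw hw'.1

theorem Flow.setIntegral_nonpos₂ {φ : ℝ → X → X} {m : ℝ} (hF : Flow μ φ m) {S : Set X} {α β : X → ℝ}
    (hS : Seg φ S α β) {φ' : ℝ → Y → Y} {m' : ℝ} (hF' : Flow ν φ' m') {S' : Set Y} {α' β' : Y → ℝ}
    (hS' : Seg φ' S' α' β') {H : X × Y → ℝ} (hm : Measurable H)
    (hH : IntegrableOn H (S ×ˢ S') (μ.prod ν))
    (h : ∀ᵐ w ∂(μ.prod ν), w.1 ∈ S → w.2 ∈ S' →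
      ∫ t' in Ioo (-α' w.2) (β' w.2), (∫ t in Ioo (-α w.1) (β w.1),
        H (φ t w.1, φ' t' w.2) * Real.exp (m * t)) * Real.exp (m' * t') ≤ 0) :
    ∫ w in S ×ˢ S', H w ∂(μ.prod ν) ≤ 0 := by
  have hL := hF.prod_left (ν := ν)
  have hSL := hS.prod_left hS'.mS
  rw [← hL.setIntegral_avg hSL hm hH]
  refine (hF'.prod_right (μ := μ)).setIntegral_nonpos (hS'.prod_right hS.mS)
    (hL.measurable_avg hSL hm) (hL.integrableOn_avg hSL hm hH) ?_
  filter_upwards [h] with w hw hw'
  simp only [avg, mul_assoc]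
  rw [integral_const_mul]
  exact mul_nonpos_of_nonneg_of_nonpos
    (inv_nonneg.2 (add_pos (hS.pα _ hw'.1) (hS.pβ _ hw'.1)).le) (hw hw'.1 hw'.2)

end

theorem flow_fl (c : E n) : Flow (volume : Measure (E n)) (fl c) n := by
  refine ⟨(continuous_fl.comp (continuous_const.prodMk continuous_id)).measurable, fl_zero c,
    fl_fl c, fun t => ?_⟩
  have e : fl c t = (fun x => c + x) ∘ (fun x => Real.exp t • x) ∘ fun x => x + -c := by
    funext x
    simp [fl, sub_eq_add_neg]
  rw [e, ← Measure.map_map (measurable_const_add c) (by fun_prop),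
    ← Measure.map_map (measurable_const_smul _) (measurable_add_const _), map_add_right_eq_self,
    Measure.map_addHaar_smul _ (Real.exp_pos t).ne', Measure.map_smul, map_add_left_eq_self,
    finrank_euclideanSpace_fin, ← Real.exp_nat_mul, ← Real.exp_neg, abs_of_pos (Real.exp_pos _)]


private theorem ae_not_line (hn : 2 ≤ n) (c w : E n) : ∀ᵐ z : E n, ∀ r : ℝ, z - c ≠ r • w := by
  have h1 : (Submodule.span ℝ {w} : Submodule ℝ (E n)) ≠ ⊤ := by
    intro h
    have h2 := finrank_span_le_card (R := ℝ) ({w} : Set (E n))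
    rw [h, finrank_top, finrank_euclideanSpace_fin] at h2
    simp at h2
    omega
  have h2 := Measure.addHaar_submodule (volume : Measure (E n)) _ h1
  rw [← measure_preimage_add_right volume (-c)] at h2
  rw [ae_iff]
  refine measure_mono_null (fun z hz => ?_) h2
  simp only [mem_ofPred_eq, not_forall, not_not] at hz
  obtain ⟨r, hr⟩ := hz
  simp only [mem_preimage, SetLike.mem_coe, Submodule.mem_span_singleton]
  exact ⟨r, by rw [← hr, sub_eq_add_neg]⟩

theorem ae_ray (hn : 2 ≤ n) (c : E n) : ∀ᵐ x : E n, x ≠ c ∧ ∀ t, fl c t x ≠ 0 := by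
  filter_upwards [ae_not_line hn c c] with x hx
  refine ⟨fun h => hx 0 (by simp [h]), fun t h => hx (-Real.exp (-t)) ?_⟩
  have h1 : Real.exp t • (x - c) = -c := by
    rw [fl] at h
    exact eq_neg_of_add_eq_zero_right h
  have h2 : x - c = Real.exp (-t) • Real.exp t • (x - c) := by
    rw [smul_smul, ← Real.exp_add]
    simp
  rw [h2, h1, smul_neg, neg_smul]

theorem ae_NC_right (hn : 2 ≤ n) {c y : E n} (hy : y ≠ c) : ∀ᵐ z : E n, NC c y z := by
  filter_upwards [ae_not_line hn c (y - c)] with z hz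
  refine lt_of_le_of_ne (real_inner_le_norm _ _) fun h => ?_
  rw [inner_eq_norm_mul_iff_real] at h
  have h0 : ‖y - c‖ ≠ 0 := norm_ne_zero_iff.2 (sub_ne_zero.2 hy)
  refine hz (‖y - c‖⁻¹ * ‖z - c‖) ?_
  rw [mul_smul, h, smul_smul, inv_mul_cancel₀ h0, one_smul]

theorem ae_NC (hn : 2 ≤ n) (c : E n) :
    ∀ᵐ w ∂((volume : Measure (E n)).prod (volume : Measure (E n))), NC c w.1 w.2 := by
  have hm : MeasurableSet {w : E n × E n | NC c w.1 w.2} :=
    (isOpen_lt (by fun_prop) (by fun_prop)).measurableSet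
  rw [Measure.ae_prod_iff_ae_ae hm]
  filter_upwards [ae_ray hn c] with y hy
  exact ae_NC_right hn hy.1

end Vale.Agent.P100
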