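import Vale.Agent.P100.Flow

/-!
# P100 FlowAvg: averaging along orbit segments

Key computation (first in `ℝ≥0∞`, then for integrable real functions by Fubini).  Put
`k (t, x) = 1[x ∈ S, t ∈ Ioo (-α x) (β x)] (α x + β x)⁻¹`.  By `Seg`, for every `t` and `x`:
`k (t, x) = k (-t, φ t x)` (if `x ∈ S`, `t ∈ Ioo ..` then `y = φ t x ∈ S`, `-t ∈ Ioo (-α y) (β y)`, `α y + β y = α x + β x`; the converse is
the same statement for `y` and `-t`, using `φ (-t) (φ t x) = x`).  Hence, for fixed `t`, by `lintegral_comp` / `integral_comp`,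
`∫ x, k (t,x) H (φ t x) e^(mt) = ∫ y, k (-t, y) H y`, and `∫ t, k (-t, y) = 1[y ∈ S]`.  So
`∫_S avg H = ∫ x ∫ t, k (t,x) H (φ t x) e^(mt) = ∫ t ∫ y, k (-t,y) H y = ∫_S H`.
The `ℝ≥0∞` version for `‖H‖ₑ` gives integrability of `(t,x) ↦ k (t,x) H (φ t x) e^(mt)` on `volume.prod μ`, from which
`integrableOn_avg` and `ae_integrableOn_seg` follow (`Integrable.integral_prod_right`, `Integrable.prod_left_ae`).
`setIntegral_eq_zero`: `intervalIntegral.integral_eq_sub_of_hasDerivAt_of_le` on `[-α x, β x]`.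
-/

open MeasureTheory Set Metric Filter Topology

noncomputable section

namespace Vale.Agent.P100

variable {X : Type*} [MeasurableSpace X] {μ : Measure X} [SFinite μ] {φ : ℝ → X → X} {m : ℝ}
  {S : Set X} {α β : X → ℝ}

/-- the set of pairs (time, point) on the segments -/
private def dom (S : Set X) (α β : X → ℝ) : Set (ℝ × X) :=
  {w | w.2 ∈ S ∧ -α w.2 < w.1 ∧ w.1 < β w.2}

/-- the kernel -/
private def ker (S : Set X) (α β : X → ℝ) (w : ℝ × X) : ℝ :=
  (dom S α β).indicator (fun w => (α w.2 + β w.2)⁻¹) w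

private theorem ms_dom (hS : Seg φ S α β) : MeasurableSet (dom S α β) :=
  (measurable_snd hS.mS).inter
    ((measurableSet_lt (hS.mα.comp measurable_snd).neg measurable_fst).inter
      (measurableSet_lt measurable_fst (hS.mβ.comp measurable_snd)))

private theorem m_ker (hS : Seg φ S α β) : Measurable (ker S α β) :=
  ((hS.mα.comp measurable_snd).add (hS.mβ.comp measurable_snd)).inv.indicator (ms_dom hS)

private theorem dom_flip (hS : Seg φ S α β) {t : ℝ} {x : X} (h : (t, x) ∈ dom S α β) :
    (-t, φ t x) ∈ dom S α β ∧ α (φ t x) + β (φ t x) = α x + β x := by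
  have h1 := hS.eα x h.1 t h.2
  have h2 := hS.eβ x h.1 t h.2
  have h3 := hS.pα x h.1
  have h4 := hS.pβ x h.1
  refine ⟨⟨hS.mem x h.1 t h.2, ?_, ?_⟩, by linarith⟩
  · change -α (φ t x) < -t
    linarith
  · change -t < β (φ t x)
    linarith

omit [SFinite μ] in
private theorem ker_flip (hF : Flow μ φ m) (hS : Seg φ S α β) (t : ℝ) (x : X) :
    ker S α β (t, x) = ker S α β (-t, φ t x) := by
  by_cases h : (t, x) ∈ dom S α β
  · rw [ker, ker, indicator_of_mem h, indicator_of_mem (dom_flip hS h).1, (dom_flip hS h).2]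
  · rw [ker, ker, indicator_of_notMem h, indicator_of_notMem]
    intro h'
    have h2 := (dom_flip hS h').1
    rw [neg_neg, hF.add, neg_add_cancel, hF.zero] at h2
    exact h h2

omit [MeasurableSpace X] in
private theorem ker_mul_of_mem {x : X} (hx : x ∈ S) (g : ℝ → ℝ) :
    (fun t => ker S α β (t, x) * g t) =
      (Ioo (-α x) (β x)).indicator fun t => (α x + β x)⁻¹ * g t := by
  funext t
  by_cases ht : t ∈ Ioo (-α x) (β x)
  · rw [ker, indicator_of_mem ht, indicator_of_mem (show (t, x) ∈ dom S α β from ⟨hx, ht⟩)]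
  · rw [ker, indicator_of_notMem ht, indicator_of_notMem fun h : (t, x) ∈ dom S α β => ht h.2,
      zero_mul]

omit [MeasurableSpace X] in
private theorem ker_of_notMem {x : X} (hx : x ∉ S) (t : ℝ) : ker S α β (t, x) = 0 :=
  indicator_of_notMem (fun h => hx h.1) _

private theorem int_ker (hS : Seg φ S α β) (y : X) (c : ℝ) :
    Integrable (fun t => ker S α β (-t, y) * c) ∧
      ∫ t, ker S α β (-t, y) * c = S.indicator (fun _ => c) y := by
  rw [integral_neg_eq_self (fun t => ker S α β (t, y) * c)]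
  refine ⟨Integrable.comp_neg (f := fun t => ker S α β (t, y) * c) ?_, ?_⟩
  · by_cases hy : y ∈ S
    · rw [ker_mul_of_mem hy fun _ => c, integrable_indicator_iff measurableSet_Ioo]
      exact integrableOn_const (by simp)
    · simp [ker_of_notMem hy]
  · by_cases hy : y ∈ S
    · have h3 := hS.pα y hy
      have h4 := hS.pβ y hy
      rw [ker_mul_of_mem hy fun _ => c, integral_indicator measurableSet_Ioo, setIntegral_const,
        indicator_of_mem hy, Real.volume_real_Ioo_of_le (by linarith), smul_eq_mul]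
      field_simp
      ring
    · simp [ker_of_notMem hy, hy]

private theorem ker_nonneg (hS : Seg φ S α β) (w : ℝ × X) : 0 ≤ ker S α β w :=
  indicator_nonneg (fun _ hw => inv_nonneg.2 (add_pos (hS.pα _ hw.1) (hS.pβ _ hw.1)).le) w

private theorem int_g (hS : Seg φ S α β) {H : X → ℝ} (hm : Measurable H)
    (hH : IntegrableOn H S μ) :
    Integrable (fun w : ℝ × X => ker S α β (-w.1, w.2) * H w.2) (volume.prod μ) := by
  have h1 : Measurable fun w : ℝ × X => ker S α β (-w.1, w.2) * H w.2 :=
    ((m_ker hS).comp (measurable_fst.neg.prodMk measurable_snd)).mul (hm.comp measurable_snd)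
  rw [integrable_prod_iff' h1.aestronglyMeasurable]
  refine ⟨Eventually.of_forall fun y => (int_ker hS y (H y)).1, ?_⟩
  have h2 : (fun y => ∫ t, ‖ker S α β (-t, y) * H y‖) = S.indicator fun y => ‖H y‖ := by
    funext y
    simp only [norm_mul, Real.norm_of_nonneg (ker_nonneg hS _)]
    rw [(int_ker hS y _).2]
    by_cases hy : y ∈ S <;> simp [hy]
  rw [h2, integrable_indicator_iff hS.mS]
  exact hH.norm

private theorem int_f (hF : Flow μ φ m) (hS : Seg φ S α β) {H : X → ℝ} (hm : Measurable H)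
    (hH : IntegrableOn H S μ) :
    Integrable (fun w : ℝ × X => ker S α β w * (H (φ w.1 w.2) * Real.exp (m * w.1)))
      (volume.prod μ) ∧
    ∫ w : ℝ × X, ker S α β w * (H (φ w.1 w.2) * Real.exp (m * w.1)) ∂(volume.prod μ) =
      ∫ x in S, H x ∂μ := by
  have hg := int_g hS hm hH
  have h1 : Measurable fun w : ℝ × X => ker S α β w * (H (φ w.1 w.2) * Real.exp (m * w.1)) :=
    (m_ker hS).mul ((hm.comp hF.meas).mul (measurable_fst.const_mul m).exp)
  have he : ∀ t x, ker S α β (t, x) * (H (φ t x) * Real.exp (m * t)) =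
      ker S α β (-t, φ t x) * H (φ t x) * Real.exp (m * t) := fun t x => by
    rw [ker_flip hF hS t x, mul_assoc]
  have hi : Integrable (fun w : ℝ × X => ker S α β w * (H (φ w.1 w.2) * Real.exp (m * w.1)))
      (volume.prod μ) := by
    rw [integrable_prod_iff h1.aestronglyMeasurable]
    refine ⟨hg.prod_right_ae.mono fun t ht => ?_, ?_⟩
    · simp only [he]
      exact (hF.integral_comp ht t).1
    · refine hg.integral_norm_prod_left.congr (hg.prod_right_ae.mono fun t ht => ?_)
      simp only [he]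
      rw [← (hF.integral_comp ht.norm t).2]
      simp only [norm_mul, Real.norm_of_nonneg (Real.exp_pos _).le]
  refine ⟨hi, ?_⟩
  rw [integral_prod _ hi, ← integral_indicator hS.mS]
  have h2 : ∫ y, S.indicator H y ∂μ = ∫ y, (∫ t, ker S α β (-t, y) * H y) ∂μ := by
    refine integral_congr_ae (Eventually.of_forall fun y => ?_)
    beta_reduce
    rw [(int_ker hS y _).2]
    by_cases hy : y ∈ S <;> simp [hy]
  rw [h2, ← integral_prod_symm _ hg, integral_prod _ hg]
  refine integral_congr_ae (hg.prod_right_ae.mono fun t ht => ?_)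
  simp only [he]
  exact (hF.integral_comp ht t).2

omit [MeasurableSpace X] in
private theorem int_f_eq (H : X → ℝ) :
    (fun x => ∫ t, ker S α β (t, x) * (H (φ t x) * Real.exp (m * t))) =
      S.indicator (avg φ m α β H) := by
  funext x
  by_cases hx : x ∈ S
  · rw [ker_mul_of_mem hx, integral_indicator measurableSet_Ioo, integral_const_mul,
      indicator_of_mem hx, avg]
  · simp [ker_of_notMem hx, hx]

omit [SFinite μ] in
theorem Flow.measurable_avg (hF : Flow μ φ m) (hS : Seg φ S α β) {H : X → ℝ} (hm : Measurable H) :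
    Measurable (avg φ m α β H) := by
  refine (hS.mα.add hS.mβ).inv.mul ?_
  have h1 : Measurable fun w : ℝ × X => {w : ℝ × X | -α w.2 < w.1 ∧ w.1 < β w.2}.indicator
      (fun w => H (φ w.1 w.2) * Real.exp (m * w.1)) w :=
    ((hm.comp hF.meas).mul (measurable_fst.const_mul m).exp).indicator
      ((measurableSet_lt (hS.mα.comp measurable_snd).neg measurable_fst).inter
        (measurableSet_lt measurable_fst (hS.mβ.comp measurable_snd)))
  have h2 := (h1.stronglyMeasurable.integral_prod_left' (μ := volume)).measurable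
  convert h2 using 2 with x
  rw [← integral_indicator measurableSet_Ioo]
  rfl

theorem Flow.integrableOn_avg (hF : Flow μ φ m) (hS : Seg φ S α β) {H : X → ℝ} (hm : Measurable H)
    (hH : IntegrableOn H S μ) : IntegrableOn (avg φ m α β H) S μ := by
  rw [← integrable_indicator_iff hS.mS, ← int_f_eq]
  exact (int_f hF hS hm hH).1.integral_prod_right

theorem Flow.setIntegral_avg (hF : Flow μ φ m) (hS : Seg φ S α β) {H : X → ℝ} (hm : Measurable H)
    (hH : IntegrableOn H S μ) : ∫ x in S, avg φ m α β H x ∂μ = ∫ x in S, H x ∂μ := by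
  rw [← (int_f hF hS hm hH).2, integral_prod_symm _ (int_f hF hS hm hH).1, ← integral_indicator hS.mS,
    ← int_f_eq]

theorem Flow.ae_integrableOn_seg (hF : Flow μ φ m) (hS : Seg φ S α β) {H : X → ℝ} (hm : Measurable H)
    (hH : IntegrableOn H S μ) : ∀ᵐ x ∂μ, x ∈ S →
      IntegrableOn (fun t => H (φ t x) * Real.exp (m * t)) (Ioo (-α x) (β x)) := by
  refine (int_f hF hS hm hH).1.prod_left_ae.mono fun x h hx => ?_
  have h3 := (add_pos (hS.pα x hx) (hS.pβ x hx)).ne'
  beta_reduce at h
  rw [ker_mul_of_mem hx, integrable_indicator_iff measurableSet_Ioo] at h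
  refine (h.const_mul (α x + β x)).congr (Eventually.of_forall fun t => ?_)
  beta_reduce
  rw [← mul_assoc, mul_inv_cancel₀ h3, one_mul]

theorem Flow.setIntegral_nonpos (hF : Flow μ φ m) (hS : Seg φ S α β) {H : X → ℝ} (hm : Measurable H)
    (hH : IntegrableOn H S μ)
    (h : ∀ᵐ x ∂μ, x ∈ S → ∫ t in Ioo (-α x) (β x), H (φ t x) * Real.exp (m * t) ≤ 0) :
    ∫ x in S, H x ∂μ ≤ 0 := by
  rw [← hF.setIntegral_avg hS hm hH]
  refine setIntegral_nonpos_ae hS.mS (h.mono fun x h hx => ?_)
  exact mul_nonpos_of_nonneg_of_nonpos (inv_nonneg.2 (add_pos (hS.pα x hx) (hS.pβ x hx)).le) (h hx)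

theorem Flow.setIntegral_eq_zero (hF : Flow μ φ m) (hS : Seg φ S α β) {H : X → ℝ} (hm : Measurable H)
    (hH : IntegrableOn H S μ)
    (h : ∀ x ∈ S, ∃ G : ℝ → ℝ, ContinuousOn G (Icc (-α x) (β x)) ∧
      (∀ t ∈ Ioo (-α x) (β x), HasDerivAt G (H (φ t x) * Real.exp (m * t)) t) ∧ G (-α x) = G (β x)) :
    ∫ x in S, H x ∂μ = 0 := by
  rw [← hF.setIntegral_avg hS hm hH]
  refine setIntegral_eq_zero_of_ae_eq_zero ((hF.ae_integrableOn_seg hS hm hH).mono fun x hi hx => ?_)
  obtain ⟨G, h1, h2, h3⟩ := h x hx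
  have hle : -α x ≤ β x := by linarith [hS.pα x hx, hS.pβ x hx]
  have h4 := intervalIntegral.integral_eq_sub_of_hasDerivAt_of_le hle h1 h2
    ((intervalIntegrable_iff_integrableOn_Ioo_of_le hle).2 (hi hx))
  rw [intervalIntegral.integral_of_le hle, integral_Ioc_eq_integral_Ioo] at h4
  rw [avg, h4, h3, sub_self, mul_zero]

end Vale.Agent.P100
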