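import Vale.Agent.P100.Lap

/-!
# P100 Green: Green's identity away from the origin

Plan.  For each coordinate `i` apply `integral_mul_fderiv_eq_neg_fderiv_mul_of_integrable` twice
(its differentiability hypotheses are only needed on the `tsupport` of the other factor, and
`tsupport (pd i ζ) ⊆ tsupport ζ ⊆ {0}ᶜ`):  `∫ u ∂ᵢ∂ᵢζ = -∫ ∂ᵢu ∂ᵢζ = ∫ ∂ᵢ∂ᵢu ζ`.
Integrability: a product `a * b` with `a` continuous on the open set `{0}ᶜ` and `b` continuous with compact support inside
`{0}ᶜ` is continuous with compact support (prove one auxiliary lemma: continuity at points of `{0}ᶜ` directly, and near points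
outside `tsupport b` the product is locally `0`).  `integral_lap_eq_zero`: same lemma of Mathlib with `f = 1`.
-/

open MeasureTheory Set Metric Filter Topology

noncomputable section

namespace Vale.Agent.P100

variable {n : ℕ}

theorem integrable_lap {ζ : E n → ℝ} (hζ : ContDiff ℝ 2 ζ) (hc : HasCompactSupport ζ)
    {u : E n → ℝ} (hu : Continuous u) : Integrable (fun y => u y * lap ζ y) := by
  exact P100H.integrable_mul_of_supp (U := univ) hc (subset_univ _) hu.continuousOn
    (continuous_lap hζ) fun x hx => lap_eq_zero_of_notMem hx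

theorem integral_lap_eq_zero {ζ : E n → ℝ} (hζ : ContDiff ℝ 2 ζ) (hc : HasCompactSupport ζ) :
    ∫ y, lap ζ y = 0 := by
  have h := P100H.green (u := fun _ => (1 : ℝ)) (U := univ) isOpen_univ contDiffOn_const hζ hc
    (subset_univ _)
  simp only [one_mul, InnerProductSpace.laplacian_const, Pi.zero_apply, zero_mul,
    integral_zero] at h
  exact h

theorem green {u ζ : E n → ℝ} (hu : ContDiffOn ℝ 2 u {0}ᶜ) (hζ : ContDiff ℝ 2 ζ)
    (hc : HasCompactSupport ζ) (h0 : (0 : E n) ∉ tsupport ζ) :
    Integrable (fun y => lap u y * ζ y) ∧ ∫ y, u y * lap ζ y = ∫ y, lap u y * ζ y := by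
  have hs : tsupport ζ ⊆ {0}ᶜ := fun x hx h => h0 (by rwa [mem_singleton_iff.1 h] at hx)
  refine ⟨?_, P100H.green isOpen_compl_singleton hu hζ hc hs⟩
  refine P100H.integrable_mul_of_supp hc hs (fun x hx => ?_) hζ.continuous
    fun x hx => image_eq_zero_of_notMem_tsupport hx
  exact (continuousAt_lap (hu.contDiffAt (isOpen_compl_singleton.mem_nhds hx))).continuousWithinAt

end Vale.Agent.P100
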