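import Vale.Agent.P100.Basic

/-!
# P100 Growth: consequences of `RepP` on balls

Plan.  Let `x*` be the minimum point from `exists_mn`.
* `int_f_le`: for `z ∈ ball 0 (2R)`, `z ≠ x*`: `‖x* - z‖ ≤ 3R`, so `Kr κ (x* - z) ≥ κ (3R)^(2-n)`
  (`Real.rpow_le_rpow_of_nonpos`), and `∫ Kr f ≤ u x* = mn u R`.
* `int_u_le`: `ball 0 (2R) ⊆ ball x* (3R)` and `mean`.
* `mn_lower`: on the annulus `ball 0 R \ ball 0 (R/2)`, `fw A p v ≥ 2^(-|A|) R^A (mn v R)^p`; its volume is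
  `(1 - 2^(-n)) ω R^n ≥ ω R^n / 2` (`Measure.addHaar_ball`); combine with `int_f_le`.
* `neg_two_lt`: `intK 0` and `fw ≥ ‖z‖^A (mn v 1)^p` on `ball 0 1` give `IntegrableOn (‖z‖^(2-n+A)) (ball 0 1)`;
  `integrableOn_fun_norm_addHaar` and `intervalIntegral.integrableOn_Ioo_rpow_iff` give `-1 < (n-1) + (2-n+A)`.
-/

open MeasureTheory Set Metric Filter Topology

noncomputable section

namespace Vale.Agent.P100

variable {n : ℕ}

theorem mn_pos {u : E n → ℝ} (hu : Nice u) {R : ℝ} (hR : 0 ≤ R) : 0 < mn u R := by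
  obtain ⟨x, -, hx, -⟩ := exists_mn hu.cont hR
  rw [hx]
  exact hu.pos x

theorem mn_le_zero {u : E n → ℝ} (hu : Nice u) {R : ℝ} (hR : 0 ≤ R) : mn u R ≤ u 0 := by
  obtain ⟨x, -, hx, hy⟩ := exists_mn hu.cont hR
  rw [hx]
  exact hy 0 (by simpa using hR)

private theorem growth_mn_le {u : E n → ℝ} (hu : Nice u) {R : ℝ} {y : E n} (hy : ‖y‖ ≤ R) :
    mn u R ≤ u y := by
  obtain ⟨x, -, hx, hz⟩ := exists_mn hu.cont ((norm_nonneg y).trans hy)
  rw [hx]
  exact hz y hy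

private theorem growth_ae_ne (hn : 3 ≤ n) (x : E n) : ∀ᵐ z : E n, z ≠ x := by
  haveI : Nonempty (Fin n) := ⟨⟨0, by omega⟩⟩
  have h : volume ({x} : Set (E n)) = 0 := measure_singleton x
  exact compl_mem_ae_iff.2 h

private theorem growth_int_f (hn : 3 ≤ n) {κ C : ℝ} (hκ : 0 < κ) {u f : E n → ℝ} (hu : Nice u)
    (hf : ∀ x, 0 ≤ f x) (h : RepP κ C u f) {R : ℝ} (hR : 0 < R) :
    ∫ x in ball 0 (2 * R), f x ≤ 3 ^ ((n : ℝ) - 2) / κ * R ^ ((n : ℝ) - 2) * mn u R := by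
  have hn' : (3 : ℝ) ≤ n := by exact_mod_cast hn
  obtain ⟨x, hxR, hx, -⟩ := exists_mn hu.cont hR.le
  have h3R : 0 < 3 * R := by linarith
  have h1 : ∫ z in ball 0 (2 * R), κ * (3 * R) ^ (2 - (n : ℝ)) * f z ≤
      ∫ z in ball 0 (2 * R), Kr κ (x - z) * f z := by
    refine setIntegral_mono_on_ae ((h.locf _).const_mul _) (h.intK x).integrableOn measurableSet_ball ?_
    filter_upwards [growth_ae_ne hn x] with z hz hzR
    refine mul_le_mul_of_nonneg_right ?_ (hf z)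
    unfold Kr
    refine mul_le_mul_of_nonneg_left ?_ hκ.le
    have hpos : 0 < ‖x - z‖ := norm_pos_iff.2 (sub_ne_zero.2 hz.symm)
    have hle : ‖x - z‖ ≤ 3 * R := by
      have h1 := norm_sub_le x z
      have h2 : ‖z‖ < 2 * R := by simpa using hzR
      linarith
    exact Real.rpow_le_rpow_of_nonpos hpos hle (by linarith)
  have h2 : ∫ z in ball 0 (2 * R), Kr κ (x - z) * f z ≤ ∫ z, Kr κ (x - z) * f z :=
    setIntegral_le_integral (h.intK x)
      (Eventually.of_forall fun z => mul_nonneg (Kr_nonneg hκ.le _) (hf z))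
  have h3 := (h1.trans h2).trans (h.leK x)
  rw [integral_const_mul, ← hx] at h3
  have e1 : (3 * R) ^ (2 - (n : ℝ)) * (3 * R) ^ ((n : ℝ) - 2) = 1 := by
    rw [← Real.rpow_add h3R]
    simp
  have e2 : (3 * R) ^ ((n : ℝ) - 2) = 3 ^ ((n : ℝ) - 2) * R ^ ((n : ℝ) - 2) :=
    Real.mul_rpow (by norm_num) hR.le
  have hpos : 0 < (3 * R) ^ ((n : ℝ) - 2) / κ := by positivity
  have h4 := mul_le_mul_of_nonneg_left h3 hpos.le
  have e3 : (3 * R) ^ ((n : ℝ) - 2) / κ * (κ * (3 * R) ^ (2 - (n : ℝ)) * ∫ z in ball 0 (2 * R), f z) =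
      ((3 * R) ^ (2 - (n : ℝ)) * (3 * R) ^ ((n : ℝ) - 2)) * ∫ z in ball 0 (2 * R), f z := by
    field_simp
  rw [e3, e1, one_mul, e2] at h4
  calc _ ≤ _ := h4
    _ = _ := by ring

private theorem growth_int_u {κ C : ℝ} {u f : E n → ℝ} (hu : Nice u)
    (h : RepP κ C u f) {R : ℝ} (hR : 0 < R) :
    ∫ x in ball 0 (2 * R), u x ≤ C * 3 ^ n * R ^ n * mn u R := by
  obtain ⟨x, hxR, hx, -⟩ := exists_mn hu.cont hR.le
  have h3R : 0 < 3 * R := by linarith
  have h1 : ∫ z in ball 0 (2 * R), u z ≤ ∫ z in ball x (3 * R), u z := by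
    refine setIntegral_mono_set ?_ (Eventually.of_forall fun z => (hu.pos z).le) ?_
    · exact (hu.cont.continuousOn.integrableOn_compact (isCompact_closedBall x (3 * R))).mono_set
        ball_subset_closedBall
    · refine (ball_subset_ball' ?_).eventuallyLE
      rw [dist_comm, dist_zero_right]
      linarith
  have h2 := h1.trans (h.mean x _ h3R)
  rw [← hx, mul_pow] at h2
  calc _ ≤ _ := h2
    _ = _ := by ring

theorem int_bounds (hn : 3 ≤ n) {κ C : ℝ} (hκ : 0 < κ) (hC : 0 < C) : ∃ C₁ : ℝ, 0 < C₁ ∧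
    ∀ u f : E n → ℝ, Nice u → (∀ x, 0 ≤ f x) → RepP κ C u f → ∀ R : ℝ, 0 < R →
      (∫ x in ball 0 (2 * R), f x ≤ C₁ * R ^ ((n : ℝ) - 2) * mn u R) ∧
      (∫ x in ball 0 (2 * R), u x ≤ C₁ * R ^ n * mn u R) := by
  have h1 : 0 < (3 : ℝ) ^ ((n : ℝ) - 2) / κ := by positivity
  have h2 : 0 < C * 3 ^ n := by positivity
  refine ⟨3 ^ ((n : ℝ) - 2) / κ + C * 3 ^ n, by positivity, fun u f hu hf h R hR => ⟨?_, ?_⟩⟩
  · have hm := mn_pos hu hR.le
    refine (growth_int_f hn hκ hu hf h hR).trans ?_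
    gcongr
    linarith
  · have hm := mn_pos hu hR.le
    refine (growth_int_u hu h hR).trans ?_
    gcongr
    linarith

private theorem growth_rpow_ge {A R t : ℝ} (hR : 0 < R) (h1 : R / 2 ≤ t) (h2 : t ≤ R) :
    min 1 ((1 / 2 : ℝ) ^ A) * R ^ A ≤ t ^ A := by
  have ht : 0 < t := by linarith
  have hRA : 0 < R ^ A := Real.rpow_pos_of_pos hR A
  rcases le_total 0 A with hA | hA
  · calc min 1 ((1 / 2 : ℝ) ^ A) * R ^ A ≤ (1 / 2 : ℝ) ^ A * R ^ A :=
          mul_le_mul_of_nonneg_right (min_le_right _ _) hRA.le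
      _ = (1 / 2 * R) ^ A := (Real.mul_rpow (by norm_num) hR.le).symm
      _ ≤ t ^ A := Real.rpow_le_rpow (by positivity) (by linarith) hA
  · calc min 1 ((1 / 2 : ℝ) ^ A) * R ^ A ≤ 1 * R ^ A :=
          mul_le_mul_of_nonneg_right (min_le_left _ _) hRA.le
      _ = R ^ A := one_mul _
      _ ≤ t ^ A := Real.rpow_le_rpow_of_nonpos ht h2 hA

theorem mn_lower (hn : 3 ≤ n) {κ C : ℝ} (hκ : 0 < κ) (hC : 0 < C) (A : ℝ) {p : ℝ} (hp : 0 < p)
    {u v : E n → ℝ} (hu : Nice u) (hv : Nice v) (h : RepP κ C u (fw A p v)) :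
    ∃ c₀ : ℝ, 0 < c₀ ∧ ∀ R : ℝ, 0 < R → c₀ * R ^ (2 + A) * mn v R ^ p ≤ mn u R := by
  obtain ⟨C₁, hC₁, hint⟩ := int_bounds hn hκ hC
  obtain ⟨ω, hω⟩ : ∃ ω : ℝ, ω = (volume (ball (0 : E n) 1)).toReal := ⟨_, rfl⟩
  have hω0 : 0 < ω := by
    rw [hω]
    exact ENNReal.toReal_pos (measure_ball_pos _ _ one_pos).ne' measure_ball_lt_top.ne
  obtain ⟨c, hc⟩ : ∃ c : ℝ, c = min 1 ((1 / 2 : ℝ) ^ A) := ⟨_, rfl⟩
  have hc0 : 0 < c := by
    rw [hc]
    exact lt_min one_pos (by positivity)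
  refine ⟨c * ((1 / 4) ^ n * ω) / C₁, by positivity, fun R hR => ?_⟩
  have hb := mn_pos hv hR.le
  have hI := (hint u _ hu (fw_nonneg A p hv.pos) h R hR).1
  obtain ⟨x₀, hx₀⟩ : ∃ x₀ : E n, ‖x₀‖ = 3 * R / 4 := by
    refine ⟨EuclideanSpace.single ⟨0, by omega⟩ (3 * R / 4), ?_⟩
    rw [EuclideanSpace.norm_single, Real.norm_of_nonneg (by positivity)]
  have hnorm : ∀ x ∈ ball x₀ (R / 4), R / 2 ≤ ‖x‖ ∧ ‖x‖ ≤ R := by
    intro x hx
    have h1 : ‖x - x₀‖ < R / 4 := by simpa [dist_eq_norm] using hx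
    have h2 := abs_norm_sub_norm_le x x₀
    rw [hx₀, abs_le] at h2
    constructor <;> linarith [h2.1, h2.2]
  have hsub : ball x₀ (R / 4) ⊆ ball (0 : E n) (2 * R) := by
    intro x hx
    rw [mem_ball_zero_iff]
    linarith [(hnorm x hx).2]
  have h1 : c * R ^ A * mn v R ^ p * volume.real (ball x₀ (R / 4)) ≤
      ∫ x in ball x₀ (R / 4), fw A p v x := by
    refine setIntegral_ge_of_const_le_real measurableSet_ball measure_ball_lt_top.ne ?_
      ((h.locf _).mono_set hsub)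
    intro x hx
    obtain ⟨h1, h2⟩ := hnorm x hx
    unfold fw
    refine mul_le_mul ?_ (Real.rpow_le_rpow hb.le (growth_mn_le hv h2) hp.le) (by positivity)
      (by positivity)
    rw [hc]
    exact growth_rpow_ge hR h1 h2
  have h2 : ∫ x in ball x₀ (R / 4), fw A p v x ≤ ∫ x in ball 0 (2 * R), fw A p v x :=
    setIntegral_mono_set (h.locf _) (Eventually.of_forall fun z => fw_nonneg A p hv.pos z)
      hsub.eventuallyLE
  have h3 : volume.real (ball x₀ (R / 4)) = (R / 4) ^ n * ω := by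
    rw [Measure.real, Measure.addHaar_ball_of_pos volume x₀ (by positivity : 0 < R / 4),
      ENNReal.toReal_mul, ENNReal.toReal_ofReal (by positivity), hω, finrank_euclideanSpace_fin]
  have h4 := (h1.trans h2).trans hI
  rw [h3] at h4
  have hRn : 0 < R ^ ((n : ℝ) - 2) := by positivity
  have e1 : R ^ A * R ^ n = R ^ (2 + A) * R ^ ((n : ℝ) - 2) := by
    rw [← Real.rpow_natCast R n, ← Real.rpow_add hR, ← Real.rpow_add hR]
    congr 1
    ring
  have e2 : c * R ^ A * mn v R ^ p * ((R / 4) ^ n * ω) =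
      C₁ * R ^ ((n : ℝ) - 2) * (c * ((1 / 4) ^ n * ω) / C₁ * R ^ (2 + A) * mn v R ^ p) := by
    have e3 : (R / 4) ^ n = (1 / 4) ^ n * R ^ n := by
      rw [← mul_pow]
      congr 1
      ring
    calc c * R ^ A * mn v R ^ p * ((R / 4) ^ n * ω)
        = c * mn v R ^ p * ((1 / 4) ^ n * ω) * (R ^ A * R ^ n) := by rw [e3]; ring
      _ = c * mn v R ^ p * ((1 / 4) ^ n * ω) * (R ^ (2 + A) * R ^ ((n : ℝ) - 2)) := by rw [e1]
      _ = _ := by field_simp
  rw [e2] at h4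
  exact le_of_mul_le_mul_left h4 (by positivity)

theorem neg_two_lt (hn : 3 ≤ n) {κ C : ℝ} (hκ : 0 < κ) {A p : ℝ} (hp : 0 < p)
    {u v : E n → ℝ} (hv : Nice v) (h : RepP κ C u (fw A p v)) : -2 < A := by
  haveI : Nonempty (Fin n) := ⟨⟨0, by omega⟩⟩
  have hb := mn_pos hv (zero_le_one' ℝ)
  have hk : 0 < κ * mn v 1 ^ p := by positivity
  have h1 : IntegrableOn (fun z : E n => ‖z‖ ^ (2 - (n : ℝ) + A)) (ball 0 1) := by
    have h2 : IntegrableOn (fun z : E n => (κ * mn v 1 ^ p)⁻¹ * (Kr κ (0 - z) * fw A p v z))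
        (ball 0 1) := ((h.intK 0).const_mul _).integrableOn
    refine Integrable.mono' h2 (measurable_norm.pow_const _).aestronglyMeasurable ?_
    rw [ae_restrict_iff' measurableSet_ball]
    filter_upwards [growth_ae_ne hn 0] with z hz hz1
    have hz0 : 0 < ‖z‖ := norm_pos_iff.2 hz
    have hz2 : ‖z‖ ≤ 1 := (mem_ball_zero_iff.1 hz1).le
    rw [Real.norm_of_nonneg (by positivity), Real.rpow_add hz0, ← div_eq_inv_mul, le_div_iff₀ hk]
    unfold Kr fw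
    rw [zero_sub, norm_neg]
    have h3 : mn v 1 ^ p ≤ v z ^ p := Real.rpow_le_rpow hb.le (growth_mn_le hv hz2) hp.le
    calc ‖z‖ ^ (2 - (n : ℝ)) * ‖z‖ ^ A * (κ * mn v 1 ^ p)
        = κ * ‖z‖ ^ (2 - (n : ℝ)) * (‖z‖ ^ A * mn v 1 ^ p) := by ring
      _ ≤ κ * ‖z‖ ^ (2 - (n : ℝ)) * (‖z‖ ^ A * v z ^ p) := by gcongr
  have h2 := (integrableOn_fun_norm_addHaar (volume : Measure (E n))
    (f := fun y : ℝ => y ^ (2 - (n : ℝ) + A)) (r := 1)).1 h1
  rw [finrank_euclideanSpace_fin] at h2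
  have h3 : IntegrableOn (fun y : ℝ => y ^ (1 + A)) (Ioo 0 1) := by
    refine h2.congr_fun ?_ measurableSet_Ioo
    intro y hy
    have hy0 : 0 < y := hy.1
    simp only [smul_eq_mul]
    rw [← Real.rpow_natCast, ← Real.rpow_add hy0, Nat.cast_sub (by omega)]
    congr 1
    push_cast
    ring
  have h4 := (intervalIntegral.integrableOn_Ioo_rpow_iff one_pos).1 h3
  linarith

end Vale.Agent.P100
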