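import Vale.Agent.P100.Basic

/-!
# P100 Hit: hitting times and short segments

Plan.  For a sign `ε = ± 1` put `T ε x = {t ∈ Icc 0 1 | v (fl c (ε t) x) ≤ s ∨ t = 1}` (closed, nonempty, bounded below) and
`τ ε x = sInf (T ε x) ∈ T ε x` (`IsClosed.csInf_mem`); `β = τ 1`, `α = τ (-1)`.
Characterisation: if `0 ≤ b < 1`, `v (fl c (ε b) x) ≤ s` and `s < v (fl c (ε t) x)` for `t ∈ [0, b)`, then `τ ε x = b`.
Measurability: `measurable_of_Ioi`; for `0 ≤ a < 1`, `a < τ ε x ↔ ∀ t ∈ Icc 0 a, s < v (fl c (ε t) x)`, an open condition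
(`IsCompact.eventually_forall_of_forall_eventually`, or `isOpen_setOf...`/ tube lemma `generalized_tube_lemma`); `a < 0`: everything; `a ≥ 1`: empty.
`S = {x | s < v x ∧ α x + β x ≤ 2e ∧ mid c α β x ∈ Icc ρ₁ ρ₂}`.  On `S`: `α, β > 0` (since `0 ∉ T`), `α, β < 1`, so the infimum is a true hit;
`s < v (fl c t x)` on `Ioo (-α) β`, and the value at the ends is `s` by continuity (`le_of_tendsto` / `closure`).
Equivariance from the characterisation and `fl_fl`; `mid` is invariant (`norm_fl_sub`).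
Cover: `e ∈ T`, so `α, β ≤ e`, `|β - α|/2 ≤ e/2`.
-/

open MeasureTheory Set Metric Filter Topology

noncomputable section

namespace Vale.Agent.P100

variable {n : ℕ}

/-- first time in `[0, 1]` at which `g ≤ s` -/
def hit (g : ℝ → ℝ) (s : ℝ) : ℝ := sInf {t | t ∈ Icc (0 : ℝ) 1 ∧ (g t ≤ s ∨ t = 1)}

section
variable {g : ℝ → ℝ} {s : ℝ}

theorem hit_le {t : ℝ} (h0 : 0 ≤ t) (h1 : t ≤ 1) (h : g t ≤ s) : hit g s ≤ t :=
  csInf_le ⟨0, fun _ h => h.1.1⟩ ⟨⟨h0, h1⟩, Or.inl h⟩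

theorem hit_mem (hg : Continuous g) : hit g s ∈ Icc (0 : ℝ) 1 ∧ (g (hit g s) ≤ s ∨ hit g s = 1) :=
  IsClosed.csInf_mem (s := {t | t ∈ Icc (0 : ℝ) 1 ∧ (g t ≤ s ∨ t = 1)})
    (isClosed_Icc.inter ((isClosed_le hg continuous_const).union isClosed_singleton))
    ⟨1, by simp⟩ ⟨0, fun _ h => h.1.1⟩

theorem hit_lt (hg : Continuous g) {t : ℝ} (h0 : 0 ≤ t) (h : t < hit g s) : s < g t :=
  lt_of_not_ge fun h' => (hit_le h0 (h.le.trans (hit_mem hg).1.2) h').not_gt h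

theorem hit_eq (hg : Continuous g) {b : ℝ} (h0 : 0 ≤ b) (h1 : b < 1) (h : g b ≤ s)
    (h' : ∀ t, 0 ≤ t → t < b → s < g t) : hit g s = b := by
  refine (hit_le h0 h1.le h).eq_of_not_lt fun h2 => ?_
  rcases (hit_mem (s := s) hg).2 with h3 | h3
  · exact (h' _ (hit_mem hg).1.1 h2).not_ge h3
  · linarith

theorem hit_val (hg : Continuous g) (h0 : s < g 0) (h1 : hit g s < 1) :
    0 < hit g s ∧ g (hit g s) = s := by
  have h2 := (hit_mem (s := s) hg).2.resolve_right h1.ne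
  have h3 : 0 < hit g s := (hit_mem hg).1.1.lt_of_ne fun h => h0.not_ge (h ▸ h2)
  refine ⟨h3, h2.antisymm ?_⟩
  have h4 : hit g s ∈ closure (Ioo 0 (hit g s)) := by
    rw [closure_Ioo h3.ne]
    exact ⟨h3.le, le_rfl⟩
  exact (isClosed_le continuous_const hg).closure_subset_iff.2
    (fun t ht => (hit_lt hg ht.1.le ht.2).le) h4

theorem measurable_hit {G : E n × ℝ → ℝ} (hG : Continuous G) (s : ℝ) :
    Measurable fun x => hit (fun t => G (x, t)) s := by
  have hg : ∀ x, Continuous fun t => G (x, t) := fun x => by fun_prop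
  refine measurable_of_Ioi fun a => ?_
  rcases lt_or_ge a 0 with h0 | h0
  · exact MeasurableSet.univ.congr
      (eq_univ_of_forall fun x => h0.trans_le (hit_mem (hg x)).1.1).symm
  rcases le_or_gt 1 a with h1 | h1
  · exact MeasurableSet.empty.congr (eq_empty_of_forall_notMem fun x hx =>
      ((hit_mem (hg x)).1.2.trans h1).not_gt hx).symm
  have e : (fun x => hit (fun t => G (x, t)) s) ⁻¹' Ioi a = {x | ∀ t ∈ Icc 0 a, s < G (x, t)} := by
    ext x
    refine ⟨fun h t ht => hit_lt (hg x) ht.1 (ht.2.trans_lt h),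
      fun h => mem_preimage.2 (mem_Ioi.2 (not_le.1 fun h' => ?_))⟩
    rcases (hit_mem (s := s) (hg x)).2 with h3 | h3
    · exact (h _ ⟨(hit_mem (hg x)).1.1, h'⟩).not_ge h3
    · linarith
  rw [e]
  refine (isOpen_iff_eventually.2 fun x hx => ?_).measurableSet
  exact isCompact_Icc.eventually_forall_of_forall_eventually (P := fun x t => s < G (x, t))
    fun t ht => hG.continuousAt.eventually (lt_mem_nhds (hx t ht))

end

theorem exists_seg {v : E n → ℝ} (hv : Continuous v) (c : E n) (s ρ₁ ρ₂ : ℝ) {e : ℝ} (he : 0 < e)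
    (he1 : 2 * e < 1) : ∃ (S : Set (E n)) (α β : E n → ℝ), Seg (fl c) S α β ∧
    (∀ x ∈ S, α x + β x ≤ 2 * e ∧ s < v x ∧ v (fl c (-α x) x) = s ∧ v (fl c (β x) x) = s ∧
      mid c α β x ∈ Icc ρ₁ ρ₂) ∧
    (∀ x, s < v x → v (fl c e x) ≤ s → v (fl c (-e) x) ≤ s → ρ₁ ≤ Real.exp (-(e / 2)) * ‖x - c‖ →
      Real.exp (e / 2) * ‖x - c‖ ≤ ρ₂ → x ∈ S) := by
  obtain ⟨α, hα⟩ : ∃ α : E n → ℝ, α = fun x => hit (fun t => v (fl c (-t) x)) s := ⟨_, rfl⟩
  obtain ⟨β, hβ⟩ : ∃ β : E n → ℝ, β = fun x => hit (fun t => v (fl c t x)) s := ⟨_, rfl⟩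
  have c2 : ∀ x, Continuous fun t => v (fl c t x) := fun x => hv.comp (continuous_fl_time c x)
  have c1 : ∀ x, Continuous fun t => v (fl c (-t) x) := fun x => (c2 x).comp continuous_neg
  have m1 : Measurable α := hα ▸ measurable_hit (G := fun w => v (fl c (-w.2) w.1))
    (hv.comp (continuous_fl.comp (f := fun w : E n × ℝ => (c, -w.2, w.1)) (by fun_prop))) s
  have m2 : Measurable β := hβ ▸ measurable_hit (G := fun w => v (fl c w.2 w.1))
    (hv.comp (continuous_fl.comp (f := fun w : E n × ℝ => (c, w.2, w.1)) (by fun_prop))) s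
  have f0 : ∀ x, fl c 0 x = x := fun x => by simp [fl]
  have p1 : ∀ x, 0 ≤ α x := fun x => hα ▸ (hit_mem (c1 x)).1.1
  have p2 : ∀ x, 0 ≤ β x := fun x => hβ ▸ (hit_mem (c2 x)).1.1
  have k0 : ∀ x, s < v x → α x + β x ≤ 2 * e →
      (0 < α x ∧ v (fl c (-α x) x) = s) ∧ 0 < β x ∧ v (fl c (β x) x) = s := fun x h h' => by
    have h1 : α x < 1 := by linarith [p2 x]
    have h2 : β x < 1 := by linarith [p1 x]
    subst hα hβ
    exact ⟨hit_val (c1 x) (by simpa [f0] using h) h1, hit_val (c2 x) (by simpa [f0] using h) h2⟩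
  have k1 : ∀ x, s < v x → ∀ t ∈ Ioo (-α x) (β x), s < v (fl c t x) := fun x h t ht => by
    subst hα hβ
    rcases le_total 0 t with h0 | h0
    · exact hit_lt (c2 x) h0 ht.2
    · simpa using hit_lt (c1 x) (neg_nonneg.2 h0) (neg_lt.1 ht.1)
  have k2 : ∀ x, s < v x → α x + β x ≤ 2 * e → ∀ t ∈ Ioo (-α x) (β x),
      α (fl c t x) = α x + t ∧ β (fl c t x) = β x - t := fun x h h' t ht => by
    obtain ⟨⟨-, h1⟩, -, h2⟩ := k0 x h h'
    obtain ⟨t1, t2⟩ := ht
    constructor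
    · refine (congrFun hα _).trans (hit_eq (c1 _) (by linarith) (by linarith) ?_ fun u u1 u2 => ?_)
      · rw [fl_fl, show -(α x + t) + t = -α x by ring, h1]
      · rw [fl_fl]
        exact k1 x h _ ⟨by linarith, by linarith⟩
    · refine (congrFun hβ _).trans (hit_eq (c2 _) (by linarith) (by linarith) ?_ fun u u1 u2 => ?_)
      · rw [fl_fl, sub_add_cancel, h2]
      · rw [fl_fl]
        exact k1 x h _ ⟨by linarith, by linarith⟩
  refine ⟨{x | s < v x ∧ α x + β x ≤ 2 * e ∧ mid c α β x ∈ Icc ρ₁ ρ₂}, α, β, ⟨?_, m1, m2,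
    fun x hx => (k0 x hx.1 hx.2.1).1.1, fun x hx => (k0 x hx.1 hx.2.1).2.1, fun x hx t ht => ?_,
    fun x hx t ht => (k2 x hx.1 hx.2.1 t ht).1, fun x hx t ht => (k2 x hx.1 hx.2.1 t ht).2⟩,
    fun x hx => ⟨hx.2.1, hx.1, (k0 x hx.1 hx.2.1).1.2, (k0 x hx.1 hx.2.1).2.2, hx.2.2⟩,
    fun x h h1 h2 h3 h4 => ?_⟩
  · exact (measurableSet_lt measurable_const hv.measurable).inter ((measurableSet_le (m1.add m2)
      measurable_const).inter (measurable_mid m1 m2 measurableSet_Icc))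
  · obtain ⟨h1, h2⟩ := k2 x hx.1 hx.2.1 t ht
    refine ⟨k1 x hx.1 t ht, by linarith [hx.2.1], ?_⟩
    convert hx.2.2 using 1
    rw [mid, mid, h1, h2, norm_fl_sub, ← mul_assoc, ← Real.exp_add]
    congr 2
    ring
  · have h5 : α x ≤ e := hα ▸ hit_le he.le (by linarith) h2
    have h6 : β x ≤ e := hβ ▸ hit_le he.le (by linarith) h1
    refine ⟨h, by linarith, h3.trans ?_, le_trans ?_ h4⟩ <;>
    exact mul_le_mul_of_nonneg_right (Real.exp_le_exp.2 (by linarith [p1 x, p2 x])) (norm_nonneg _)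

end Vale.Agent.P100
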