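import Vale.Agent.P100.Defs
import Vale.Agent.P100H.Lap

/-!
# P100 Lap: Laplacian calculus

Plan.  `InnerProductSpace.laplacian_eq_iteratedFDeriv_orthonormalBasis` with `EuclideanSpace.basisFun (Fin n) ℝ`,
`iteratedFDeriv_two_apply` give `lap w x = ∑ i, fderiv (fderiv w) x eᵢ eᵢ`; `fderiv_clm_apply` (or
`HasFDerivAt.clm_apply` with a constant vector) turns it into `∑ i, pd i (pd i w) x`.
For products and radial functions compute `pd i` in a neighbourhood (`ContDiffAt.eventually`, `Filter.EventuallyEq.fderiv_eq`).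
For the radial formula use `HasFDerivAt` of `y ↦ ‖y - x‖^2` (`HasFDerivAt.norm_sq`), `∑ i, (y i - x i)^2 = ‖y - x‖^2`
(`EuclideanSpace.norm_sq_eq` / `EuclideanSpace.real_norm_sq_eq`).
-/

open MeasureTheory Set Metric Filter Topology

noncomputable section

namespace Vale.Agent.P100

variable {n : ℕ}

theorem lap_ee_eq (i : Fin n) : (P100H.ee i : E n) = EuclideanSpace.single i 1 := by
  simp [P100H.ee]

theorem lap_eq_sum {w : E n → ℝ} {x : E n} (hw : ContDiffAt ℝ 2 w x) :
    lap w x = ∑ i, pd i (pd i w) x := by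
  unfold lap pd
  rw [P100H.lap_eq' hw]
  simp only [lap_ee_eq]

theorem contDiffAt_pd {w : E n → ℝ} {x : E n} (hw : ContDiffAt ℝ 2 w x) (i : Fin n) :
    ContDiffAt ℝ 1 (pd i w) x := by
  exact (hw.fderiv_right (m := 1) (by norm_num)).clm_apply contDiffAt_const

theorem pd_mul {a b : E n → ℝ} {x : E n} (ha : DifferentiableAt ℝ a x) (hb : DifferentiableAt ℝ b x)
    (i : Fin n) : pd i (fun y => a y * b y) x = pd i a x * b x + a x * pd i b x := by
  unfold pd
  rw [fderiv_fun_mul ha hb]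
  simp only [add_apply, smul_apply, smul_eq_mul]
  ring

theorem lap_mul {a b : E n → ℝ} {x : E n} (ha : ContDiffAt ℝ 2 a x) (hb : ContDiffAt ℝ 2 b x) :
    lap (fun y => a y * b y) x = lap a x * b x + 2 * ∑ i, pd i a x * pd i b x + a x * lap b x := by
  unfold lap pd
  rw [P100H.lap_mul ha hb]
  simp only [lap_ee_eq]
  ring

theorem continuousAt_lap {w : E n → ℝ} {x : E n} (hw : ContDiffAt ℝ 2 w x) :
    ContinuousAt (lap w) x := by
  have h1 : lap w = fun x => ∑ i, fderiv ℝ (fderiv ℝ w) x (P100H.ee i) (P100H.ee i) := by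
    ext y; exact P100H.lap_eq w y
  have h2 : ContinuousAt (fderiv ℝ (fderiv ℝ w)) x :=
    ((hw.fderiv_right (m := 1) (by norm_num)).fderiv_right (m := 0) (by norm_num)).continuousAt
  rw [h1]
  fun_prop

theorem continuous_lap {w : E n → ℝ} (hw : ContDiff ℝ 2 w) : Continuous (lap w) := by
  exact P100H.continuous_lap hw

theorem continuous_pd {w : E n → ℝ} (hw : ContDiff ℝ 2 w) (i : Fin n) : Continuous (pd i w) := by
  exact ((hw.fderiv_right (m := 1) (by norm_num)).clm_apply contDiff_const).continuous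

theorem pd_congr {a b : E n → ℝ} {x : E n} (h : a =ᶠ[𝓝 x] b) (i : Fin n) : pd i a x = pd i b x := by
  unfold pd
  rw [h.fderiv_eq]

theorem lap_congr {a b : E n → ℝ} {x : E n} (h : a =ᶠ[𝓝 x] b) : lap a x = lap b x := by
  exact (InnerProductSpace.laplacian_congr_nhds h).eq_of_nhds

theorem pd_eq_zero_of_notMem {w : E n → ℝ} {x : E n} (hx : x ∉ tsupport w) (i : Fin n) :
    pd i w x = 0 := by
  have : w =ᶠ[𝓝 x] fun _ => 0 := notMem_tsupport_iff_eventuallyEq.1 hx
  rw [pd_congr this]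
  simp [pd]

theorem lap_eq_zero_of_notMem {w : E n → ℝ} {x : E n} (hx : x ∉ tsupport w) : lap w x = 0 := by
  have : w =ᶠ[𝓝 x] fun _ => 0 := notMem_tsupport_iff_eventuallyEq.1 hx
  rw [lap_congr this, lap, InnerProductSpace.laplacian_const]
  rfl

theorem contDiff_radial {φ : ℝ → ℝ} (hφ : ContDiff ℝ 2 φ) (x : E n) :
    ContDiff ℝ 2 (fun y : E n => φ (‖y - x‖ ^ 2)) := by
  exact contDiff_iff_contDiffAt.2 fun y => P100H.contDiffAt_radial x y hφ.contDiffAt

theorem pd_radial {φ : ℝ → ℝ} (hφ : ContDiff ℝ 2 φ) (x y : E n) (i : Fin n) :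
    pd i (fun y : E n => φ (‖y - x‖ ^ 2)) y = 2 * (y i - x i) * deriv φ (‖y - x‖ ^ 2) := by
  unfold pd
  rw [(P100H.hasFDerivAt_radial x y (hφ.differentiable (by norm_num) _).hasDerivAt).fderiv]
  simp only [smul_apply, innerSL_apply_apply, smul_eq_mul, EuclideanSpace.inner_single_right]
  simp
  ring

theorem lap_radial {φ : ℝ → ℝ} (hφ : ContDiff ℝ 2 φ) (x y : E n) :
    lap (fun y : E n => φ (‖y - x‖ ^ 2)) y =
      2 * n * deriv φ (‖y - x‖ ^ 2) + 4 * ‖y - x‖ ^ 2 * deriv (deriv φ) (‖y - x‖ ^ 2) := by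
  unfold lap
  rw [P100H.lap_radial x y hφ.contDiffAt]
  ring

end Vale.Agent.P100
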