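import Vale.Agent.P100.Hit

/-!
# P100 Layer: the frozen weight on short segments

Plan.  `exists_seg` with window `[r, r + d/2]`.  From `Geo`: `0 < d ≤ R`, `e ≤ 1/64`, `‖c‖ ≤ d/8`.  With `m x = (β x - α x)/2` (`|m| ≤ e` on `S`),
`C₁ = 8|A| + (n+2)/2`, define `σ = S.indicator (x ↦ exp (-C₁ e) ‖fl c (m x) x‖^A exp ((n+2)/2 m x))`.
Equivariance: `m (fl c t x) = m x - t`, `fl c (m x - t) (fl c t x) = fl c (m x) x`.
Sizes on `S` (`ϱ = ‖x - c‖ = mid · exp (-m)`): `r - d/32 ≤ ϱ ≤ r + 9d/16` (`exp e ≤ 1 + 2e`, `exp (-e) ≥ 1 - e`, `r + d ≤ 2R`, `64 e R ≤ d`);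
so `R/2 ≤ ‖x‖ < r + 3d/4`, `ϱ ≤ 2‖x‖`, `ϱ ≤ 2R`.  `‖fl c m x - x‖ = |e^m - 1| ϱ ≤ 2eϱ ≤ 4e‖x‖` (`Real.abs_exp_sub_one_le`), hence
`‖fl c m x‖ = λ‖x‖` with `exp (-8e) ≤ λ ≤ exp (8e)`, so `σ x / ‖x‖^A = exp (-C₁ e + A log λ + (n+2)/2 m) ∈ [exp (-2C₁e), 1]`; `C = 2C₁`.
`|Ψ mid - Ψ ϱ| ≤ (L/d)|mid - ϱ|` (`Convex.norm_image_sub_le_of_norm_deriv_le`), `|mid - ϱ| ≤ 2eϱ ≤ 4eR`.
Cover: for `r + d/8 ≤ ϱ ≤ r + 3d/8`: `exp (-e/2) ϱ ≥ r`, `exp (e/2) ϱ ≤ r + d/2`.
-/

open MeasureTheory Set Metric Filter Topology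

noncomputable section

namespace Vale.Agent.P100

variable {n : ℕ}

theorem layer_log {a b e : ℝ} (ha : 0 < a) (he : 0 < e) (he1 : e ≤ 1 / 64)
    (h : |b - a| ≤ 4 * e * a) : 0 < b ∧ |Real.log b - Real.log a| ≤ 8 * e := by
  obtain ⟨h1, h2⟩ := abs_le.mp h
  have hb : 0 < b := by nlinarith
  refine ⟨hb, abs_le.mpr ⟨?_, ?_⟩⟩
  · have h3 := Real.log_le_sub_one_of_pos (div_pos ha hb)
    rw [Real.log_div ha.ne' hb.ne'] at h3
    have h4 : a / b ≤ 1 + 8 * e := by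
      rw [div_le_iff₀ hb]
      nlinarith [mul_pos he ha]
    linarith
  · have h3 := Real.log_le_sub_one_of_pos (div_pos hb ha)
    rw [Real.log_div hb.ne' ha.ne'] at h3
    have h4 : b / a ≤ 1 + 8 * e := by
      rw [div_le_iff₀ ha]
      nlinarith [mul_pos he ha]
    linarith

theorem layer_weight {a b e A k m : ℝ} (ha : 0 < a) (he : 0 < e) (he1 : e ≤ 1 / 64) (hk : 0 ≤ k)
    (h : |b - a| ≤ 4 * e * a) (hm : |m| ≤ e) :
    (1 - 2 * (8 * |A| + k) * e) * a ^ A ≤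
        Real.exp (-((8 * |A| + k) * e)) * b ^ A * Real.exp (k * m) ∧
      Real.exp (-((8 * |A| + k) * e)) * b ^ A * Real.exp (k * m) ≤ a ^ A := by
  obtain ⟨hb, hl⟩ := layer_log ha he he1 h
  have e1 : Real.exp (-((8 * |A| + k) * e)) * b ^ A * Real.exp (k * m) =
      Real.exp (-((8 * |A| + k) * e) + (Real.log b - Real.log a) * A + k * m) * a ^ A := by
    rw [Real.rpow_def_of_pos ha, Real.rpow_def_of_pos hb, ← Real.exp_add, ← Real.exp_add,
      ← Real.exp_add]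
    congr 1
    ring
  have b1 : |(Real.log b - Real.log a) * A| ≤ 8 * e * |A| := by
    rw [abs_mul]
    exact mul_le_mul_of_nonneg_right hl (abs_nonneg _)
  have b2 : |k * m| ≤ k * e := by
    rw [abs_mul, abs_of_nonneg hk]
    exact mul_le_mul_of_nonneg_left hm hk
  obtain ⟨b1, b1'⟩ := abs_le.mp b1
  obtain ⟨b2, b2'⟩ := abs_le.mp b2
  have hA : 0 < a ^ A := Real.rpow_pos_of_pos ha A
  rw [e1]
  constructor
  · refine mul_le_mul_of_nonneg_right ?_ hA.le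
    refine le_trans ?_ (Real.add_one_le_exp _)
    nlinarith
  · refine mul_le_of_le_one_left hA.le ?_
    rw [Real.exp_le_one_iff]
    nlinarith

theorem exists_layer (n : ℕ) (A : ℝ) : ∃ C : ℝ, 0 ≤ C ∧ ∀ (v : E n → ℝ), Continuous v →
    ∀ (R r d e s L : ℝ) (c : E n) (Ψ : ℝ → ℝ), Geo R r d e c →
    Cut Ψ (r + d / 8) (r + 3 * d / 8) (L / d) →
    ∃ (S : Set (E n)) (α β σ : E n → ℝ), Lay1 c S α β σ ∧
      (∀ x ∈ S, R / 2 ≤ ‖x‖ ∧ ‖x‖ < r + 3 * d / 4 ∧ s < v x ∧ v (fl c (-α x) x) = s ∧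
        v (fl c (β x) x) = s ∧ (1 - C * e) * ‖x‖ ^ A ≤ σ x ∧ σ x ≤ ‖x‖ ^ A ∧
        |Ψ (mid c α β x) - Ψ ‖x - c‖| ≤ 4 * L * (e * R / d)) ∧
      (∀ x, ‖x - c‖ ∈ Icc (r + d / 8) (r + 3 * d / 8) → s < v x → v (fl c e x) ≤ s →
        v (fl c (-e) x) ≤ s → x ∈ S) := by
  refine ⟨2 * (8 * |A| + ((n : ℝ) + 2) / 2), by positivity, ?_⟩
  intro v hv R r d e s L c Ψ hG hC
  obtain ⟨hd, hr, hrd, he, heR, hc⟩ := hG
  have hdR : d ≤ R := by linarith
  have hR : 0 < R := by linarith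
  have he1 : e ≤ 1 / 64 := by nlinarith
  obtain ⟨S, α, β, hS, h1, h2⟩ := exists_seg hv c s r (r + d / 2) he (by linarith)
  classical
  refine ⟨S, α, β, S.indicator fun x => Real.exp (-((8 * |A| + ((n : ℝ) + 2) / 2) * e)) *
    ‖fl c ((β x - α x) / 2) x‖ ^ A * Real.exp (((n : ℝ) + 2) / 2 * ((β x - α x) / 2)),
    ⟨hS, ?_, ?_, ?_, ?_⟩, ?_, ?_⟩
  · have hm : Measurable fun x => (β x - α x) / 2 := (hS.mβ.sub hS.mα).div_const _
    have hf : Measurable fun x : E n => fl c ((β x - α x) / 2) x :=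
      continuous_fl.measurable.comp (measurable_const.prodMk (hm.prodMk measurable_id))
    refine Measurable.indicator ?_ hS.mS
    exact (measurable_const.mul (hf.norm.pow_const A)).mul (hm.const_mul _).exp
  · intro x
    exact indicator_nonneg (fun y _ => by positivity) x
  · intro x hx
    exact indicator_of_notMem hx _
  · intro x hx t ht
    rw [indicator_of_mem hx, indicator_of_mem (hS.mem x hx t ht), hS.eα x hx t ht,
      hS.eβ x hx t ht, fl_fl]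
    have e1 : (β x - t - (α x + t)) / 2 + t = (β x - α x) / 2 := by ring
    have e2 : ((n : ℝ) + 2) / 2 * ((β x - t - (α x + t)) / 2) =
        ((n : ℝ) + 2) / 2 * ((β x - α x) / 2) + -(((n : ℝ) + 2) / 2 * t) := by ring
    rw [e1, e2, Real.exp_add]
    ring
  · intro x hx
    obtain ⟨a1, a2, a3, a4, a5, a6⟩ := h1 x hx
    have pα := hS.pα x hx
    have pβ := hS.pβ x hx
    have hm : |(β x - α x) / 2| ≤ e := abs_le.mpr ⟨by linarith, by linarith⟩
    have hm' : |-((β x - α x) / 2)| ≤ e := by rwa [abs_neg]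
    have x1 : |Real.exp ((β x - α x) / 2) - 1| ≤ 2 * e :=
      (Real.abs_exp_sub_one_le (by linarith)).trans (by linarith)
    have x2 : |Real.exp (-((β x - α x) / 2)) - 1| ≤ 2 * e :=
      (Real.abs_exp_sub_one_le (by linarith)).trans (by linarith)
    have hmid0 : 0 ≤ mid c α β x := by linarith
    have hϱ : ‖x - c‖ = Real.exp (-((β x - α x) / 2)) * mid c α β x := by
      unfold mid
      rw [← mul_assoc, ← Real.exp_add, neg_add_cancel, Real.exp_zero, one_mul]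
    have hdiff : |mid c α β x - ‖x - c‖| ≤ 4 * e * R := by
      have : mid c α β x - ‖x - c‖ = -((Real.exp (-((β x - α x) / 2)) - 1) * mid c α β x) := by
        rw [hϱ]; ring
      rw [this, abs_neg, abs_mul, abs_of_nonneg hmid0]
      calc _ ≤ 2 * e * mid c α β x := mul_le_mul_of_nonneg_right x2 hmid0
        _ ≤ 2 * e * (2 * R) := mul_le_mul_of_nonneg_left (by linarith) (by positivity)
        _ = 4 * e * R := by ring
    obtain ⟨d1, d2⟩ := abs_le.mp hdiff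
    have n1 : ‖x - c‖ ≤ ‖x‖ + ‖c‖ := norm_sub_le _ _
    have n2 : ‖x‖ ≤ ‖x - c‖ + ‖c‖ := by
      simpa using norm_add_le (x - c) c
    have l1 : R / 2 ≤ ‖x‖ := by linarith
    have hx0 : 0 < ‖x‖ := by linarith
    have hy : |‖fl c ((β x - α x) / 2) x‖ - ‖x‖| ≤ 4 * e * ‖x‖ := by
      refine (abs_norm_sub_norm_le _ _).trans ?_
      have : fl c ((β x - α x) / 2) x - x = (Real.exp ((β x - α x) / 2) - 1) • (x - c) := by
        unfold fl
        rw [sub_smul, one_smul]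
        abel
      rw [this, norm_smul, Real.norm_eq_abs]
      calc _ ≤ 2 * e * ‖x - c‖ := mul_le_mul_of_nonneg_right x1 (norm_nonneg _)
        _ ≤ 2 * e * (2 * ‖x‖) := mul_le_mul_of_nonneg_left (by linarith) (by positivity)
        _ = 4 * e * ‖x‖ := by ring
    obtain ⟨w1, w2⟩ := layer_weight (A := A) (k := ((n : ℝ) + 2) / 2) hx0 he he1
      (by positivity) hy hm
    refine ⟨l1, by linarith, a2, a3, a4, ?_, ?_, ?_⟩
    · rw [indicator_of_mem hx]
      exact w1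
    · rw [indicator_of_mem hx]
      exact w2
    · have hL : 0 ≤ L / d := (abs_nonneg _).trans (hC.bd 0)
      have := Convex.norm_image_sub_le_of_norm_deriv_le (f := Ψ) (s := univ) (C := L / d)
        (fun y _ => hC.diff y) (fun y _ => hC.bd y) convex_univ (mem_univ ‖x - c‖)
        (mem_univ (mid c α β x))
      rw [Real.norm_eq_abs, Real.norm_eq_abs] at this
      calc _ ≤ L / d * |mid c α β x - ‖x - c‖| := this
        _ ≤ L / d * (4 * e * R) := mul_le_mul_of_nonneg_left hdiff hL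
        _ = 4 * L * (e * R / d) := by ring
  · intro x hx a1 a2 a3
    obtain ⟨b1, b2⟩ := hx
    have hϱ : ‖x - c‖ ≤ 2 * R := by linarith
    have h0 := norm_nonneg (x - c)
    refine h2 x a1 a2 a3 ?_ ?_
    · have := Real.add_one_le_exp (-(e / 2))
      nlinarith [mul_le_mul_of_nonneg_right this h0, mul_le_mul_of_nonneg_left hϱ he.le]
    · have h3 : |Real.exp (e / 2) - 1| ≤ 2 * |e / 2| :=
        Real.abs_exp_sub_one_le (by rw [abs_of_pos (by linarith)]; linarith)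
      rw [abs_of_pos (show 0 < e / 2 by linarith)] at h3
      have h4 : Real.exp (e / 2) ≤ 1 + e := by linarith [(abs_le.mp h3).2]
      nlinarith [mul_le_mul_of_nonneg_right h4 h0, mul_le_mul_of_nonneg_left hϱ he.le]

end Vale.Agent.P100
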