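import Vale.Agent.P100.RepEps
import Vale.Agent.P100H.TwoD

/-!
# P100 Rep: the representation formula, and the case `n = 2`

Plan for `rep`.  `Π t = ∫ y, Pk t (y-x) f y ≥ 0`.  By `rep_eps` and `tendsto_avg`, `∫ t in Ioo ε s, Π → mass u x - ∫ Rk s u`
as `ε → 0+`; monotone convergence (e.g. `integrableOn_Ioc_of_intervalIntegral_norm_bounded_left`, or `AECover` lemmas, or
`lintegral_iSup` along `ε = s/(k+2)`) gives `IntegrableOn Π (Ioo 0 s)` and the value of the integral.  Then
`integrable_prod_iff` (measurability from `measurable_Pk`) gives integrability of `(t,y) ↦ Pk t (y-x) f y` for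
`(volume.restrict (Ioo 0 s)).prod volume`; swap (`integral_integral_swap`, `Integrable.integral_prod_right`), and
`∫ t in Ioo 0 s, Pk t ζ * f y = kk s ζ * f y`.

Plan for `no_two`.  For `n = 2`, `0 < ‖ζ‖ < 1`, `s ≥ 2`: `kk s ζ ≥ ∫ t in Ioo 2 s, t⁻¹/8 = log (s/2)/8` (`ph_ge`; `Pk t ζ` vanishes for
`t ≤ ‖ζ‖` and is continuous on `t > 0`, so it is integrable on `Ioo 0 s`).  With `x = 0`: `mass u 0 ≥ log (s/2)/8 ∫_{ball 0 1} f`;
`s = 4` shows `f` integrable on the ball, the integral is positive (`setIntegral_pos_iff_support_of_nonneg_ae`), let `s → ∞`.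
-/

open MeasureTheory Set Metric Filter Topology

noncomputable section

namespace Vale.Agent.P100

variable {n : ℕ}

theorem integrableOn_Pk {ζ : E n} (hζ : ζ ≠ 0) (s : ℝ) : IntegrableOn (fun t => Pk t ζ) (Ioo 0 s) := by
  have h0 : 0 < ‖ζ‖ := norm_pos_iff.2 hζ
  have hc : ContinuousOn (fun t => Pk t ζ) (Icc ‖ζ‖ s) := by
    have h1 : ContinuousOn (fun t : ℝ => (t, ζ)) (Icc ‖ζ‖ s) := by fun_prop
    exact continuousOn_Pk.comp h1 fun t ht => ⟨h0.trans_le ht.1, mem_univ _⟩
  have h2 : IntegrableOn (fun t => Pk t ζ) (Icc ‖ζ‖ s) := hc.integrableOn_Icc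
  refine h2.of_forall_sdiff_eq_zero measurableSet_Ioo fun t ht => ?_
  refine Pk_eq_zero ht.1.1 ?_
  by_contra h
  exact ht.2 ⟨(not_le.1 h).le, ht.1.2.le⟩

theorem measurable_kk (s : ℝ) : Measurable (fun ζ : E n => kk s ζ) := by
  have h : StronglyMeasurable (Function.uncurry fun (t : ℝ) (ζ : E n) => Pk t ζ) :=
    measurable_Pk.stronglyMeasurable
  exact (h.integral_prod_left (μ := volume.restrict (Ioo 0 s))).measurable

theorem kk_nonneg (s : ℝ) (ζ : E n) : 0 ≤ kk s ζ := by
  exact setIntegral_nonneg measurableSet_Ioo fun t ht => Pk_nonneg ht.1 ζ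

theorem kk_eq_zero {s : ℝ} {ζ : E n} (h : s ≤ ‖ζ‖) : kk s ζ = 0 := by
  exact setIntegral_eq_zero_of_forall_eq_zero fun t ht => Pk_eq_zero ht.1 (ht.2.le.trans h)

theorem rep (hn : 2 ≤ n) {u f : E n → ℝ} (h : Sup u f) (x : E n) {s : ℝ} (hs : 0 < s) :
    Integrable (fun y => kk s (y - x) * f y) ∧
    mass n * u x = (∫ y, Rk s (y - x) * u y) + ∫ y, kk s (y - x) * f y := by
  set P : ℝ → ℝ := fun t => ∫ y, Pk t (y - x) * f y with hP
  let a : ℕ → ℝ := fun k => s * (1 / ((k : ℝ) + 1))
  have ha0 : ∀ k, 0 < a k := fun k => by positivity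
  have has : ∀ k, a k ≤ s := fun k => by
    have : 1 / ((k : ℝ) + 1) ≤ 1 := by
      rw [div_le_one (by positivity)]; have := Nat.cast_nonneg (α := ℝ) k; linarith
    exact mul_le_of_le_one_right hs.le this
  have hat : Tendsto a atTop (𝓝 0) := by
    have := (tendsto_one_div_add_atTop_nhds_zero_nat (𝕜 := ℝ)).const_mul s
    rwa [mul_zero] at this
  have hat' : Tendsto a atTop (𝓝[>] 0) :=
    tendsto_nhdsWithin_iff.2 ⟨hat, Eventually.of_forall ha0⟩
  have hcov : AECover (volume.restrict (Ioo 0 s)) atTop fun k => Ioo (a k) s :=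
    aecover_Ioo_of_Ioo hat tendsto_const_nhds
  have hres : ∀ k, (volume.restrict (Ioo 0 s)).restrict (Ioo (a k) s) =
      volume.restrict (Ioo (a k) s) := fun k =>
    Measure.restrict_restrict_of_subset (Ioo_subset_Ioo_left (ha0 k).le)
  have hfi : ∀ k, IntegrableOn P (Ioo (a k) s) (volume.restrict (Ioo 0 s)) := fun k => by
    rw [IntegrableOn, hres]
    exact (rep_eps hn h x (ha0 k) (has k)).1
  have hnn : ∀ᵐ t ∂(volume.restrict (Ioo 0 s)), 0 ≤ P t := by
    filter_upwards [ae_restrict_mem measurableSet_Ioo] with t ht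
    exact integral_nonneg fun y => mul_nonneg (Pk_nonneg ht.1 _) (h.nf y)
  have hlim : Tendsto (fun k => ∫ t in Ioo (a k) s, P t ∂(volume.restrict (Ioo 0 s))) atTop
      (𝓝 (mass n * u x - ∫ y, Rk s (y - x) * u y)) := by
    have := ((tendsto_avg h.cu x).comp hat').sub_const (∫ y, Rk s (y - x) * u y)
    refine this.congr fun k => ?_
    rw [hres, (rep_eps hn h x (ha0 k) (has k)).2]
    rfl
  have hPi := hcov.integrable_of_integral_tendsto_of_nonneg_ae _ hfi hnn hlim
  have hPv := hcov.integral_eq_of_tendsto_of_nonneg_ae _ hnn hfi hlim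
  have hm : Measurable (Function.uncurry fun (t : ℝ) (y : E n) => Pk t (y - x) * f y) := by
    have h1 : Measurable fun w : ℝ × E n => (w.1, w.2 - x) := by fun_prop
    exact (measurable_Pk.comp h1).mul (h.mf.comp measurable_snd)
  have hprod : Integrable (Function.uncurry fun (t : ℝ) (y : E n) => Pk t (y - x) * f y)
      ((volume.restrict (Ioo 0 s)).prod volume) := by
    rw [integrable_prod_iff hm.aestronglyMeasurable]
    constructor
    · filter_upwards [ae_restrict_mem measurableSet_Ioo] with t ht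
      exact integrable_Pk_mul hn h ht.1 x
    · refine hPi.congr ?_
      filter_upwards [ae_restrict_mem measurableSet_Ioo] with t ht
      refine integral_congr_ae (Eventually.of_forall fun y => ?_)
      exact (Real.norm_of_nonneg (mul_nonneg (Pk_nonneg ht.1 _) (h.nf y))).symm
  have hk : ∀ y, ∫ t in Ioo 0 s, Pk t (y - x) * f y = kk s (y - x) * f y := fun y =>
    integral_mul_const _ _
  have h1 := hprod.integral_prod_right
  have h2 := integral_integral_swap hprod
  simp only [Function.uncurry_apply_pair, hk] at h1 h2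
  refine ⟨h1, ?_⟩
  rw [← h2]
  change _ = _ + ∫ t in Ioo 0 s, P t
  rw [hPv]; ring

theorem no_two {u f : E 2 → ℝ} (h : Sup u f) (hf : ∀ x, x ≠ 0 → 0 < f x) : False := by
  refine P100H.twoD h.du h.cu (fun x => (h.pos x).le) fun x hx => ?_
  have h1 := h.eq x hx
  have h2 := hf x hx
  unfold lap at h1
  linarith

end Vale.Agent.P100
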