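import Vale.Agent.P100.Weak
import Vale.Agent.P100.Bump

/-!
# P100 RepEps: difference of two averages

Plan.  For `t > 0`, `weak_eq` with `ζ y = Pk t (y - x)` and `lap_Pk`: `∫ Pk t (y-x) f y = -∫ u y Lk t (y-x)`.
For each `y`: `Rk h (y-x) - Rk ε (y-x) = ∫ t in ε..h, Lk t (y-x)` (`hasDerivAt_Rk`, `continuousOn_Lk`).
`(t, y) ↦ Lk t (y-x) u y` is integrable on `Ioo ε h ×ˢ univ`: it is continuous on the compact set `Icc ε h ×ˢ closedBall x h`
and vanishes for `‖y - x‖ ≥ h` (`Lk_eq_zero`).  `integral_integral_swap`, `Integrable.integral_prod_left`.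
`tendsto_avg`: substitute `y = x + ε • z` (`Measure.integral_comp_smul`, `integral_add_left_eq_self`): the integral is
`∫ z, rh (‖z‖²) u (x + ε z)`; dominated convergence (`tendsto_integral_filter_of_dominated_convergence`), `u` bounded on
`closedBall x 1`, `rh (‖z‖²) = 0` for `‖z‖ ≥ 1`.
-/

open MeasureTheory Set Metric Filter Topology

noncomputable section

namespace Vale.Agent.P100

variable {n : ℕ}

theorem integrable_Rk_mul {t : ℝ} (ht : 0 < t) (x : E n) {u : E n → ℝ} (hu : Continuous u) :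
    Integrable (fun y => Rk t (y - x) * u y) := by
  refine Continuous.integrable_of_hasCompactSupport
    (((continuous_Rk t).comp (continuous_id.sub continuous_const)).mul hu) ?_
  refine HasCompactSupport.intro (isCompact_closedBall x t) fun y hy => ?_
  rw [mem_closedBall, dist_eq_norm, not_le] at hy
  rw [Rk_eq_zero ht hy.le, zero_mul]

theorem integrable_Pk_mul (hn : 2 ≤ n) {u f : E n → ℝ} (h : Sup u f) {t : ℝ} (ht : 0 < t) (x : E n) :
    Integrable (fun y => Pk t (y - x) * f y) := by
  have := (weak_eq hn h (contDiff_Pk t x) (hasCompactSupport_Pk ht x)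
    (fun y => Pk_nonneg ht _)).1
  simpa only [mul_comm] using this

theorem rep_eps (hn : 2 ≤ n) {u f : E n → ℝ} (h : Sup u f) (x : E n) {ε s : ℝ} (hε : 0 < ε)
    (hs : ε ≤ s) :
    IntegrableOn (fun t => ∫ y, Pk t (y - x) * f y) (Ioo ε s) ∧
    ∫ t in Ioo ε s, ∫ y, Pk t (y - x) * f y =
      (∫ y, Rk ε (y - x) * u y) - ∫ y, Rk s (y - x) * u y := by
  have hPi : ∀ t, 0 < t → ∫ y, Pk t (y - x) * f y = -∫ y, Lk t (y - x) * u y := by
    intro t ht
    have := (weak_eq hn h (contDiff_Pk t x) (hasCompactSupport_Pk ht x)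
      (fun y => Pk_nonneg ht _)).2
    simp only [lap_Pk ht] at this
    simpa only [mul_comm] using this
  have hc : ContinuousOn (fun w : ℝ × E n => Lk w.1 (w.2 - x) * u w.2) (Ioi 0 ×ˢ univ) := by
    refine ContinuousOn.mul ?_ (h.cu.comp continuous_snd).continuousOn
    exact continuousOn_Lk.comp (f := fun w : ℝ × E n => (w.1, w.2 - x)) (by fun_prop)
      fun w hw => ⟨hw.1, mem_univ _⟩
  have hK : IntegrableOn (fun w : ℝ × E n => Lk w.1 (w.2 - x) * u w.2)
      (Icc ε s ×ˢ closedBall x s) (volume.prod volume) :=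
    (hc.mono fun w hw => ⟨hε.trans_le hw.1.1, mem_univ _⟩).integrableOn_compact
      (isCompact_Icc.prod (isCompact_closedBall x s))
  have hI : IntegrableOn (fun w : ℝ × E n => Lk w.1 (w.2 - x) * u w.2)
      (Ioo ε s ×ˢ univ) (volume.prod volume) := by
    refine hK.of_forall_sdiff_eq_zero (measurableSet_Ioo.prod MeasurableSet.univ) fun w hw => ?_
    have h1 : w.2 ∉ closedBall x s := fun h2 => hw.2 ⟨Ioo_subset_Icc_self hw.1.1, h2⟩
    rw [mem_closedBall, dist_eq_norm, not_le] at h1
    rw [Lk_eq_zero (hε.trans hw.1.1.1) (hw.1.1.2.le.trans h1.le), zero_mul]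
  have hP : Integrable (fun w : ℝ × E n => Lk w.1 (w.2 - x) * u w.2)
      ((volume.restrict (Ioo ε s)).prod volume) := by
    rw [IntegrableOn, ← Measure.prod_restrict, Measure.restrict_univ] at hI
    exact hI
  have h1 : IntegrableOn (fun t => -∫ y, Lk t (y - x) * u y) (Ioo ε s) :=
    hP.integral_prod_left.neg
  refine ⟨h1.congr_fun (fun t ht => (hPi t (hε.trans ht.1)).symm) measurableSet_Ioo, ?_⟩
  rw [setIntegral_congr_fun measurableSet_Ioo (fun t ht => hPi t (hε.trans ht.1)), integral_neg,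
    integral_integral_swap (f := fun t y => Lk t (y - x) * u y) hP,
    ← integral_sub (integrable_Rk_mul hε x h.cu) (integrable_Rk_mul (hε.trans_le hs) x h.cu),
    ← integral_neg]
  refine integral_congr_ae (Eventually.of_forall fun y => ?_)
  have h2 : ∫ t in ε..s, Lk t (y - x) = Rk s (y - x) - Rk ε (y - x) := by
    refine intervalIntegral.integral_eq_sub_of_hasDerivAt (f := fun t => Rk t (y - x))
      (fun t ht => hasDerivAt_Rk ?_ _) (ContinuousOn.intervalIntegrable ?_)
    · rw [uIcc_of_le hs] at ht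
      exact hε.trans_le ht.1
    · rw [uIcc_of_le hs]
      exact continuousOn_Lk.comp (f := fun t : ℝ => (t, y - x)) (by fun_prop)
        fun t ht => ⟨hε.trans_le ht.1, mem_univ _⟩
  rw [intervalIntegral.integral_of_le hs, integral_Ioc_eq_integral_Ioo] at h2
  simp only
  rw [integral_mul_const, h2]
  ring

theorem tendsto_avg {u : E n → ℝ} (hu : Continuous u) (x : E n) :
    Tendsto (fun ε => ∫ y, Rk ε (y - x) * u y) (𝓝[>] 0) (𝓝 (mass n * u x)) := by
  have e : ∀ ε : ℝ, 0 < ε →
      ∫ y, Rk ε (y - x) * u y = ∫ z : E n, rh (‖z‖ ^ 2) * u (ε • z + x) := by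
    intro ε hε
    have h1 := Measure.integral_comp_smul_of_nonneg (volume : Measure (E n))
      (fun w => rh (‖w‖ ^ 2 / ε ^ 2) * u (w + x)) ε (hR := hε.le)
    have h2 : ∀ z : E n, ‖ε • z‖ ^ 2 / ε ^ 2 = ‖z‖ ^ 2 := fun z => by
      rw [norm_smul, Real.norm_eq_abs, abs_of_pos hε]; field_simp
    simp only [h2, finrank_euclideanSpace, Fintype.card_fin, smul_eq_mul] at h1
    rw [h1, ← integral_add_right_eq_self _ x, ← integral_const_mul]
    refine integral_congr_ae (Eventually.of_forall fun y => ?_)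
    simp only [add_sub_cancel_right, Rk, mul_assoc]
  obtain ⟨M, hM⟩ := (isCompact_closedBall x 1).exists_bound_of_continuousOn hu.continuousOn
  have hlim : Tendsto (fun ε : ℝ => ∫ z : E n, rh (‖z‖ ^ 2) * u (ε • z + x)) (𝓝[>] 0)
      (𝓝 (∫ z : E n, rh (‖z‖ ^ 2) * u x)) := by
    refine tendsto_integral_filter_of_dominated_convergence (fun z => rh (‖z‖ ^ 2) * M)
      (Eventually.of_forall fun ε => ?_) ?_ (integrable_rh.mul_const M)
      (Eventually.of_forall fun z => ?_)
    · exact Continuous.aestronglyMeasurable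
        ((continuous_rh.comp (by fun_prop)).mul (hu.comp (by fun_prop)))
    · filter_upwards [Ioo_mem_nhdsGT (zero_lt_one' ℝ)] with ε hε
      refine Eventually.of_forall fun z => ?_
      rcases le_total 1 ‖z‖ with hz | hz
      · rw [rh_eq_zero (by nlinarith)]; simp
      · rw [norm_mul, Real.norm_of_nonneg (rh_nonneg _)]
        refine mul_le_mul_of_nonneg_left (hM _ ?_) (rh_nonneg _)
        rw [mem_closedBall, dist_eq_norm, add_sub_cancel_right, norm_smul, Real.norm_eq_abs,
          abs_of_pos hε.1]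
        exact mul_le_one₀ hε.2.le (norm_nonneg _) hz
    · have hc : Continuous fun ε : ℝ => rh (‖z‖ ^ 2) * u (ε • z + x) :=
        continuous_const.mul (hu.comp (by fun_prop))
      have := (hc.tendsto 0).mono_left (nhdsWithin_le_nhds (s := Ioi 0))
      simpa only [zero_smul, zero_add] using this
  rw [integral_mul_const] at hlim
  refine hlim.congr' ?_
  filter_upwards [self_mem_nhdsWithin] with ε hε
  exact (e ε hε).symm

end Vale.Agent.P100
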