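import Vale.Agent.P100.Core
import Vale.Agent.P100.Avg
import Vale.Agent.P100.Growth
import Vale.Agent.P100.Arith

/-!
# P100 Step: one step of the iteration

Plan.  `ϑ₀ = (n-2)/κ₀ ∈ [0,1)`, `δ = (1 - ϑ₀)/3`, `C` from `core`, `C₁` from `int_bounds`, `c₀` from `mn_lower` (twice).
`η = min (1/64) (δ/(C+1))`, `e = η d/R`, `ε₀ = min (1/8) (1/(|A|+|B|+1))` (so `|A| ε₀ d ≤ R ≤ (n+A) R`), `ω = (volume (ball 0 1)).toReal > 0`,
`M > 0` with `C · 2 (2/η)^n C₁ / M ≤ δ ε₀^n ω`, `a = mn u R`, `b = mn v R`, `s₁ = M (R/d)^(2n+1) b`, `s₂ = M (R/d)^(2n+1) a`.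
Apply `avg_odd` with `ρ = ε₀ d`, `W c = C (R/d) (Bad₁ c + Bad₂ c)`, `T c = Lin + Lin` (`Lin_neg`), `Z = δ En2 (r+d)`
(`integral_Bad`, `vol_Dset`, `arith_bad`, `En₁ + En₂ ≤ En2`).  Then `ϑ = ϑ₀ + 2δ`; the other terms by `arith_tau`, `arith_lip` and
`(R/d)^N₁ ≤ (R/d)^N` for `N₁ ≤ N` (`pow_le_pow_right₀`).
-/

open MeasureTheory Set Metric Filter Topology

noncomputable section

namespace Vale.Agent.P100

variable {n : ℕ}

private theorem step_En_le (hn : 3 ≤ n) {A B p q : ℝ} (hA : -2 < A) (hB : -2 < B) (hp : 0 < p)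
    (hq : 0 < q) {u v : E n → ℝ} (hu : Nice u) (hv : Nice v) (ρ : ℝ) :
    En A p v ρ + En B q u ρ ≤ En2 A B p q u v ρ := by
  have hn' : (3 : ℝ) ≤ n := by exact_mod_cast hn
  have h1 := En_nonneg A hp hv ρ
  have h2 := En_nonneg B hq hu ρ
  unfold En2
  nlinarith [mul_nonneg (show 0 ≤ (n : ℝ) + A - 1 by linarith) h1,
    mul_nonneg (show 0 ≤ (n : ℝ) + B - 1 by linarith) h2]

private theorem step_eta {C δ : ℝ} (hC : 0 ≤ C) (hδ0 : 0 < δ) :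
    ∃ η : ℝ, 0 < η ∧ 64 * η ≤ 1 ∧ C * η ≤ δ := by
  refine ⟨min (1 / 64) (δ / (C + 1)), lt_min (by norm_num) (by positivity), ?_, ?_⟩
  · have := min_le_left (1 / 64 : ℝ) (δ / (C + 1))
    linarith
  · have h1 := min_le_right (1 / 64 : ℝ) (δ / (C + 1))
    have h2 : C * (δ / (C + 1)) ≤ δ := by
      rw [← mul_div_assoc, div_le_iff₀ (by positivity)]
      nlinarith
    exact (mul_le_mul_of_nonneg_left h1 hC).trans h2

private theorem step_eps (A B : ℝ) : ∃ ε : ℝ, 0 < ε ∧ 8 * ε ≤ 1 ∧ |A| * ε ≤ 1 ∧ |B| * ε ≤ 1 := by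
  have hA0 := abs_nonneg A
  have hB0 := abs_nonneg B
  have h0 : (0 : ℝ) < |A| + |B| + 8 := by linarith
  refine ⟨1 / (|A| + |B| + 8), by positivity, ?_, ?_, ?_⟩
  · rw [mul_one_div, div_le_one h0]; linarith
  · rw [mul_one_div, div_le_one h0]; linarith
  · rw [mul_one_div, div_le_one h0]; linarith

private theorem step_M {C K D : ℝ} (hC : 0 ≤ C) (hK : 0 ≤ K) (hD : 0 < D) :
    ∃ M : ℝ, 0 < M ∧ C * (K / M) ≤ D := by
  have hCK : 0 ≤ C * K := mul_nonneg hC hK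
  refine ⟨(C * K + 1) / D, by positivity, ?_⟩
  rw [← mul_div_assoc, div_div_eq_mul_div, div_le_iff₀ (by positivity)]
  nlinarith

private theorem step_geo {R r d η ε : ℝ} {c : E n} (hr : R ≤ r) (hd : 0 < d) (hrd : r + d ≤ 2 * R)
    (hη0 : 0 < η) (hη1 : 64 * η ≤ 1) (hε1 : 8 * ε ≤ 1) (hc : ‖c‖ < ε * d) :
    Geo R r d (η * d / R) c := by
  have hR : 0 < R := by linarith
  refine ⟨hd, hr, hrd, by positivity, ?_, by nlinarith⟩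
  have e : 64 * (η * d / R) * R = 64 * η * d := by field_simp
  rw [e]
  nlinarith

private theorem step_cen (hn : 3 ≤ n) {A R d ε : ℝ} {c : E n} (hA : -2 < A) (hd : 0 < d) (hdR : d ≤ R)
    (hε : |A| * ε ≤ 1) (hc : ‖c‖ < ε * d) : |A| * ‖c‖ ≤ (n + A) * R := by
  have hn' : (3 : ℝ) ≤ n := by exact_mod_cast hn
  have h1 : |A| * ‖c‖ ≤ |A| * (ε * d) := mul_le_mul_of_nonneg_left hc.le (abs_nonneg A)
  have h2 : |A| * ε * d ≤ 1 * d := mul_le_mul_of_nonneg_right hε hd.le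
  have h3 : 1 * R ≤ (n + A) * R := mul_le_mul_of_nonneg_right (by linarith) (by linarith)
  linarith

private theorem step_fin1 {X T ϑ₀ δ C η G Z τ₁ τ₂ R I₁ I₂ K₁ K₂ K₃ P Y W : ℝ} (hC : 0 ≤ C) (hG : 0 ≤ G)
    (hη : C * η ≤ δ) (h : X - T ≤ (ϑ₀ + C * η) * G + C * Z * (τ₁ + τ₂) + C * R * (I₁ + I₂) + W)
    (ht₁ : Z * τ₁ ≤ K₁ * P * Y) (ht₂ : Z * τ₂ ≤ K₂ * P * Y) (hl₁ : R * I₁ ≤ 2 * K₃ * P * Y)
    (hl₂ : R * I₂ ≤ 2 * K₃ * P * Y) :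
    X - T ≤ (ϑ₀ + δ) * G + C * (K₁ + K₂ + 4 * K₃) * P * Y + W := by
  have h1 : C * η * G ≤ δ * G := mul_le_mul_of_nonneg_right hη hG
  have h2 := mul_le_mul_of_nonneg_left (add_le_add ht₁ ht₂) hC
  have h3 := mul_le_mul_of_nonneg_left (add_le_add hl₁ hl₂) hC
  linarith

private theorem step_fin2 {C Z b₁ b₂ w₁ w₂ K D E₁ E₂ G δ ε ω : ℝ} (hC : 0 ≤ C) (hZ : 0 ≤ Z) (hD : 0 ≤ D)
    (hE₁ : 0 ≤ E₁) (hE₂ : 0 ≤ E₂) (hE : E₁ + E₂ ≤ G) (hδ : 0 ≤ δ * (ε * ω))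
    (hb₁ : b₁ ≤ w₁) (hb₂ : b₂ ≤ w₂) (hw₁ : Z * w₁ ≤ K * D * E₁) (hw₂ : Z * w₂ ≤ K * D * E₂)
    (hM : C * K ≤ δ * (ε * ω)) : C * Z * (b₁ + b₂) ≤ δ * G * (ε * D * ω) := by
  have h1 := mul_le_mul_of_nonneg_left hb₁ hZ
  have h2 := mul_le_mul_of_nonneg_left hb₂ hZ
  have h3 := mul_le_mul_of_nonneg_left (add_le_add (h1.trans hw₁) (h2.trans hw₂)) hC
  have h4 : C * K * (D * (E₁ + E₂)) ≤ δ * (ε * ω) * (D * G) :=
    mul_le_mul hM (mul_le_mul_of_nonneg_left hE hD) (by positivity) hδ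
  linarith

theorem step (hn : 3 ≤ n) {A B p q κ C₀ : ℝ} (hA : -2 < A) (hB : -2 < B) (hp : 0 < p) (hq : 0 < q)
    (hκ : 0 < κ) (hC₀ : 0 < C₀) (hsub : (n : ℝ) - 2 < (n + A) / (p + 1) + (n + B) / (q + 1))
    {u v : E n → ℝ} (hu : Nice u) (hv : Nice v) (hu' : RepP κ C₀ u (fw A p v))
    (hv' : RepP κ C₀ v (fw B q u)) : ∃ (ϑ C : ℝ) (N : ℕ), 0 ≤ ϑ ∧ ϑ < 1 ∧ 0 ≤ C ∧
      ∀ R r d : ℝ, R ≤ r → 0 < d → r + d ≤ 2 * R →
        En2 A B p q u v r ≤ ϑ * En2 A B p q u v (r + d) +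
          C * (R ^ ((n : ℝ) - 2) * mn u R * mn v R) * (R / d) ^ N := by
  have hn' : (3 : ℝ) ≤ n := by exact_mod_cast hn
  obtain ⟨C, hC, hcore⟩ := core hn hA hB hp hq hκ hC₀
  obtain ⟨C₁, hC₁, hint⟩ := int_bounds hn hκ hC₀
  obtain ⟨c₁, hc₁, hlow₁⟩ := mn_lower hn hκ hC₀ A hp hu hv hu'
  obtain ⟨c₂, hc₂, hlow₂⟩ := mn_lower hn hκ hC₀ B hq hv hu hv'
  obtain ⟨ϑ₀, hϑ₀⟩ : ∃ ϑ₀ : ℝ, ϑ₀ = ((n : ℝ) - 2) / ((n + A) / (p + 1) + (n + B) / (q + 1)) := ⟨_, rfl⟩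
  have hκ₀ : 0 < ((n : ℝ) + A) / (p + 1) + (n + B) / (q + 1) := by linarith
  have hϑ0 : 0 ≤ ϑ₀ := by
    rw [hϑ₀]
    exact div_nonneg (by linarith) hκ₀.le
  have hϑ1 : ϑ₀ < 1 := by
    rw [hϑ₀]
    exact (div_lt_one hκ₀).2 hsub
  obtain ⟨δ, hδ⟩ : ∃ δ : ℝ, δ = (1 - ϑ₀) / 3 := ⟨_, rfl⟩
  have hδ0 : 0 < δ := by rw [hδ]; linarith
  obtain ⟨η, hη0, hη1, hη2⟩ := step_eta hC hδ0
  obtain ⟨ε, hε0, hε1, hεA, hεB⟩ := step_eps A B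
  obtain ⟨ω, hω⟩ : ∃ ω : ℝ, ω = (volume (ball (0 : E n) 1)).toReal := ⟨_, rfl⟩
  have hω0 : 0 < ω := by
    rw [hω]
    exact ENNReal.toReal_pos (measure_ball_pos _ _ one_pos).ne' measure_ball_lt_top.ne
  obtain ⟨M, hM0, hM⟩ := step_M (K := 2 * (2 / η) ^ n * C₁) (D := δ * (ε ^ n * ω)) hC
    (by positivity) (by positivity)
  obtain ⟨K₁, N₁, hK₁, htau₁⟩ := arith_tau n A hp hM0 hC₁ hc₁
  obtain ⟨K₂, N₂, hK₂, htau₂⟩ := arith_tau n B hq hM0 hC₁ hc₂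
  refine ⟨ϑ₀ + 2 * δ, C * (K₁ + K₂ + 4 * C₁ ^ 2), N₁ + N₂ + (n + 1), by linarith, by linarith,
    by positivity, ?_⟩
  intro R r d hr hd hrd
  have hdR : d ≤ R := by linarith
  have hR : 0 < R := hd.trans_le hdR
  have hX : 1 ≤ R / d := (one_le_div hd).2 hdR
  have ha : 0 < mn u R := mn_pos hu hR.le
  have hb : 0 < mn v R := mn_pos hv hR.le
  obtain ⟨hIf, hIu⟩ := hint u (fw A p v) hu (fw_nonneg A p hv.pos) hu' R hR
  obtain ⟨hIg, hIv⟩ := hint v (fw B q u) hv (fw_nonneg B q hu.pos) hv' R hR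
  have hIf0 : 0 ≤ ∫ x in ball (0 : E n) (2 * R), fw A p v x :=
    integral_nonneg fun x => fw_nonneg A p hv.pos x
  have hIg0 : 0 ≤ ∫ x in ball (0 : E n) (2 * R), fw B q u x :=
    integral_nonneg fun x => fw_nonneg B q hu.pos x
  have he0 : 0 < η * d / R := by positivity
  have he1 : η * d / R ≤ 1 := by
    rw [div_le_one hR]
    have := mul_le_mul_of_nonneg_right hη1 hd.le
    linarith only [this, hdR, hd]
  have hs₁ : 0 < M * (R / d) ^ (2 * n + 1) * mn v R := by positivity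
  have hs₂ : 0 < M * (R / d) ^ (2 * n + 1) * mn u R := by positivity
  obtain ⟨hD₁, hV₁⟩ := vol_Dset hv hs₁ (2 * R)
  obtain ⟨hD₂, hV₂⟩ := vol_Dset hu hs₂ (2 * R)
  obtain ⟨hB₁0, hB₁i, hB₁⟩ := integral_Bad he0 he1 (measurableSet_Dset hv.cont _ _) hD₁
    (measurable_Fw A p hv.cont) (Fw_nonneg A hp hv.pos) (integrableOn_Fw hn hA hp hv (r + d))
  obtain ⟨hB₂0, hB₂i, hB₂⟩ := integral_Bad he0 he1 (measurableSet_Dset hu.cont _ _) hD₂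
    (measurable_Fw B q hu.cont) (Fw_nonneg B hq hu.pos) (integrableOn_Fw hn hB hq hu (r + d))
  have hE₁ := En_nonneg A hp hv (r + d)
  have hE₂ := En_nonneg B hq hu (r + d)
  have hE := step_En_le hn hA hB hp hq hu hv (r + d)
  have hE0 : 0 ≤ En2 A B p q u v (r + d) := by linarith
  have hbad₁ := arith_bad n hη0 hM0 hC₁ hd hdR hb hE₁ hIv hV₁
  have hbad₂ := arith_bad n hη0 hM0 hC₁ hd hdR ha hE₂ hIu hV₂
  have ht₁ := htau₁ R d _ _ _ hd hdR ha hb (hlow₁ R hR) hIv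
  have ht₂ := htau₂ R d _ _ _ hd hdR hb ha (hlow₂ R hR) hIu
  have hl₁ := arith_lip hn hC₁ hd hdR ha hb hIf0 hIv hIg hIf
  have hl₂ := arith_lip hn hC₁ hd hdR hb ha hIg0 hIu hIf hIg
  obtain ⟨P, hP⟩ : ∃ P : ℝ, P = R ^ ((n : ℝ) - 2) * mn u R * mn v R := ⟨_, rfl⟩
  have hP' : R ^ ((n : ℝ) - 2) * mn v R * mn u R = P := by rw [hP]; ring
  have hP0 : 0 ≤ P := by rw [hP]; positivity
  rw [← hP] at ht₁ hl₁ ⊢
  rw [hP'] at ht₂ hl₂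
  obtain ⟨Y, hY⟩ : ∃ Y : ℝ, Y = (R / d) ^ (N₁ + N₂ + (n + 1)) := ⟨_, rfl⟩
  have hY₁ : (R / d) ^ N₁ ≤ Y := by rw [hY]; exact pow_le_pow_right₀ hX (by omega)
  have hY₂ : (R / d) ^ N₂ ≤ Y := by rw [hY]; exact pow_le_pow_right₀ hX (by omega)
  have hY₃ : (R / d) ^ (n + 1) ≤ Y := by rw [hY]; exact pow_le_pow_right₀ hX (by omega)
  rw [← hY]
  have ht₁' := ht₁.trans (mul_le_mul_of_nonneg_left hY₁ (mul_nonneg hK₁ hP0))
  have ht₂' := ht₂.trans (mul_le_mul_of_nonneg_left hY₂ (mul_nonneg hK₂ hP0))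
  have hC₁P : 0 ≤ 2 * C₁ ^ 2 * P := by positivity
  have hl₁' := hl₁.trans (mul_le_mul_of_nonneg_left hY₃ hC₁P)
  have hl₂' := hl₂.trans (mul_le_mul_of_nonneg_left hY₃ hC₁P)
  have key := avg_odd (n := n) (ρ := ε * d) (X := En2 A B p q u v r)
    (Y := (ϑ₀ + δ) * En2 A B p q u v (r + d) + C * (K₁ + K₂ + 4 * C₁ ^ 2) * P * Y)
    (Z := δ * En2 A B p q u v (r + d)) (by positivity)
    (W := fun c => C * (R / d) *
      (Bad c (η * d / R) (Dset v (M * (R / d) ^ (2 * n + 1) * mn v R) (2 * R)) (Fw A p v) (r + d) +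
        Bad c (η * d / R) (Dset u (M * (R / d) ^ (2 * n + 1) * mn u R) (2 * R)) (Fw B q u) (r + d)))
    (T := fun c => Lin A p v r c + Lin B q u r c) ((hB₁i.add hB₂i).const_mul _)
    (fun c => mul_nonneg (by positivity) (add_nonneg (hB₁0 c) (hB₂0 c)))
    (fun c => by simp only [Lin_neg]; ring) ?_ ?_
  · linarith only [key]
  · intro c hc
    have h := hcore u v hu hv hu' hv' R r d _ _ _ c (step_geo hr hd hrd hη0 hη1 hε1 hc) hs₁ hs₂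
      (step_cen hn hA hd hdR hεA hc) (step_cen hn hB hd hdR hεB hc)
    rw [← hϑ₀] at h
    have e : η * d / R * R / d = η := by field_simp
    rw [e] at h
    exact step_fin1 hC hE0 hη2 h ht₁' ht₂' hl₁' hl₂'
  · rw [integral_const_mul, integral_add hB₁i hB₂i, ← hω, mul_pow]
    exact step_fin2 hC (by positivity) (by positivity) hE₁ hE₂ hE (by positivity) hB₁ hB₂ hbad₁ hbad₂ hM

end Vale.Agent.P100
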