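import Vale.Agent.P100.Eta

/-!
# P100 Weak: the weak equation across the origin (`n ≥ 2`)

Plan.  Take `ε_k = 1/(k+1)`, `η_k` from `exists_eta`.  `green` for `ζ η_k` (its `tsupport` misses `0`) and `lap_mul`:
`∫ f ζ η_k = -∫ u (lap ζ) η_k - 2 ∑ᵢ ∫ u (pd i ζ)(pd i η_k) - ∫ u ζ lap η_k`  (`-lap u = f` off the null set `{0}`).
* first term `→ -∫ u lap ζ` (dominated convergence, `η_k y → 1` for `y ≠ 0`);
* second term is bounded by `M (C/ε) vol(closedBall 0 ε) = M C ω ε^(n-1) → 0`;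
* third: since `∫ lap η_k = 0`, it equals `∫ (uζ - (uζ)(0)) lap η_k`, bounded by
  `sup_{‖y‖ ≤ ε} |uζ - (uζ)(0)| · C ε⁻² ω εⁿ → 0` (`n ≥ 2`, `ε ≤ 1`, continuity of `uζ` at `0`);
  `Measure.addHaar_closedBall`, `norm_setIntegral_le_of_norm_le_const`.
* Fatou (`lintegral_liminf_le`) gives `∫⁻ ofReal (f ζ) < ∞`, then dominated convergence identifies the limit.
-/

open MeasureTheory Set Metric Filter Topology

noncomputable section

namespace Vale.Agent.P100

variable {n : ℕ}

/-- an integrand supported in the closed ball of radius `ε` -/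
private lemma weak_ball {g : E n → ℝ} {ε b : ℝ} (hε : 0 ≤ ε) (h0 : ∀ y, ε < ‖y‖ → g y = 0)
    (hb : ∀ y, ‖y‖ ≤ ε → |g y| ≤ b) :
    |∫ y, g y| ≤ b * (ε ^ n * (volume : Measure (E n)).real (ball 0 1)) := by
  rw [← setIntegral_eq_integral_of_forall_compl_eq_zero (s := closedBall 0 ε)
    (fun x hx => h0 x (by simpa using hx))]
  have h1 := norm_setIntegral_le_of_norm_le_const (μ := volume) (s := closedBall (0 : E n) ε)
    (f := g) (C := b) measure_closedBall_lt_top (fun x hx => hb x (by simpa using hx))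
  rw [Measure.addHaar_real_closedBall _ _ hε] at h1
  simpa using h1

private lemma weak_tendsto (hn : 2 ≤ n) {u ζ : E n → ℝ} (hu : Continuous u) (hζ : ContDiff ℝ 2 ζ)
    (hc : HasCompactSupport ζ) {C : ℝ} (hC : 0 ≤ C) {η : ℕ → E n → ℝ} {ε : ℕ → ℝ}
    (hε : ∀ k, 0 < ε k) (hε1 : ∀ k, ε k ≤ 1) (hε0 : Tendsto ε atTop (𝓝 0))
    (h1 : ∀ k, ContDiff ℝ 2 (η k)) (h2 : ∀ k y, 0 ≤ η k y ∧ η k y ≤ 1)
    (h4 : ∀ k y, ε k ≤ ‖y‖ → η k y = 1)
    (h5 : ∀ k y i, |pd i (η k) y| ≤ C / ε k) (h6 : ∀ k y, |lap (η k) y| ≤ C / ε k ^ 2)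
    (h7 : ∀ k y i, ε k < ‖y‖ → pd i (η k) y = 0) (h8 : ∀ k y, ε k < ‖y‖ → lap (η k) y = 0)
    (h9 : ∀ k, ∫ y, lap (η k) y = 0) :
    Tendsto (fun k => ∫ y, u y * lap (fun y => ζ y * η k y) y) atTop (𝓝 (∫ y, u y * lap ζ y)) := by
  obtain ⟨m, rfl⟩ : ∃ m, n = m + 2 := ⟨n - 2, by omega⟩
  set V : ℝ := (volume : Measure (E (m + 2))).real (ball 0 1)
  have hV : 0 ≤ V := measureReal_nonneg
  have hK := isCompact_closedBall (0 : E (m + 2)) 1
  obtain ⟨M1, hM1⟩ := hK.exists_bound_of_continuousOn (hu.mul (continuous_lap hζ)).continuousOn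
  obtain ⟨M2, hM2⟩ := hK.exists_bound_of_continuousOn
    (f := fun y => ∑ i, |u y * pd i ζ y|)
    (continuous_finsetSum _ fun i _ => (hu.mul (continuous_pd hζ i)).abs).continuousOn
  have hM10 : 0 ≤ M1 := (norm_nonneg _).trans (hM1 0 (by simp))
  have hM20 : 0 ≤ M2 := (norm_nonneg _).trans (hM2 0 (by simp))
  rw [Metric.tendsto_atTop]
  intro δ hδ
  set D : ℝ := (M1 + 2 * M2 * C + C) * V + 1 with hD
  have hD0 : 0 < D := by positivity
  have hcont : ContinuousAt (fun y => u y * ζ y) 0 := (hu.mul hζ.continuous).continuousAt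
  obtain ⟨ρ, hρ, hρ'⟩ := Metric.continuousAt_iff.1 hcont (δ / D) (by positivity)
  obtain ⟨N, hN⟩ := eventually_atTop.1
    (hε0.eventually (gt_mem_nhds (lt_min hρ (by positivity : 0 < δ / D))))
  refine ⟨N, fun k hk => ?_⟩
  have hk1 : ε k < ρ := (hN k hk).trans_le (min_le_left _ _)
  have hk2 : ε k < δ / D := (hN k hk).trans_le (min_le_right _ _)
  have hek := hε k
  have hl0 : Integrable (lap (η k)) := by
    refine (continuous_lap (h1 k)).integrable_of_hasCompactSupport ?_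
    exact HasCompactSupport.intro (isCompact_closedBall (0 : E (m + 2)) (ε k))
      fun y hy => h8 k y (by simpa using hy)
  have i1 := integrable_lap (hζ.mul (h1 k)) hc.mul_right hu
  have i2 := integrable_lap hζ hc hu
  have e : (∫ y, u y * lap (fun y => ζ y * η k y) y) - ∫ y, u y * lap ζ y =
      ∫ y, (u y * lap (fun y => ζ y * η k y) y - u y * lap ζ y - u 0 * ζ 0 * lap (η k) y) := by
    have i3 : Integrable (fun y => u y * lap (fun y => ζ y * η k y) y - u y * lap ζ y) := i1.sub i2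
    rw [integral_sub i3 (hl0.const_mul _), integral_sub i1 i2, integral_const_mul, h9 k]
    ring
  rw [Real.dist_eq, e]
  have hb := weak_ball (n := m + 2) (ε := ε k)
    (g := fun y => u y * lap (fun y => ζ y * η k y) y - u y * lap ζ y - u 0 * ζ 0 * lap (η k) y)
    (b := M1 + 2 * M2 * (C / ε k) + δ / D * (C / ε k ^ 2)) hek.le ?_ ?_
  · refine hb.trans_lt ?_
    have p1 : ε k ^ m ≤ 1 := pow_le_one₀ hek.le (hε1 k)
    have p2 : (M1 + 2 * M2 * (C / ε k) + δ / D * (C / ε k ^ 2)) * (ε k ^ (m + 2) * V) =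
        (M1 * ε k * ε k + 2 * M2 * C * ε k + δ / D * C) * V * ε k ^ m := by
      field_simp
      ring
    rw [p2]
    have p3 : M1 * ε k * ε k + 2 * M2 * C * ε k + δ / D * C ≤ δ / D * (M1 + 2 * M2 * C + C) := by
      have q1 : M1 * ε k * ε k ≤ M1 * 1 * (δ / D) := by gcongr; exact hε1 k
      have q2 : 2 * M2 * C * ε k ≤ 2 * M2 * C * (δ / D) := by gcongr
      nlinarith
    calc _ ≤ δ / D * (M1 + 2 * M2 * C + C) * V * 1 := by gcongr
      _ = δ / D * (D - 1) := by rw [hD]; ring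
      _ < δ / D * D := by gcongr; linarith
      _ = δ := by field_simp
  · intro y hy
    rw [lap_mul hζ.contDiffAt (h1 k).contDiffAt, h8 k y hy, h4 k y hy.le]
    simp [h7 k y _ hy]
  · intro y hy
    have hy1 : y ∈ closedBall (0 : E (m + 2)) 1 := by simpa using hy.trans (hε1 k)
    rw [lap_mul hζ.contDiffAt (h1 k).contDiffAt]
    have e2 : u y * (lap ζ y * η k y + 2 * ∑ i, pd i ζ y * pd i (η k) y + ζ y * lap (η k) y) -
        u y * lap ζ y - u 0 * ζ 0 * lap (η k) y =
        u y * lap ζ y * (η k y - 1) + 2 * ∑ i, u y * pd i ζ y * pd i (η k) y +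
          (u y * ζ y - u 0 * ζ 0) * lap (η k) y := by
      have : ∑ i, u y * pd i ζ y * pd i (η k) y = u y * ∑ i, pd i ζ y * pd i (η k) y := by
        rw [Finset.mul_sum]; exact Finset.sum_congr rfl fun i _ => by ring
      rw [this]; ring
    rw [e2]
    have t1 : |u y * lap ζ y * (η k y - 1)| ≤ M1 := by
      rw [abs_mul]
      have c1 : |η k y - 1| ≤ 1 := by
        rw [abs_le]; constructor <;> linarith [(h2 k y).1, (h2 k y).2]
      calc _ ≤ M1 * 1 := by gcongr; exact hM1 y hy1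
        _ = M1 := mul_one _
    have t2 : |∑ i, u y * pd i ζ y * pd i (η k) y| ≤ M2 * (C / ε k) := by
      refine (Finset.abs_sum_le_sum_abs _ _).trans ?_
      have c1 : ∑ i, |u y * pd i ζ y| ≤ M2 := (le_abs_self _).trans (hM2 y hy1)
      calc ∑ i, |u y * pd i ζ y * pd i (η k) y| ≤ ∑ i, |u y * pd i ζ y| * (C / ε k) := by
            refine Finset.sum_le_sum fun i _ => ?_
            rw [abs_mul]; gcongr; exact h5 k y i
        _ = (∑ i, |u y * pd i ζ y|) * (C / ε k) := by rw [Finset.sum_mul]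
        _ ≤ M2 * (C / ε k) := by gcongr
    have t3 : |(u y * ζ y - u 0 * ζ 0) * lap (η k) y| ≤ δ / D * (C / ε k ^ 2) := by
      rw [abs_mul]
      have c1 : |u y * ζ y - u 0 * ζ 0| ≤ δ / D := by
        have := hρ' (x := y) (by simpa using hy.trans_lt hk1)
        rw [Real.dist_eq] at this
        exact this.le
      gcongr
      exact h6 k y
    rw [abs_le] at t1 t2 t3 ⊢
    constructor <;> linarith [t1.1, t1.2, t2.1, t2.2, t3.1, t3.2]

theorem weak_eq (hn : 2 ≤ n) {u f : E n → ℝ} (h : Sup u f) {ζ : E n → ℝ} (hζ : ContDiff ℝ 2 ζ)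
    (hc : HasCompactSupport ζ) (h0 : ∀ y, 0 ≤ ζ y) :
    Integrable (fun y => f y * ζ y) ∧ ∫ y, f y * ζ y = -∫ y, u y * lap ζ y := by
  have : Nontrivial (E n) := by
    apply Module.nontrivial_of_finrank_pos (R := ℝ); simp; omega
  obtain ⟨C, hC, hη⟩ := exists_eta n
  have hpos : ∀ k : ℕ, (0 : ℝ) < 1 / ((k : ℝ) + 1) := fun k => by positivity
  choose η h1 h2 h3 h4 h5 h6 h7 h8 h9 using fun k : ℕ => hη _ (hpos k)
  have lim := (weak_tendsto hn h.cu hζ hc hC hpos
    (fun k => by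
      rw [div_le_one (by positivity)]; have := Nat.cast_nonneg (α := ℝ) k; linarith)
    tendsto_one_div_add_atTop_nhds_zero_nat h1 h2 h4 h5 h6 h7 h8 h9).neg
  have hae : ∀ᵐ x : E n, x ≠ 0 := compl_mem_ae_iff.2 (measure_singleton (0 : E n))
  have step : ∀ k, Integrable (fun y => f y * (ζ y * η k y)) ∧
      ∫ y, f y * (ζ y * η k y) = -∫ y, u y * lap (fun y => ζ y * η k y) y := by
    intro k
    have hs : (0 : E n) ∉ tsupport (fun y => ζ y * η k y) := by
      rw [notMem_tsupport_iff_eventuallyEq]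
      filter_upwards [ball_mem_nhds (0 : E n) (half_pos (hpos k))] with y hy
      simp only [h3 k y (by simpa using hy), mul_zero, Pi.zero_apply]
    obtain ⟨g1, g2⟩ := green h.du (hζ.mul (h1 k)) hc.mul_right hs
    have e : (fun y => -(lap u y * (ζ y * η k y))) =ᵐ[volume] fun y => f y * (ζ y * η k y) := by
      filter_upwards [hae] with y hy
      rw [← h.eq y hy]; ring
    exact ⟨g1.neg.congr e, by rw [g2, ← integral_neg]; exact integral_congr_ae e.symm⟩
  have hnn : ∀ k y, 0 ≤ f y * (ζ y * η k y) := fun k y =>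
    mul_nonneg (h.nf y) (mul_nonneg (h0 y) (h2 k y).1)
  have hpt : ∀ᵐ y : E n, Tendsto (fun k => f y * (ζ y * η k y)) atTop (𝓝 (f y * ζ y)) := by
    filter_upwards [hae] with y hy
    apply tendsto_const_nhds.congr'
    filter_upwards [(tendsto_one_div_add_atTop_nhds_zero_nat (𝕜 := ℝ)).eventually
      (gt_mem_nhds (norm_pos_iff.2 hy))] with k hk
    rw [h4 k y hk.le, mul_one]
  have hm : Measurable fun y => f y * ζ y := h.mf.mul hζ.continuous.measurable
  have hint : Integrable (fun y => f y * ζ y) := by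
    refine ⟨hm.aestronglyMeasurable, ?_⟩
    rw [hasFiniteIntegral_iff_ofReal (Eventually.of_forall fun y => mul_nonneg (h.nf y) (h0 y))]
    have f1 : ∫⁻ y, ENNReal.ofReal (f y * ζ y) =
        ∫⁻ y, liminf (fun k => ENNReal.ofReal (f y * (ζ y * η k y))) atTop := by
      refine lintegral_congr_ae ?_
      filter_upwards [hpt] with y hy
      exact (ENNReal.tendsto_ofReal hy).liminf_eq.symm
    have f2 := lintegral_liminf_le (μ := volume) (u := atTop)
      (f := fun k y => ENNReal.ofReal (f y * (ζ y * η k y)))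
      fun k => (h.mf.mul (hζ.mul (h1 k)).continuous.measurable).ennreal_ofReal
    have f3 : ∀ k, ∫⁻ y, ENNReal.ofReal (f y * (ζ y * η k y)) =
        ENNReal.ofReal (-∫ y, u y * lap (fun y => ζ y * η k y) y) := fun k => by
      rw [← (step k).2, ofReal_integral_eq_lintegral_ofReal (step k).1
        (Eventually.of_forall (hnn k))]
    simp_rw [f3] at f2
    rw [(ENNReal.tendsto_ofReal lim).liminf_eq] at f2
    rw [f1]
    exact f2.trans_lt ENNReal.ofReal_lt_top
  refine ⟨hint, tendsto_nhds_unique ?_ lim⟩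
  simp_rw [← fun k => (step k).2]
  refine tendsto_integral_of_dominated_convergence (fun y => f y * ζ y)
    (fun k => (step k).1.aestronglyMeasurable) hint (fun k => Eventually.of_forall fun y => ?_) hpt
  rw [Real.norm_of_nonneg (hnn k y)]
  have := h.nf y
  have := h0 y
  calc f y * (ζ y * η k y) ≤ f y * (ζ y * 1) := by gcongr; exact (h2 k y).2
    _ = _ := by rw [mul_one]

end Vale.Agent.P100
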